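import Vale.Agent.P162.Enc

/-! The matching probability at a node is governed by cycles. -/

namespace Vale.Agent.P162
open Finset Equiv
open scoped BigOperators

variable {Y : Type*} [Fintype Y] [DecidableEq Y]

lemma cyc_core (U₀ U₁ : Finset Y) (g₀ g₁ : Perm Y) (A : (Y ⊕ Y → Bool) → Prop)
    (h0 : ∀ ω ω', A ω → A ω' → ∀ u ∈ U₀,
      (ω (Sum.inl u) = ω' (Sum.inl u) ↔ ω (Sum.inr (g₀ u)) = ω' (Sum.inr (g₀ u))))
    (h1 : ∀ ω ω', A ω → A ω' → ∀ u ∈ U₁,
      (ω (Sum.inl u) = ω' (Sum.inl u) ↔ ω (Sum.inr (g₁ u)) = ω' (Sum.inr (g₁ u)))) :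
    2 ^ (U₀.card + U₁.card) * 𝔼 ω, ind (A ω) ≤
      2 ^ ((univ.image (orb (g₀⁻¹ * g₁))).filter fun O => O ⊆ U₀ ∩ U₁).card := by
  classical
  set γ := g₀⁻¹ * g₁ with hγ
  set S := (univ.image (orb γ)).filter fun O => O ⊆ U₀ ∩ U₁ with hS
  have hch : ∀ O : S, ∃ x, x ∈ O.1 := by
    rintro ⟨O, hO⟩
    obtain ⟨x, _, rfl⟩ := mem_image.1 (mem_filter.1 hO).1
    exact ⟨x, self_mem_orb _ _⟩
  choose c hc using hch
  let Ld : Finset Y := univ.image c
  have hLd : Ld.card ≤ S.card := card_image_le.trans (by simp)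
  let F : Finset (Y ⊕ Y) := (U₀ \ Ld).disjSum (U₁.image g₁)
  have hF : U₀.card + U₁.card ≤ F.card + S.card := by
    rw [card_disjSum, card_image_of_injective _ g₁.injective]
    have := le_card_sdiff Ld U₀
    omega
  have hk := kraft A (fun _ => F) (fun ω ω' hω hω' h => by
    have hB : ∀ u, ω (Sum.inl u) ≠ ω' (Sum.inl u) → u ∈ U₀ ∧ u ∉ Ld ∧ γ⁻¹ u ∈ U₁ ∧
        ω (Sum.inl (γ⁻¹ u)) ≠ ω' (Sum.inl (γ⁻¹ u)) := by
      intro u hu
      have a1 : Sum.inl u ∈ F := by
        by_contra hc; exact hu (h _ hc hc)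
      have a1 : u ∈ U₀ \ Ld := inl_mem_disjSum.1 a1
      have a2 : ω (Sum.inr (g₀ u)) ≠ ω' (Sum.inr (g₀ u)) :=
        fun e => hu ((h0 ω ω' hω hω' u (mem_sdiff.1 a1).1).2 e)
      have a3 : Sum.inr (g₀ u) ∈ F := by
        by_contra hc; exact a2 (h _ hc hc)
      obtain ⟨w, hw, e⟩ := mem_image.1 (inr_mem_disjSum.1 a3)
      have e2 : γ⁻¹ u = w := by
        rw [hγ, mul_inv_rev, inv_inv, Perm.mul_apply, ← e]; simp
      refine ⟨(mem_sdiff.1 a1).1, (mem_sdiff.1 a1).2, e2 ▸ hw, ?_⟩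
      rw [e2]
      intro e3
      exact a2 (e ▸ (h1 ω ω' hω hω' w hw).1 e3)
    have hL : ∀ u, ω (Sum.inl u) = ω' (Sum.inl u) := by
      intro u
      by_contra hu
      have a1 : ∀ n : ℕ, ω (Sum.inl ((γ⁻¹ ^ n) u)) ≠ ω' (Sum.inl ((γ⁻¹ ^ n) u)) := by
        intro n
        induction n with
        | zero => exact hu
        | succ n ih => rw [pow_succ', Perm.mul_apply]; exact (hB _ ih).2.2.2
      have a2 : ∀ v ∈ orb γ u, ω (Sum.inl v) ≠ ω' (Sum.inl v) := by
        intro v hv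
        obtain ⟨n, rfl⟩ := (Perm.sameCycle_inv.2 (mem_orb.1 hv)).exists_nat_pow_eq
        exact a1 n
      have a3 : orb γ u ∈ S := by
        refine mem_filter.2 ⟨mem_image_of_mem _ (mem_univ _), fun v hv => mem_inter.2
          ⟨(hB v (a2 v hv)).1, ?_⟩⟩
        have := (hB (γ v) (a2 _ (mem_orb.2 (Perm.sameCycle_apply_right.2 (mem_orb.1 hv))))).2.2.1
        simpa using this
      exact (hB _ (a2 _ (hc ⟨_, a3⟩))).2.1 (mem_image_of_mem _ (mem_univ _))
    funext z
    rcases z with u | v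
    · exact hL u
    · by_cases hv : Sum.inr v ∈ F
      · obtain ⟨w, hw, rfl⟩ := mem_image.1 (inr_mem_disjSum.1 hv)
        exact (h1 ω ω' hω hω' w hw).1 (hL w)
      · exact h _ hv hv)
  rw [← expect_mul] at hk
  have hp : (0:ℝ) ≤ 𝔼 ω, ind (A ω) := expect_nonneg fun _ _ => ind_nonneg _
  have h2 : (2:ℝ) ^ (U₀.card + U₁.card) ≤ 2 ^ F.card * 2 ^ S.card := by
    rw [← pow_add]; exact pow_le_pow_right₀ (by norm_num) hF
  calc (2:ℝ) ^ (U₀.card + U₁.card) * 𝔼 ω, ind (A ω)
      ≤ 2 ^ F.card * 2 ^ S.card * 𝔼 ω, ind (A ω) := mul_le_mul_of_nonneg_right h2 hp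
    _ = 2 ^ S.card * ((𝔼 ω, ind (A ω)) * 2 ^ F.card) := by ring
    _ ≤ 2 ^ S.card * 1 := mul_le_mul_of_nonneg_left hk (by positivity)
    _ = _ := mul_one _

lemma orbits_in (γ : Perm Y) (U : Finset Y) (a : ℕ) :
    (((univ.image (orb γ)).filter fun O => O ⊆ U).card : ℝ) ≤ U.card / 2 ^ a + short a γ := by
  classical
  set L := (univ.image (orb γ)).filter fun O => O ⊆ U ∧ 2 ^ a ≤ O.card with hL
  have h1 : ((univ.image (orb γ)).filter fun O => O ⊆ U).card ≤ L.card + short a γ := by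
    refine le_trans (card_le_card ?_) (card_union_le _ _)
    intro O hO
    simp only [hL, mem_union, mem_filter] at hO ⊢
    by_cases h : O.card ≤ 2 ^ a
    · exact Or.inr ⟨hO.1, h⟩
    · exact Or.inl ⟨hO.1, hO.2, by omega⟩
  have h2 : L.card * 2 ^ a ≤ U.card := by
    have hd : (L : Set (Finset Y)).PairwiseDisjoint id := by
      intro O hO O' hO' hne
      rw [Function.onFun, Finset.disjoint_left]
      intro z hz hz'
      obtain ⟨x, _, rfl⟩ := mem_image.1 (mem_filter.1 hO).1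
      obtain ⟨x', _, rfl⟩ := mem_image.1 (mem_filter.1 hO').1
      exact hne (orb_eq_of ((mem_orb.1 hz).trans (mem_orb.1 hz').symm))
    calc L.card * 2 ^ a ≤ ∑ O ∈ L, O.card := by
          rw [← smul_eq_mul]
          exact card_nsmul_le_sum _ _ _ fun O hO => (mem_filter.1 hO).2.2
      _ = (L.biUnion id).card := (card_biUnion hd).symm
      _ ≤ U.card := card_le_card (biUnion_subset.2 fun O hO => (mem_filter.1 hO).2.1)
  have h3 : (L.card : ℝ) ≤ U.card / 2 ^ a := by
    rw [le_div_iff₀ (by positivity)]; exact_mod_cast h2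
  have h4 : (((univ.image (orb γ)).filter fun O => O ⊆ U).card : ℝ) ≤ L.card + short a γ := by
    exact_mod_cast h1
  linarith

variable {A : Type*} [Fintype A]

/-- normalised matching probability -/
noncomputable def kap (x x' : A → Y × Bool) : ℝ :=
  2 ^ Fintype.card A * 𝔼 a : Y → Bool, 𝔼 a' : Y → Bool,
    ind (∀ i, (lay a (x i)).2 = (lay a' (x' i)).2)

lemma kap_nonneg (x x' : A → Y × Bool) : 0 ≤ kap x x' :=
  mul_nonneg (by positivity) (expect_nonneg fun _ _ => expect_nonneg fun _ _ => ind_nonneg _)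

theorem kap_le (x x' : A → Y × Bool) (hx : Function.Injective x) (g : Bool → Perm Y)
    (a₀ a₀' : Y → Bool) (h : ∀ i, bsum g (lay a₀ (x i)) = lay a₀' (x' i)) (a : ℕ) :
    kap x x' ≤ Real.exp (Fintype.card A / 2 ^ a) * 2 ^ short a ((g false)⁻¹ * g true) := by
  classical
  let U : Bool → Finset Y := fun b =>
    (univ.filter fun i => (lay a₀ (x i)).2 = b).image fun i => (x i).1
  have hU : ∀ b, (U b).card = (univ.filter fun i => (lay a₀ (x i)).2 = b).card := by
    intro b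
    refine card_image_of_injOn fun i hi j hj e => hx ((lay a₀).injective (Prod.ext e ?_))
    rw [(mem_filter.1 hi).2, (mem_filter.1 hj).2]
  have hsum : (U false).card + (U true).card = Fintype.card A := by
    rw [hU, hU, ← card_univ, ← card_filter_add_card_filter_not (s := univ)
      (fun i => (lay a₀ (x i)).2 = false)]
    simp
  let P : (Y ⊕ Y → Bool) → Prop := fun ω =>
    ∀ i, (lay (fun u => ω (Sum.inl u)) (x i)).2 = (lay (fun u => ω (Sum.inr u)) (x' i)).2
  have key : ∀ b ω ω', P ω → P ω' → ∀ u ∈ U b,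
      (ω (Sum.inl u) = ω' (Sum.inl u) ↔ ω (Sum.inr (g b u)) = ω' (Sum.inr (g b u))) := by
    intro b ω ω' p p' u hu
    obtain ⟨i, hi, rfl⟩ := mem_image.1 hu
    have e : g b (x i).1 = (x' i).1 := by
      have := congrArg Prod.fst (h i)
      rw [← (mem_filter.1 hi).2]
      exact this
    rw [e]
    have p1 := p i
    have p2 := p' i
    simp only [lay_apply] at p1 p2
    revert p1 p2
    cases (x i).2 <;> cases (x' i).2 <;> cases ω (Sum.inl (x i).1) <;>
      cases ω' (Sum.inl (x i).1) <;> cases ω (Sum.inr (x' i).1) <;>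
      cases ω' (Sum.inr (x' i).1) <;> simp
  have h1 := cyc_core (U false) (U true) (g false) (g true) P (key false) (key true)
  have h2 : 𝔼 ω, ind (P ω) = 𝔼 a : Y → Bool, 𝔼 a' : Y → Bool,
      ind (∀ i, (lay a (x i)).2 = (lay a' (x' i)).2) := by
    rw [← E_prod (fun p : (Y → Bool) × (Y → Bool) =>
      ind (∀ i, (lay p.1 (x i)).2 = (lay p.2 (x' i)).2))]
    exact Fintype.expect_equiv (Equiv.sumArrowEquivProdArrow _ _ _) _ _ fun _ => rfl
  rw [h2, hsum] at h1
  refine h1.trans ?_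
  have h3 := orbits_in ((g false)⁻¹ * g true) (U false ∩ U true) a
  have h4 : ((U false ∩ U true).card : ℝ) ≤ Fintype.card A := by
    have := card_le_card (inter_subset_left (s₁ := U false) (s₂ := U true))
    exact_mod_cast (by omega : (U false ∩ U true).card ≤ Fintype.card A)
  have h5 : ((U false ∩ U true).card : ℝ) / 2 ^ a ≤ Fintype.card A / 2 ^ a := by gcongr
  rw [← Real.rpow_natCast]
  refine (Real.rpow_le_rpow_of_exponent_le (by norm_num) (h3.trans (add_le_add_left h5 _))).trans ?_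
  rw [Real.rpow_add (by norm_num), Real.rpow_natCast]
  refine mul_le_mul_of_nonneg_right ?_ (by positivity)
  rw [Real.rpow_def_of_pos (by norm_num)]
  refine Real.exp_le_exp.2 (mul_le_of_le_one_left (by positivity) ?_)
  linarith [Real.log_two_lt_d9]

end Vale.Agent.P162
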