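import Mathlib

namespace Vale.Agent.P162

/-- The law of one Thorp shuffle on positions `0, …, n-1`: the cards in positions `i` and
`n/2 + i` go to positions `2i` and `2i+1` in either order; each of the `2^(n/2)` such
permutations has probability `2^(-n/2)`. -/
noncomputable def thorp (n : ℕ) (σ : Equiv.Perm (Fin n)) : ℝ :=
  if ∀ x : Fin n, (σ x : ℕ) / 2 = (x : ℕ) % (n / 2) then (1 / 2) ^ (n / 2) else 0

/-- convolution on a finite group -/
noncomputable def conv {G : Type} [Group G] [Fintype G] (μ ν : G → ℝ) (g : G) : ℝ :=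
  ∑ h, μ h * ν (h⁻¹ * g)

/-- convolution powers -/
noncomputable def cpow {G : Type} [Group G] [Fintype G] [DecidableEq G] (μ : G → ℝ) :
    ℕ → G → ℝ
  | 0 => fun g => if g = 1 then 1 else 0
  | t + 1 => conv (cpow μ t) μ

/-- total variation distance to the uniform law -/
noncomputable def tvUnif {G : Type} [Fintype G] (μ : G → ℝ) : ℝ :=
  1 / 2 * ∑ g, |μ g - 1 / Fintype.card G|

/-- the mixing time of the Thorp shuffle -/
noncomputable def tmix (n : ℕ) : ℕ := sInf {t : ℕ | tvUnif (cpow (thorp n) t) ≤ 1 / 4}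

end Vale.Agent.P162
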