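import Vale.Agent.P162.Moment

/-! Moment bound for the joint density of several cards in the two-sided network. -/

namespace Vale.Agent.P162
open Finset Equiv
open scoped BigOperators

/-- sample space -/
abbrev Sp (s j : ℕ) : Type := Xi s j × (Sw (s + j) → Bool) × (Sw (s + j) → Bool)

variable {s : ℕ} (κ : Perm (Q s) → ℝ)

/-- product weight -/
def Wt : ∀ j, Xi s j → ℝ
  | 0, ξ => κ ξ
  | j+1, ξ => Wt j (ξ false) * Wt j (ξ true)

/-- expectation -/
noncomputable def EX (j : ℕ) (F : Sp s j → ℝ) : ℝ :=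
  ∑ ξ, Wt κ j ξ * 𝔼 p : (Sw (s + j) → Bool) × (Sw (s + j) → Bool), F (ξ, p)

/-- the random permutation -/
def gS {j : ℕ} (σ : Sp s j) : Perm (Q (s + j)) := gg s j σ.2.2 σ.2.1 σ.1

/-- the weight function -/
noncomputable def VV {j : ℕ} (σ : Sp s j) : ℝ :=
  Real.exp (tot (fun _ => Real.log 2 / 127) s j σ.2.2 σ.2.1 σ.1)

/-- gluing -/
def mkS {j : ℕ} (aa : (Q (s + j) → Bool) × (Q (s + j) → Bool)) (σ₀ σ₁ : Sp s j) : Sp s (j + 1) :=
  (fun b => cond b σ₁.1 σ₀.1, join (l := s + j) aa.2 (fun b => cond b σ₁.2.1 σ₀.2.1),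
    join (l := s + j) aa.1 (fun b => cond b σ₁.2.2 σ₀.2.2))

lemma sum_bool2 {Ω : Type*} [Fintype Ω] (F : (Bool → Ω) → ℝ) :
    ∑ w, F w = ∑ x : Ω, ∑ y : Ω, F (fun b => cond b y x) := by
  classical
  rw [← Fintype.sum_prod_type' (fun x y : Ω => F (fun b => cond b y x))]
  refine Fintype.sum_equiv (Equiv.boolArrowEquivProd Ω) _ _ (fun w => ?_)
  congr 1
  funext b
  cases b <;> rfl

lemma E_split2 {l : ℕ} (F : (Sw (l+1) → Bool) × (Sw (l+1) → Bool) → ℝ) :
    𝔼 p, F p = 𝔼 aa : (Q l → Bool) × (Q l → Bool), 𝔼 p₀ : (Sw l → Bool) × (Sw l → Bool),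
      𝔼 p₁ : (Sw l → Bool) × (Sw l → Bool),
      F (join aa.2 (fun b => cond b p₁.1 p₀.1), join aa.1 (fun b => cond b p₁.2 p₀.2)) := by
  let e : ((Q l → Bool) × (Q l → Bool)) × ((Sw l → Bool) × (Sw l → Bool)) ×
      ((Sw l → Bool) × (Sw l → Bool)) ≃ (Sw (l+1) → Bool) × (Sw (l+1) → Bool) :=
    { toFun := fun q => (join q.1.2 (fun b => cond b q.2.2.1 q.2.1.1),
        join q.1.1 (fun b => cond b q.2.2.2 q.2.1.2))
      invFun := fun p => ((top p.2, top p.1), (sub p.1 false, sub p.2 false),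
        (sub p.1 true, sub p.2 true))
      left_inv := fun _ => rfl
      right_inv := fun p => by
        ext z <;> rcases z with u | ⟨b, z⟩ <;> (try cases b) <;> rfl }
  rw [← Fintype.expect_equiv e (fun q => F (e q)) F (fun _ => rfl), E_prod]
  refine expect_congr rfl fun aa _ => ?_
  rw [E_prod]
  rfl

lemma EX_succ (j : ℕ) (F : Sp s (j + 1) → ℝ) :
    EX κ (j + 1) F = 𝔼 aa : (Q (s + j) → Bool) × (Q (s + j) → Bool),
      EX κ j fun σ₀ => EX κ j fun σ₁ => F (mkS aa σ₀ σ₁) := by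
  have h1 := sum_bool2 (Ω := Xi s j) fun ξ => Wt κ (j + 1) ξ *
    𝔼 p : (Sw (s + j + 1) → Bool) × (Sw (s + j + 1) → Bool), F (ξ, p)
  refine Eq.trans h1 ?_
  have h2 := fun ξ : Xi s (j + 1) => E_split2 (l := s + j) fun p => F (ξ, p)
  simp only [h2]
  simp only [EX, mul_expect, mul_sum, expect_sum_comm, Wt, cond_true, cond_false,
    mul_assoc]
  rfl

variable {κ}

lemma Wt_nonneg (hκ : ∀ g, 0 ≤ κ g) : ∀ j ξ, 0 ≤ Wt κ j ξ
  | 0, ξ => hκ ξ
  | j+1, _ => mul_nonneg (Wt_nonneg hκ j _) (Wt_nonneg hκ j _)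

lemma sum_Wt (hκ : ∑ g, κ g = 1) : ∀ j, ∑ ξ, Wt κ j ξ = 1
  | 0 => hκ
  | j+1 => by
    have h1 := sum_bool2 (Ω := Xi s j) fun ξ => Wt κ (j + 1) ξ
    refine Eq.trans h1 ?_
    simp only [Wt, cond_true, cond_false, ← mul_sum, sum_Wt hκ j, mul_one]

lemma EX_mono (hκ : ∀ g, 0 ≤ κ g) {j : ℕ} {F G : Sp s j → ℝ} (h : ∀ σ, F σ ≤ G σ) :
    EX κ j F ≤ EX κ j G :=
  sum_le_sum fun _ _ => mul_le_mul_of_nonneg_left (expect_le_expect fun _ _ => h _)
    (Wt_nonneg hκ _ _)

lemma EX_nonneg (hκ : ∀ g, 0 ≤ κ g) {j : ℕ} {F : Sp s j → ℝ} (h : ∀ σ, 0 ≤ F σ) :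
    0 ≤ EX κ j F :=
  sum_nonneg fun _ _ => mul_nonneg (Wt_nonneg hκ _ _) (expect_nonneg fun _ _ => h _)

lemma EX_mul_left {j : ℕ} (c : ℝ) (F : Sp s j → ℝ) :
    EX κ j (fun σ => c * F σ) = c * EX κ j F := by
  simp only [EX, ← mul_expect, mul_sum, mul_left_comm]

lemma EX_mul_right {j : ℕ} (c : ℝ) (F : Sp s j → ℝ) :
    EX κ j (fun σ => F σ * c) = EX κ j F * c := by
  simp only [mul_comm _ c, EX_mul_left]

lemma EX_sum {j : ℕ} {ι : Type*} (T : Finset ι) (F : ι → Sp s j → ℝ) :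
    EX κ j (fun σ => ∑ i ∈ T, F i σ) = ∑ i ∈ T, EX κ j (F i) := by
  simp only [EX, expect_sum_comm, mul_sum]
  exact sum_comm

lemma EX_VV (hκ : ∀ g, 0 ≤ κ g) (hκ1 : ∑ g, κ g = 1) (j : ℕ) (hs : j ≠ 0 → 48 ≤ s) :
    EX κ j VV ≤ Real.exp (2 ^ (s + j) * (32 * (1/2) ^ (s / 16))) := by
  calc EX κ j VV ≤ ∑ ξ, Wt κ j ξ * Real.exp (2 ^ (s + j) * (32 * (1/2) ^ (s / 16))) := by
        refine sum_le_sum fun ξ _ => mul_le_mul_of_nonneg_left ?_ (Wt_nonneg hκ _ _)
        rw [E_prod]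
        exact expect_le univ_nonempty fun ω' _ => moment s j hs ω' ξ
    _ = _ := by rw [← sum_mul, sum_Wt hκ1, one_mul]

variable (κ) in
/-- transition probability for a list of cards -/
noncomputable def pr (j : ℕ) {A : Type} (x x' : A → Q (s + j)) : ℝ :=
  EX κ j fun σ => ind (∀ i, gS σ (x i) = x' i)

lemma pr_nonneg (hκ : ∀ g, 0 ≤ κ g) (j : ℕ) {A : Type} (x x' : A → Q (s + j)) :
    0 ≤ pr κ j x x' := EX_nonneg hκ fun _ => ind_nonneg _

/-- admissible lists -/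
def Good (full : Prop) {A X : Type} (x : A → X) : Prop :=
  Function.Injective x ∧ (full → Function.Surjective x)

/-- restriction to one half -/
def half {A Y : Type} (a : Y → Bool) (x₀ : A → Y × Bool) (b : Bool) (x : A → Y × Bool) :
    {i // (lay a (x₀ i)).2 = b} → Y := fun i => (x i.1).1

lemma Good.half {full : Prop} {A Y : Type} (a : Y → Bool) {x : A → Y × Bool} (h : Good full x)
    (b : Bool) : Good full (half a x b x) := by
  refine ⟨fun i j e => Subtype.ext (h.1 ((lay a).injective (Prod.ext e ?_))), fun hf u => ?_⟩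
  · rw [i.2, j.2]
  · obtain ⟨i, hi⟩ := h.2 hf (lay a (u, b))
    exact ⟨⟨i, by rw [hi, lay_lay]⟩, by simp [Vale.Agent.P162.half, hi]⟩

lemma card_half {A Y : Type} [Fintype A] (a : Y → Bool) (x : A → Y × Bool) :
    Fintype.card {i // (lay a (x i)).2 = false} + Fintype.card {i // (lay a (x i)).2 = true} =
      Fintype.card A := by
  rw [Fintype.card_subtype, Fintype.card_subtype, ← card_univ,
    ← card_filter_add_card_filter_not (s := univ) (fun i => (lay a (x i)).2 = false)]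
  simp

lemma ev_split {A Y : Type} (a a' : Y → Bool) (g : Bool → Perm Y) (x x' : A → Y × Bool) :
    (∀ i, lay a' (bsum g (lay a (x i))) = x' i) ↔
      (∀ i, (lay a (x i)).2 = (lay a' (x' i)).2) ∧
      (∀ i, g false (half a x false x i) = half a x false x' i) ∧
      (∀ i, g true (half a x true x i) = half a x true x' i) := by
  constructor
  · intro h
    refine ⟨fun i => by rw [← h i, lay_lay]; rfl, fun i => ?_, fun i => ?_⟩
    · have := congrArg Prod.fst (h i.1)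
      simp only [lay_apply, bsum_apply] at this
      have e := i.2
      simp only [lay_apply] at e
      rw [e] at this
      exact this
    · have := congrArg Prod.fst (h i.1)
      simp only [lay_apply, bsum_apply] at this
      have e := i.2
      simp only [lay_apply] at e
      rw [e] at this
      exact this
  · rintro ⟨h, h0, h1⟩ i
    apply (lay a').injective
    rw [lay_lay]
    refine Prod.ext ?_ (h i)
    cases e : (lay a (x i)).2
    · have := h0 ⟨i, e⟩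
      rw [bsum_apply, e]; exact this
    · have := h1 ⟨i, e⟩
      rw [bsum_apply, e]; exact this

lemma gS_mk {j : ℕ} (aa) (σ₀ σ₁ : Sp s j) (p : Q (s + j) × Bool) :
    gS (mkS aa σ₀ σ₁) p = lay aa.2 (bsum (fun b => cond b (gS σ₁) (gS σ₀)) (lay aa.1 p)) := by
  have : (fun b => cond b (gS σ₁) (gS σ₀)) = fun b => gg s j (cond b σ₁.2.2 σ₀.2.2)
      (cond b σ₁.2.1 σ₀.2.1) (cond b σ₁.1 σ₀.1) := by
    funext b; cases b <;> rfl
  rw [this]; rfl

lemma VV_mk {j : ℕ} (aa) (σ₀ σ₁ : Sp s j) :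
    VV (mkS aa σ₀ σ₁) = (2 ^ short ((s + j + 1) / 16) ((gS σ₀)⁻¹ * gS σ₁)) ^ (1 / 127 : ℝ) *
      (VV σ₀ * VV σ₁) := by
  have : VV (mkS aa σ₀ σ₁) = Real.exp (Real.log 2 / 127 *
      short ((s + j + 1) / 16) ((gS σ₀)⁻¹ * gS σ₁) +
      tot (fun _ => Real.log 2 / 127) s j σ₀.2.2 σ₀.2.1 σ₀.1 +
      tot (fun _ => Real.log 2 / 127) s j σ₁.2.2 σ₁.2.1 σ₁.1) := rfl
  rw [this, Real.exp_add, Real.exp_add, mul_assoc]
  congr 1
  rw [Real.rpow_def_of_pos (by positivity), Real.log_pow]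
  congr 1; ring

lemma holder_E {ι : Type*} [Fintype ι] (w f : ι → ℝ) (hw : ∀ i, 0 ≤ w i) (hf : ∀ i, 0 ≤ f i) :
    (𝔼 i, w i * f i) ^ (128 / 127 : ℝ) ≤
      (𝔼 i, w i) ^ (1 / 127 : ℝ) * 𝔼 i, w i * f i ^ (128 / 127 : ℝ) := by
  have h := Real.compact_inner_le_weight_mul_Lp_of_nonneg univ (p := 128 / 127) (by norm_num)
    hw hf
  have a1 : 0 ≤ 𝔼 i, w i := expect_nonneg fun i _ => hw i
  have a2 : 0 ≤ 𝔼 i, w i * f i ^ (128 / 127 : ℝ) :=
    expect_nonneg fun i _ => mul_nonneg (hw i) (Real.rpow_nonneg (hf i) _)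
  refine (Real.rpow_le_rpow (expect_nonneg fun i _ => mul_nonneg (hw i) (hf i)) h
    (by norm_num)).trans (le_of_eq ?_)
  rw [Real.mul_rpow (by positivity) (by positivity), ← Real.rpow_mul a1, ← Real.rpow_mul a2]
  norm_num

theorem dens (hκ : ∀ g, 0 ≤ κ g) (full : Prop) {c₀ Λ : ℝ} (hc : 0 ≤ c₀) (hΛ : 0 ≤ Λ)
    (hbase : ∀ (A : Type) [Fintype A] (x x' : A → Q (s + 0)), Good full x →
      ((2:ℝ) ^ s) ^ Fintype.card A * pr κ 0 x x' ≤ c₀ * Λ ^ Fintype.card A) :
    ∀ j (A : Type) [Fintype A] (x x' : A → Q (s + j)), Good full x →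
      (((2:ℝ) ^ (s + j)) ^ Fintype.card A * pr κ j x x') ^ (128 / 127 : ℝ) ≤
        (c₀ ^ 2 ^ j * Λ ^ Fintype.card A * Real.exp (Fintype.card A * sig s j)) ^ (1 / 127 : ℝ) *
        (((2:ℝ) ^ (s + j)) ^ Fintype.card A *
          EX κ j fun σ => VV σ * ind (∀ i, gS σ (x i) = x' i)) := by
  intro j
  induction j with
  | zero =>
    intro A _ x x' hx
    have h1 := hbase A x x' hx
    have h0 : 0 ≤ ((2:ℝ) ^ (s + 0)) ^ Fintype.card A * pr κ 0 x x' :=
      mul_nonneg (by positivity) (pr_nonneg hκ _ _ _)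
    have e : (fun σ : Sp s 0 => VV σ * ind (∀ i, gS σ (x i) = x' i)) =
        fun σ : Sp s 0 => ind (∀ i, gS σ (x i) = x' i) := by
      funext σ; simp [VV, tot]
    rw [e, show (128 / 127 : ℝ) = 1 / 127 + 1 by norm_num, Real.rpow_add_one' h0 (by norm_num)]
    refine mul_le_mul_of_nonneg_right (Real.rpow_le_rpow h0 ?_ (by norm_num)) h0
    simpa [sig] using h1
  | succ j ih =>
    intro A _ x x' hx
    classical
    set N : ℝ := 2 ^ (s + j) with hN
    set k := Fintype.card A with hk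
    let M : (Q (s + j) → Bool) × (Q (s + j) → Bool) → Prop := fun aa =>
      ∀ i, (lay aa.1 (x i)).2 = (lay aa.2 (x' i)).2
    let ev : ∀ (aa : (Q (s + j) → Bool) × (Q (s + j) → Bool)) (b : Bool), Sp s j → Prop :=
      fun aa b σ => ∀ i, gS σ (half aa.1 x b x i) = half aa.1 x b x' i
    have hev : ∀ aa σ₀ σ₁, (∀ i, gS (mkS aa σ₀ σ₁) (x i) = x' i) ↔
        M aa ∧ ev aa false σ₀ ∧ ev aa true σ₁ := by
      intro aa σ₀ σ₁
      refine Iff.trans ?_ (ev_split aa.1 aa.2 (fun b => cond b (gS σ₁) (gS σ₀)) x x')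
      exact forall_congr' fun i => by rw [← gS_mk]
    let kb : (Q (s + j) → Bool) × (Q (s + j) → Bool) → Bool → ℕ := fun aa b =>
      Fintype.card {i // (lay aa.1 (x i)).2 = b}
    have hkb : ∀ aa, kb aa false + kb aa true = k := fun aa => card_half aa.1 x
    let f : (Q (s + j) → Bool) × (Q (s + j) → Bool) → Bool → ℝ := fun aa b =>
      N ^ kb aa b * pr κ j (half aa.1 x b x) (half aa.1 x b x')
    have hf : ∀ aa b, 0 ≤ f aa b := fun aa b => mul_nonneg (by positivity) (pr_nonneg hκ _ _ _)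
    have hN2 : (2:ℝ) ^ (s + (j + 1)) = 2 * N := by rw [hN, ← add_assoc, pow_succ']
    have e1 : ((2:ℝ) ^ (s + (j + 1))) ^ k * pr κ (j + 1) x x' =
        2 ^ k * 𝔼 aa, ind (M aa) * (f aa false * f aa true) := by
      rw [hN2, mul_pow, mul_assoc, pr, EX_succ, mul_expect]
      congr 1
      refine expect_congr rfl fun aa _ => ?_
      simp only [ind_congr (hev aa _ _), ind_and, EX_mul_left, EX_mul_right, f]
      rw [← hkb aa, pow_add]
      simp only [pr, ev]
      ring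
    set B := c₀ ^ 2 ^ (j + 1) * Λ ^ k * Real.exp (k * sig s j) with hB
    have hB0 : 0 ≤ B := by positivity
    have hVV : ∀ {j} (σ : Sp s j), 0 ≤ VV σ := fun σ => (Real.exp_pos _).le
    have e2 : ∀ aa, (f aa false * f aa true) ^ (128 / 127 : ℝ) ≤ B ^ (1 / 127 : ℝ) * (N ^ k *
        EX κ j fun σ₀ => EX κ j fun σ₁ =>
          VV σ₀ * ind (ev aa false σ₀) * (VV σ₁ * ind (ev aa true σ₁))) := by
      intro aa
      rw [Real.mul_rpow (hf _ _) (hf _ _)]
      have i0 := ih _ _ (half aa.1 x false x') (hx.half aa.1 false)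
      have i1 := ih _ _ (half aa.1 x true x') (hx.half aa.1 true)
      refine (mul_le_mul i0 i1 (Real.rpow_nonneg (hf _ _) _) ((Real.rpow_nonneg (hf _ _) _).trans
        i0)).trans (le_of_eq ?_)
      simp only [EX_mul_left, EX_mul_right]
      rw [mul_mul_mul_comm, ← Real.mul_rpow (by positivity) (by positivity), hB, ← hkb aa]
      congr 1
      · congr 1
        push_cast
        rw [add_mul, Real.exp_add, pow_succ, pow_mul, pow_add]
        ring
      · rw [pow_add]; ring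
    have hkap : kap x x' = 2 ^ k * 𝔼 aa, ind (M aa) := by
      rw [kap, E_prod]; rfl
    have hPM : 0 ≤ 𝔼 aa, ind (M aa) := expect_nonneg fun _ _ => ind_nonneg _
    have e3 : (((2:ℝ) ^ (s + (j + 1))) ^ k * pr κ (j + 1) x x') ^ (128 / 127 : ℝ) ≤
        kap x x' ^ (1 / 127 : ℝ) * (2 ^ k *
          𝔼 aa, ind (M aa) * (f aa false * f aa true) ^ (128 / 127 : ℝ)) := by
      have hff : ∀ aa, 0 ≤ f aa false * f aa true := fun aa => mul_nonneg (hf _ _) (hf _ _)
      rw [e1, Real.mul_rpow (by positivity)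
        (expect_nonneg fun aa _ => mul_nonneg (ind_nonneg _) (hff aa)), hkap,
        Real.mul_rpow (by positivity) hPM]
      refine (mul_le_mul_of_nonneg_left (holder_E _ _ (fun _ => ind_nonneg _) hff)
        (by positivity)).trans (le_of_eq ?_)
      rw [show (128 / 127 : ℝ) = 1 / 127 + 1 by norm_num,
        Real.rpow_add_one (by positivity : (2:ℝ) ^ k ≠ 0)]
      ring
    refine e3.trans ?_
    set D := Real.exp (k * (1/2) ^ ((s + j + 1) / 16)) with hD
    have e4 : c₀ ^ 2 ^ (j + 1) * Λ ^ k * Real.exp (k * sig s (j + 1)) = B * D := by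
      rw [sig, sum_range_succ, ← sig, mul_add, Real.exp_add, hB]; ring
    rw [e4, Real.mul_rpow hB0 (by positivity), EX_succ, hN2, mul_pow]
    have e5 : ∀ aa, kap x x' ^ (1 / 127 : ℝ) *
        (ind (M aa) * (f aa false * f aa true) ^ (128 / 127 : ℝ)) ≤
        B ^ (1 / 127 : ℝ) * D ^ (1 / 127 : ℝ) * N ^ k * EX κ j fun σ₀ => EX κ j fun σ₁ =>
          VV (mkS aa σ₀ σ₁) * ind (∀ i, gS (mkS aa σ₀ σ₁) (x i) = x' i) := by
      intro aa
      have k0 := Real.rpow_nonneg (kap_nonneg x x') (1 / 127 : ℝ)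
      refine (mul_le_mul_of_nonneg_left (mul_le_mul_of_nonneg_left (e2 aa) (ind_nonneg _))
        k0).trans ?_
      have : (EX κ j fun σ₀ => EX κ j fun σ₁ => kap x x' ^ (1 / 127 : ℝ) * ind (M aa) *
          (VV σ₀ * ind (ev aa false σ₀) * (VV σ₁ * ind (ev aa true σ₁)))) ≤
          EX κ j fun σ₀ => EX κ j fun σ₁ => D ^ (1 / 127 : ℝ) *
          (VV (mkS aa σ₀ σ₁) * ind (∀ i, gS (mkS aa σ₀ σ₁) (x i) = x' i)) := by
        refine EX_mono hκ fun σ₀ => EX_mono hκ fun σ₁ => ?_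
        by_cases hE : ∀ i, gS (mkS aa σ₀ σ₁) (x i) = x' i
        · obtain ⟨h1, h2, h3⟩ := (hev aa σ₀ σ₁).1 hE
          rw [ind_of hE, ind_of h1, ind_of h2, ind_of h3, VV_mk]
          have h4 := kap_le x x' hx.1 (fun b => cond b (gS σ₁) (gS σ₀)) aa.1 aa.2 (fun i => by
            rw [← hE i, gS_mk, lay_lay]) ((s + j + 1) / 16)
          have h5 := Real.rpow_le_rpow (kap_nonneg x x') h4 (by norm_num : (0:ℝ) ≤ 1 / 127)
          rw [Real.mul_rpow (by positivity) (by positivity)] at h5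
          have h6 : Real.exp (Fintype.card A / 2 ^ ((s + j + 1) / 16)) = D := by
            rw [hD, one_div, inv_pow, div_eq_mul_inv]
          rw [h6] at h5
          have := mul_le_mul_of_nonneg_right h5 (mul_nonneg (hVV σ₀) (hVV σ₁))
          simpa only [mul_one, mul_assoc, cond_true, cond_false] using this
        · rw [ind_of_not hE, mul_zero, mul_zero]
          have : ind (M aa) * (ind (ev aa false σ₀) * ind (ev aa true σ₁)) = 0 := by
            rw [← ind_and, ← ind_and, ← ind_congr (hev aa σ₀ σ₁), ind_of_not hE]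
          refine le_of_eq ?_
          linear_combination (kap x x' ^ (1 / 127 : ℝ) * VV σ₀ * VV σ₁) * this
      simp only [EX_mul_left] at this
      have h7 := mul_le_mul_of_nonneg_left this
        (show 0 ≤ B ^ (1 / 127 : ℝ) * N ^ k by positivity)
      simp only [EX_mul_left]
      linarith
    have e6 := mul_le_mul_of_nonneg_left (expect_le_expect (s := univ) fun aa _ => e5 aa)
      (show (0:ℝ) ≤ 2 ^ k by positivity)
    rw [← mul_expect, ← mul_expect] at e6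
    linarith

theorem dens_row (hκ : ∀ g, 0 ≤ κ g) (hκ1 : ∑ g, κ g = 1) (full : Prop) {c₀ Λ : ℝ}
    (hc : 0 ≤ c₀) (hΛ : 0 ≤ Λ)
    (hbase : ∀ (A : Type) [Fintype A] (x x' : A → Q (s + 0)), Good full x →
      ((2:ℝ) ^ s) ^ Fintype.card A * pr κ 0 x x' ≤ c₀ * Λ ^ Fintype.card A)
    (j : ℕ) (hs : j ≠ 0 → 48 ≤ s) (A : Type) [Fintype A] [DecidableEq A] (x : A → Q (s + j))
    (hx : Good full x) :
    ∑ x', pr κ j x x' ^ (128 / 127 : ℝ) ≤
      (c₀ ^ 2 ^ j * Λ ^ Fintype.card A * Real.exp (Fintype.card A * (32 * (1/2) ^ (s / 16))) /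
        ((2:ℝ) ^ (s + j)) ^ Fintype.card A) ^ (1 / 127 : ℝ) *
      Real.exp (2 ^ (s + j) * (32 * (1/2) ^ (s / 16))) := by
  set P : ℝ := ((2:ℝ) ^ (s + j)) ^ Fintype.card A with hP
  have hP0 : 0 < P := by positivity
  set B := c₀ ^ 2 ^ j * Λ ^ Fintype.card A * Real.exp (Fintype.card A * sig s j) with hB
  have h1 : ∀ x', pr κ j x x' ^ (128 / 127 : ℝ) ≤ (B / P) ^ (1 / 127 : ℝ) *
      EX κ j fun σ => VV σ * ind (∀ i, gS σ (x i) = x' i) := by
    intro x'
    have := dens hκ full hc hΛ hbase j A x x' hx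
    rw [← hP, ← hB, Real.mul_rpow hP0.le (pr_nonneg hκ _ _ _),
      show (128 / 127 : ℝ) = 1 / 127 + 1 by norm_num, Real.rpow_add_one hP0.ne'] at this
    have hP1 : 0 < P ^ (1 / 127 : ℝ) := by positivity
    rw [Real.div_rpow (by positivity) hP0.le, div_mul_eq_mul_div, le_div_iff₀ hP1,
      show (128 / 127 : ℝ) = 1 / 127 + 1 by norm_num]
    refine le_of_mul_le_mul_left ?_ hP0
    linarith
  refine (sum_le_sum fun x' _ => h1 x').trans ?_
  rw [← mul_sum, ← EX_sum]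
  refine mul_le_mul (Real.rpow_le_rpow (by positivity) ?_ (by norm_num)) ?_
    (EX_nonneg hκ fun σ => sum_nonneg fun _ _ => mul_nonneg (Real.exp_pos _).le (ind_nonneg _))
    (by positivity)
  · have := sig_le s j
    rw [hB]
    gcongr
  · refine le_trans (le_of_eq ?_) (EX_VV hκ hκ1 j hs)
    congr 1
    funext σ
    rw [← mul_sum]
    have : ∀ x' : A → Q (s + j), ind (∀ i, gS σ (x i) = x' i) =
        ind ((fun i => gS σ (x i)) = x') * 1 := fun x' => by
      rw [mul_one]; exact ind_congr funext_iff.symm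
    rw [sum_congr rfl fun x' _ => this x', sum_ind_eq, mul_one]

end Vale.Agent.P162
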