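import Vale.Agent.P162.High2

/-! Qualitative convergence. -/

namespace Vale.Agent.P162
open Finset Equiv
open scoped BigOperators

section gen
variable {G : Type} [Group G] [Fintype G]

lemma conv_ge {μ ν : G → ℝ} (h : ∀ g, 0 ≤ μ g) (h' : ∀ g, 0 ≤ ν g) (a b : G) :
    μ a * ν b ≤ conv μ ν (a * b) := by
  have := single_le_sum (f := fun x => μ x * ν (x⁻¹ * (a * b)))
    (fun x _ => mul_nonneg (h _) (h' _)) (mem_univ a)
  simpa [conv] using this

variable [DecidableEq G]

/-- elements reached with positive probability -/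
def reach {μ : G → ℝ} (hμ : Pr μ) : Submonoid G where
  carrier := {g | ∃ t, 0 < cpow μ t g}
  one_mem' := ⟨0, by simp [cpow]⟩
  mul_mem' := by
    rintro a b ⟨s, hs⟩ ⟨t, ht⟩
    exact ⟨s + t, by
      rw [cpow_add]; exact (mul_pos hs ht).trans_le (conv_ge (hμ.cpow s).1 (hμ.cpow t).1 a b)⟩

theorem doeblin {μ : G → ℝ} (hμ : Pr μ) (h1 : 0 < μ 1) (h : ∀ g, g ∈ reach hμ) {ε : ℝ}
    (hε : 0 < ε) : ∃ R₀, ∀ R, R₀ ≤ R → ∀ g, |cpow μ R g - 1 / Fintype.card G| ≤ ε := by
  have mono : ∀ g s t, s ≤ t → 0 < cpow μ s g → 0 < cpow μ t g := by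
    intro g s t hst hs
    induction hst with
    | refl => exact hs
    | @step m _ ih =>
      have := conv_ge (hμ.cpow m).1 hμ.1 g 1
      rw [mul_one] at this
      exact (mul_pos ih h1).trans_le this
  choose t ht using h
  let r := univ.sup t
  have hr : ∀ g, 0 < cpow μ r g := fun g => mono g _ _ (le_sup (mem_univ g)) (ht g)
  obtain ⟨g₀, _, hg₀⟩ := exists_min_image univ (cpow μ r) univ_nonempty
  set c := cpow μ r g₀ with hc
  have hc0 : 0 < c := hr g₀
  have hN : (1:ℝ) ≤ Fintype.card G := by exact_mod_cast Fintype.card_pos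
  have hsum : ∑ g, (cpow μ r g - c) = 1 - Fintype.card G * c := by
    rw [sum_sub_distrib, (hμ.cpow r).2]; simp
  have hc1 : 0 ≤ 1 - c := by
    have : 0 ≤ ∑ g, (cpow μ r g - c) := sum_nonneg fun g _ => sub_nonneg.2 (hg₀ g (mem_univ _))
    nlinarith
  have main : ∀ i s g, |cpow μ (r * i + s) g - 1 / Fintype.card G| ≤ (1 - c) ^ i := by
    intro i
    induction i with
    | zero =>
      intro s g
      have a1 := (hμ.cpow (r * 0 + s)).1 g
      have a2 : cpow μ (r * 0 + s) g ≤ 1 := by
        rw [← (hμ.cpow (r * 0 + s)).2]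
        exact single_le_sum (fun x _ => (hμ.cpow _).1 x) (mem_univ g)
      have a3 : (1:ℝ) / Fintype.card G ≤ 1 := by rw [div_le_one (by linarith)]; exact hN
      have a4 : (0:ℝ) ≤ 1 / Fintype.card G := by positivity
      rw [pow_zero, abs_le]; constructor <;> linarith
    | succ i ih =>
      intro s g
      have e : cpow μ (r * (i + 1) + s) g - 1 / Fintype.card G =
          ∑ h, (cpow μ r h - c) * (cpow μ (r * i + s) (h⁻¹ * g) - 1 / Fintype.card G) := by
        have e1 : ∑ h, cpow μ (r * i + s) (h⁻¹ * g) = 1 := by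
          rw [← (hμ.cpow (r * i + s)).2]
          exact Equiv.sum_comp ((Equiv.inv G).trans (Equiv.mulRight g)) _
        rw [show r * (i + 1) + s = r + (r * i + s) by ring, cpow_add]
        simp only [sub_mul, mul_sub, sum_sub_distrib, ← sum_mul, ← mul_sum, e1, (hμ.cpow r).2,
          sum_const, card_univ, nsmul_eq_mul, conv]
        field_simp
        ring
      rw [e]
      refine (abs_sum_le_sum_abs _ _).trans ?_
      calc _ ≤ ∑ h, (cpow μ r h - c) * (1 - c) ^ i := sum_le_sum fun h _ => by
            rw [abs_mul, abs_of_nonneg (sub_nonneg.2 (hg₀ h (mem_univ _)))]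
            exact mul_le_mul_of_nonneg_left (ih s _) (sub_nonneg.2 (hg₀ h (mem_univ _)))
        _ ≤ _ := by
            rw [← sum_mul, hsum, pow_succ']
            exact mul_le_mul_of_nonneg_right (by nlinarith) (pow_nonneg hc1 _)
  obtain ⟨i, hi⟩ := exists_pow_lt_of_lt_one hε (show 1 - c < 1 by linarith)
  refine ⟨r * i, fun R hR g => ?_⟩
  obtain ⟨s, rfl⟩ := Nat.exists_eq_add_of_le hR
  exact (main i s g).trans hi.le

end gen

lemma bf_zero : ∀ l, bf l (fun _ => false) = 1
  | 0 => rfl
  | l+1 => by
    refine Equiv.ext fun ⟨u, b⟩ => ?_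
    rw [bf_succ_apply]
    have : ∀ c, sub (l := l) (fun _ => false) c = fun _ => false := fun _ => rfl
    rw [this, bf_zero l]
    simp [top]

lemma generate : ∀ (l : ℕ) (M : Submonoid (Perm (Q l))), (∀ ω, bf l ω ∈ M) → ∀ g, g ∈ M
  | 0, M, _, g => by rw [Subsingleton.elim g 1]; exact M.one_mem
  | l+1, M, h, g => by
    have half : ∀ (c : Bool) (g : Perm (Q l)), bsum (fun b => if b = c then g else 1) ∈ M := by
      intro c
      let M' : Submonoid (Perm (Q l)) :=
        { carrier := {g | bsum (fun b => if b = c then g else 1) ∈ M}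
          one_mem' := by
            show bsum _ ∈ M
            simp only [ite_self]; exact M.one_mem
          mul_mem' := fun {a b} ha hb => by
            have := M.mul_mem ha hb
            rw [bsum_mul] at this
            show bsum _ ∈ M
            convert this using 3
            split_ifs <;> simp }
      refine generate l M' fun ω => ?_
      have := h (join (fun _ => false) fun b => if b = c then ω else fun _ => false)
      show bsum _ ∈ M
      convert this using 1
      refine Equiv.ext fun ⟨u, b⟩ => ?_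
      rw [bf_succ_apply, top_join, sub_join, bsum_apply]
      simp only [Bool.xor_false]
      split_ifs
      · rfl
      · rw [bf_zero]
    have s1 : ∀ (u v : Q l) c, swap (u, c) (v, c) ∈ M := by
      intro u v c
      convert half c (swap u v) using 1
      refine Equiv.ext fun ⟨w, b⟩ => ?_
      rw [bsum_apply]
      by_cases hb : b = c
      · subst hb
        simp only [if_true, swap_apply_def, Prod.mk.injEq, and_true]
        split_ifs <;> rfl
      · rw [swap_apply_of_ne_of_ne (by simp [hb]) (by simp [hb])]; simp [hb]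
    have s2 : ∀ u : Q l, swap (u, false) (u, true) ∈ M := by
      intro u
      have := h (join (sw u) fun _ _ => false)
      convert this using 1
      rw [← lay_sw]
      refine Equiv.ext fun ⟨w, b⟩ => ?_
      rw [bf_succ_apply, top_join, sub_join, bf_zero]; rfl
    have s3 : ∀ u v : Q l, swap (u, false) (v, true) ∈ M := by
      intro u v
      have := M.mul_mem (M.mul_mem (s1 u v true) (s2 u)) (s1 u v true)
      rw [mul_swap_eq_swap_mul _ (u, false), mul_assoc, swap_mul_self, mul_one, swap_apply_left,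
        swap_apply_of_ne_of_ne (by simp) (by simp)] at this
      exact this
    induction g using Perm.swap_induction_on with
    | one => exact M.one_mem
    | swap_mul f x y _ ih =>
      refine M.mul_mem ?_ ih
      rcases x with ⟨u, b⟩
      rcases y with ⟨v, c⟩
      cases b <;> cases c
      · exact s1 _ _ _
      · exact s3 _ _
      · rw [swap_comm]; exact s3 _ _
      · exact s1 _ _ _

lemma nu_pos (l : ℕ) (ω : Sw l → Bool) : 0 < nu l (bf l ω) :=
  expect_pos' (fun _ _ => ind_nonneg _) ⟨ω, mem_univ _, by rw [ind_of rfl]; exact one_pos⟩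

theorem doeblin_Q (l : ℕ) {μ : Perm (Q l) → ℝ} (hμ : Pr μ) (h : ∀ ω, 0 < μ (bf l ω)) {ε : ℝ}
    (hε : 0 < ε) :
    ∃ R₀, ∀ R, R₀ ≤ R → ∀ g, |cpow μ R g - 1 / Fintype.card (Perm (Q l))| ≤ ε :=
  doeblin hμ (bf_zero l ▸ h _) (generate l _ fun ω => ⟨1, by rw [cpow_one]; exact h ω⟩) hε

lemma ben_pos (l : ℕ) (ω : Sw l → Bool) : 0 < conv (star (nu l)) (nu l) (bf l ω) := by
  have := conv_ge (nu_Pr l).star.1 (nu_Pr l).1 1 (bf l ω)
  rw [one_mul] at this
  refine lt_of_lt_of_le (mul_pos ?_ (nu_pos l ω)) this
  rw [star, inv_one, ← bf_zero]; exact nu_pos _ _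

end Vale.Agent.P162
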