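import Vale.Agent.P162.Net

/-! Exponential moments of the number of short cycles, by an encoding argument. -/

namespace Vale.Agent.P162
open Finset Equiv
open scoped BigOperators

section orbits
variable {X : Type*} [Fintype X] [DecidableEq X]

open Classical in
/-- the orbit of a point -/
noncomputable def orb (γ : Perm X) (x : X) : Finset X := univ.filter (γ.SameCycle x)

lemma mem_orb {γ : Perm X} {x y : X} : y ∈ orb γ x ↔ γ.SameCycle x y := by simp [orb]

lemma orb_eq_of {γ : Perm X} {x y : X} (h : γ.SameCycle x y) : orb γ x = orb γ y := by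
  ext z; rw [mem_orb, mem_orb]
  exact ⟨fun h' => h.symm.trans h', fun h' => h.trans h'⟩

lemma self_mem_orb (γ : Perm X) (x : X) : x ∈ orb γ x := mem_orb.2 (Perm.SameCycle.refl _ _)

/-- the number of short orbits -/
noncomputable def short (a : ℕ) (γ : Perm X) : ℕ :=
  ((univ.image (orb γ)).filter fun O => O.card ≤ 2 ^ a).card

lemma orb_data (γ : Perm X) (x : X) : (γ ^ (orb γ x).card) x = x ∧
    ∀ i j, i < (orb γ x).card → j < (orb γ x).card → (γ ^ i) x = (γ ^ j) x → i = j := by
  have hper : x ∈ Function.periodicPts γ := γ.injective.mem_periodicPts x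
  have hpos := Function.minimalPeriod_pos_of_mem_periodicPts hper
  have hinj := Function.iterate_injOn_Iio_minimalPeriod (f := γ) (x := x)
  have : orb γ x = (range (Function.minimalPeriod γ x)).image fun i => γ^[i] x := by
    ext y
    rw [mem_orb, mem_image]
    constructor
    · intro h
      obtain ⟨i, hi⟩ := h.exists_nat_pow_eq
      refine ⟨i % Function.minimalPeriod γ x, mem_range.2 (Nat.mod_lt _ hpos), ?_⟩
      rw [Function.iterate_mod_minimalPeriod_eq, Perm.iterate_eq_pow, hi]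
    · rintro ⟨i, _, rfl⟩
      rw [Perm.iterate_eq_pow]
      exact Perm.sameCycle_pow_right.2 (Perm.SameCycle.refl _ _)
  have hc : (orb γ x).card = Function.minimalPeriod γ x := by
    rw [this, card_image_of_injOn (by simpa using hinj), card_range]
  rw [hc]
  refine ⟨by rw [← Perm.iterate_eq_pow]; exact Function.iterate_minimalPeriod, ?_⟩
  intro i j hi hj h
  exact hinj hi hj (by simpa [Perm.iterate_eq_pow] using h)

end orbits

lemma kraft {Z : Type*} [Fintype Z] [DecidableEq Z] (A : (Z → Bool) → Prop)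
    (F : (Z → Bool) → Finset Z)
    (h : ∀ ω₁ ω₂, A ω₁ → A ω₂ → (∀ z, z ∉ F ω₁ → z ∉ F ω₂ → ω₁ z = ω₂ z) → ω₁ = ω₂) :
    𝔼 ω, ind (A ω) * 2 ^ (F ω).card ≤ 1 := by
  classical
  let C : (Z → Bool) → Finset (Z → Bool) := fun ω =>
    Fintype.piFinset fun z => if z ∈ F ω then univ else {ω z}
  have hC : ∀ ω, (C ω).card = 2 ^ (F ω).card := by
    intro ω
    rw [Fintype.card_piFinset]
    have : ∀ z, (if z ∈ F ω then (univ : Finset Bool) else {ω z}).card =
        if z ∈ F ω then 2 else 1 := by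
      intro z; split_ifs <;> simp
    simp only [this]
    rw [Finset.prod_ite_mem, univ_inter, prod_const]
  have hdis : ((univ.filter A : Finset _) : Set (Z → Bool)).PairwiseDisjoint C := by
    intro ω₁ h1 ω₂ h2 hne
    rw [Function.onFun, Finset.disjoint_left]
    intro ω hω1 hω2
    apply hne
    refine h _ _ (by simpa using h1) (by simpa using h2) fun z hz1 hz2 => ?_
    have e1 := Fintype.mem_piFinset.1 hω1 z
    have e2 := Fintype.mem_piFinset.1 hω2 z
    rw [if_neg hz1, mem_singleton] at e1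
    rw [if_neg hz2, mem_singleton] at e2
    rw [← e1, e2]
  have h1 : ∑ ω ∈ univ.filter A, 2 ^ (F ω).card ≤ Fintype.card (Z → Bool) := by
    simp only [← hC]
    rw [← card_biUnion hdis]
    exact card_le_univ _
  rw [Fintype.expect_eq_sum_div_card, div_le_one (by exact_mod_cast Fintype.card_pos)]
  have : ∑ ω, ind (A ω) * (2:ℝ) ^ (F ω).card =
      ((∑ ω ∈ univ.filter A, 2 ^ (F ω).card : ℕ) : ℝ) := by
    rw [Finset.sum_filter]
    push_cast
    refine sum_congr rfl fun ω _ => ?_
    rw [ind_eq_ite]; split_ifs <;> simp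
  rw [this]
  exact_mod_cast h1

section explore
variable {l : ℕ} (ρ : Perm (Q l)) (m : Q l → ℕ)

/-- the explored cards -/
def crd (ω : Sw l → Bool) (x : Q l) (i : ℕ) : Q l := ((ρ * bf l ω) ^ i) x

/-- exploration order -/
def key (rk : Q l → ℕ) (x : Q l) (i : ℕ) : ℕ ×ₗ ℕ := toLex (rk x, i)

/-- switches first met by the closing path of the cycle with leader `x` -/
def fresh (rk : Q l → ℕ) (ω : Sw l → Bool) (x : Q l) (z : Sw l) : Prop :=
  on l ω (crd ρ ω x (m x - 1)) z ∧ ∀ x' i', i' < m x' → key rk x' i' < key rk x (m x - 1) →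
    ¬ on l ω (crd ρ ω x' i') z

lemma key_inj {rk : Q l → ℕ} (hrk : Function.Injective rk) {x x' i i'}
    (h : key rk x i = key rk x' i') : x = x' ∧ i = i' := by
  have := toLex.injective h
  simp only [Prod.mk.injEq] at this
  exact ⟨hrk this.1, this.2⟩

lemma determine {rk : Q l → ℕ} (hrk : Function.Injective rk) (ω₁ ω₂ : Sw l → Bool)
    (h1 : ∀ x, m x ≠ 0 → crd ρ ω₁ x (m x) = x) (h2 : ∀ x, m x ≠ 0 → crd ρ ω₂ x (m x) = x)
    (h : ∀ z, (∀ x, m x ≠ 0 → ¬ fresh ρ m rk ω₁ x z) → (∀ x, m x ≠ 0 → ¬ fresh ρ m rk ω₂ x z) →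
      ω₁ z = ω₂ z) : ω₁ = ω₂ := by
  have succ : ∀ ω x i, crd ρ ω x (i+1) = ρ (bf l ω (crd ρ ω x i)) := by
    intro ω x i
    simp only [crd, pow_succ', Perm.mul_apply]
  have main : ∀ k : ℕ ×ₗ ℕ, ∀ x i, key rk x i = k → i < m x →
      crd ρ ω₁ x i = crd ρ ω₂ x i ∧ ∀ z, on l ω₁ (crd ρ ω₁ x i) z → ω₁ z = ω₂ z := by
    intro k
    induction k using WellFoundedLT.induction with
    | ind k ih =>
      intro x i hk hi
      have e : crd ρ ω₁ x i = crd ρ ω₂ x i := by
        cases i with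
        | zero => rfl
        | succ i =>
          have := ih (key rk x i) (by
            rw [← hk]; exact Prod.Lex.toLex_lt_toLex.2 (Or.inr ⟨rfl, Nat.lt_succ_self _⟩))
            x i rfl (by omega)
          rw [succ, succ, ← this.1, (path_agree l ω₁ ω₂ _ fun z hz _ => this.2 z hz).1]
      refine ⟨e, ?_⟩
      by_cases hc : i + 1 = m x
      · have a1 := h1 x (by omega)
        have a2 := h2 x (by omega)
        rw [← hc, succ] at a1 a2
        rw [← e] at a2
        exact (path_of_out l ω₁ ω₂ _ (ρ.injective (a1.trans a2.symm))).2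
      · have agree : ∀ z, on l ω₁ (crd ρ ω₁ x i) z → on l ω₂ (crd ρ ω₁ x i) z → ω₁ z = ω₂ z := by
          intro z hz1 hz2
          have before : ∀ x₀, ¬ key rk x i < key rk x₀ (m x₀ - 1) →
              key rk x₀ (m x₀ - 1) < k := by
            intro x₀ hx
            rw [← hk]
            refine lt_of_le_of_ne (not_lt.1 hx) fun h' => ?_
            obtain ⟨rfl, h'⟩ := key_inj hrk h'
            omega
          by_cases f1 : ∃ x₀, m x₀ ≠ 0 ∧ fresh ρ m rk ω₁ x₀ z
          · obtain ⟨x₀, hx₀, f, f'⟩ := f1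
            exact (ih _ (before x₀ fun hlt => f' x i hi hlt hz1) x₀ _ rfl (by omega)).2 z f
          by_cases f2 : ∃ x₀, m x₀ ≠ 0 ∧ fresh ρ m rk ω₂ x₀ z
          · obtain ⟨x₀, hx₀, f, f'⟩ := f2
            have := ih _ (before x₀ fun hlt => f' x i hi hlt (e ▸ hz2)) x₀ _ rfl (by omega)
            rw [← this.1] at f
            exact this.2 z (((path_agree l ω₁ ω₂ _ fun z hz _ => this.2 z hz).2 z).2 f)
          exact h z (fun x hx f => f1 ⟨x, hx, f⟩) (fun x hx f => f2 ⟨x, hx, f⟩)
        intro z hz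
        exact agree z hz (((path_agree l ω₁ ω₂ _ agree).2 z).1 hz)
  funext z
  by_cases f1 : ∃ x₀, m x₀ ≠ 0 ∧ fresh ρ m rk ω₁ x₀ z
  · obtain ⟨x₀, hx₀, f, _⟩ := f1
    exact (main _ x₀ _ rfl (by omega)).2 z f
  by_cases f2 : ∃ x₀, m x₀ ≠ 0 ∧ fresh ρ m rk ω₂ x₀ z
  · obtain ⟨x₀, hx₀, f, _⟩ := f2
    have := main _ x₀ (m x₀ - 1) rfl (by omega)
    rw [← this.1] at f
    exact this.2 z (((path_agree l ω₁ ω₂ _ fun z hz _ => this.2 z hz).2 z).2 f)
  exact h z (fun x hx f => f1 ⟨x, hx, f⟩) (fun x hx f => f2 ⟨x, hx, f⟩)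

open Classical in
/-- validity of a labelling of leaders -/
def Val (a : ℕ) (ω : Sw l → Bool) : Prop :=
  (∀ x, m x ≠ 0 → crd ρ ω x (m x) = x) ∧
  (∀ x, m x ≠ 0 → (univ.filter fun z => on l ω (crd ρ ω x (m x - 1)) z ∧
    ∃ i < m x, crd ρ ω x i ≠ crd ρ ω x (m x - 1) ∧ on l ω (crd ρ ω x i) z).card ≤ a) ∧
  ∀ x i x' i', i < m x → i' < m x' → crd ρ ω x i = crd ρ ω x' i' → x = x' ∧ i = i'

open Classical in
/-- the free switches -/
noncomputable def FF (t : ℕ) (rk : Q l → ℕ) (ω : Sw l → Bool) : Finset (Sw l) :=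
  univ.filter fun z => t < lev l z ∧ ∃ x, m x ≠ 0 ∧ fresh ρ m rk ω x z

open Classical in
lemma card_FF (t : ℕ) {rk : Q l → ℕ} (hrk : Function.Injective rk) (ω : Sw l → Bool) :
    (FF ρ m t rk ω).card = ∑ x ∈ univ.filter (fun x => m x ≠ 0),
      (univ.filter fun z => t < lev l z ∧ fresh ρ m rk ω x z).card := by
  rw [← card_biUnion]
  · congr 1
    ext z
    simp only [FF, mem_filter, mem_univ, true_and, mem_biUnion]
    constructor
    · rintro ⟨h, x, hx, f⟩; exact ⟨x, hx, h, f⟩
    · rintro ⟨x, hx, h, f⟩; exact ⟨h, x, hx, f⟩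
  · intro x hx x' hx' hne
    rw [Function.onFun, Finset.disjoint_left]
    intro z hz hz'
    simp only [coe_filter, mem_univ, true_and, Set.mem_ofPred_eq, mem_filter] at hx hx' hz hz'
    rcases lt_trichotomy (key rk x (m x - 1)) (key rk x' (m x' - 1)) with h | h | h
    · exact hz'.2.2 x _ (by omega) h hz.2.1
    · exact hne (key_inj hrk h).1
    · exact hz.2.2 x' _ (by omega) h hz'.2.1

open Classical in
lemma FF_big (t a : ℕ) {rk rk' : Q l → ℕ} (hrk : Function.Injective rk)
    (hrk' : Function.Injective rk') (hrev : ∀ x y, rk' x < rk' y → rk y < rk x)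
    (ω : Sw l → Bool) (hV : Val ρ m a ω) :
    (l - t - a) * (univ.filter (fun x => m x ≠ 0)).card ≤
      (FF ρ m t rk ω).card + (FF ρ m t rk' ω).card := by
  rw [card_FF ρ m t hrk, card_FF ρ m t hrk', ← sum_add_distrib, mul_comm, ← smul_eq_mul]
  refine card_nsmul_le_sum _ _ _ fun x hx => ?_
  have hx : m x ≠ 0 := (mem_filter.1 hx).2
  have h1 := card_path l ω (crd ρ ω x (m x - 1)) t
  have h2 := hV.2.1 x hx
  have h3 : (univ.filter fun z => on l ω (crd ρ ω x (m x - 1)) z ∧ t < lev l z) ⊆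
      (univ.filter fun z => on l ω (crd ρ ω x (m x - 1)) z ∧
        ∃ i < m x, crd ρ ω x i ≠ crd ρ ω x (m x - 1) ∧ on l ω (crd ρ ω x i) z) ∪
      ((univ.filter fun z => t < lev l z ∧ fresh ρ m rk ω x z) ∪
      (univ.filter fun z => t < lev l z ∧ fresh ρ m rk' ω x z)) := by
    intro z hz
    simp only [mem_filter, mem_univ, true_and, mem_union] at hz ⊢
    by_contra hcon
    rw [not_or, not_or] at hcon
    obtain ⟨c1, c2, c3⟩ := hcon
    have aux : ∀ r : Q l → ℕ, Function.Injective r → ¬ (t < lev l z ∧ fresh ρ m r ω x z) →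
        ∃ x' i', i' < m x' ∧ r x' < r x ∧ on l ω (crd ρ ω x' i') z := by
      intro r hinj hr
      by_contra hcon
      apply hr
      refine ⟨hz.2, hz.1, fun x' i' hi' hlt hon => ?_⟩
      rcases Prod.Lex.toLex_lt_toLex.1 hlt with h | ⟨h, h'⟩
      · exact hcon ⟨x', i', hi', h, hon⟩
      · have hxx : x' = x := hinj h
        subst hxx
        refine c1 ⟨hz.1, i', hi', fun he => ?_, hon⟩
        have := (hV.2.2 _ _ _ _ hi' (by omega) he).2
        simp only at h'
        omega
    obtain ⟨x', i', hi', hlt', hon'⟩ := aux rk hrk c2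
    obtain ⟨x'', i'', hi'', hlt'', hon''⟩ := aux rk' hrk' c3
    have hlt2 := hrev _ _ hlt''
    rcases two_paths l ω _ _ _ z hz.1 hon' hon'' with h | h | h
    · have := (hV.2.2 _ _ _ _ (by omega) hi' h).1
      subst this; omega
    · have := (hV.2.2 _ _ _ _ (by omega) hi'' h).1
      subst this; omega
    · have := (hV.2.2 _ _ _ _ hi' hi'' h).1
      subst this; omega
  have h4 := (card_le_card h3).trans ((card_union_le _ _).trans
    (Nat.add_le_add_left (card_union_le _ _) _))
  omega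

open Classical in
lemma prob_Val (t a b : ℕ) (hb : 2 * b + a ≤ l - t) (ω : Sw l → Bool) :
    𝔼 ω', ind (Val ρ m a (graft t ω ω')) ≤
      2 * ((1/2) ^ b) ^ (univ.filter (fun x => m x ≠ 0)).card := by
  let rk : Q l → ℕ := fun x => (Fintype.equivFin (Q l) x : ℕ)
  have hrk : Function.Injective rk := fun x y h =>
    (Fintype.equivFin (Q l)).injective (Fin.ext h)
  have hlt : ∀ x, rk x < Fintype.card (Q l) := fun x => (Fintype.equivFin (Q l) x).2
  let rk' : Q l → ℕ := fun x => Fintype.card (Q l) - rk x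
  have hrk' : Function.Injective rk' := fun x y h => hrk (by
    have := hlt x; have := hlt y; simp only [rk'] at h; omega)
  have hrev : ∀ x y, rk' x < rk' y → rk y < rk x := fun x y h => by
    have := hlt x; have := hlt y; simp only [rk'] at h; omega
  have kr : ∀ r : Q l → ℕ, Function.Injective r →
      𝔼 ω', ind (Val ρ m a (graft t ω ω')) * 2 ^ (FF ρ m t r (graft t ω ω')).card ≤ 1 := by
    intro r hr
    refine kraft _ (fun ω' => FF ρ m t r (graft t ω ω')) fun ω₁ ω₂ h1 h2 h => ?_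
    have hg : graft t ω ω₁ = graft t ω ω₂ := by
      refine determine ρ m hr _ _ h1.1 h2.1 fun z f1 f2 => ?_
      simp only [graft]
      split_ifs with hz
      · refine h z (fun hh => ?_) (fun hh => ?_)
        · obtain ⟨_, x, hx, f⟩ := (mem_filter.1 hh).2
          exact f1 x hx f
        · obtain ⟨_, x, hx, f⟩ := (mem_filter.1 hh).2
          exact f2 x hx f
      · rfl
    funext z
    by_cases hz : t < lev l z
    · have := congrFun hg z
      simpa only [graft, if_pos hz] using this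
    · exact h z (fun hh => hz (mem_filter.1 hh).2.1) (fun hh => hz (mem_filter.1 hh).2.1)
  set s := (univ.filter (fun x => m x ≠ 0)).card
  have h1 : 𝔼 ω', ind (Val ρ m a (graft t ω ω')) * 2 ^ (b * s) ≤ 2 := by
    have := add_le_add (kr rk hrk) (kr rk' hrk')
    rw [← expect_add_distrib] at this
    refine le_trans (expect_le_expect fun ω' _ => ?_) (this.trans (by norm_num))
    by_cases hV : Val ρ m a (graft t ω ω')
    · rw [ind_of hV, one_mul, one_mul, one_mul]
      have h2 : (l - t - a) * s ≤ _ := FF_big ρ m t a hrk hrk' hrev _ hV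
      have h3 : 2 * b * s ≤ (l - t - a) * s := Nat.mul_le_mul_right _ (by omega)
      have p1 : (0:ℝ) < 2 ^ (FF ρ m t rk (graft t ω ω')).card := by positivity
      have p2 : (0:ℝ) < 2 ^ (FF ρ m t rk' (graft t ω ω')).card := by positivity
      by_cases h4 : b * s ≤ (FF ρ m t rk (graft t ω ω')).card
      · have := pow_le_pow_right₀ (by norm_num : (1:ℝ) ≤ 2) h4
        linarith
      · have h5 : b * s ≤ (FF ρ m t rk' (graft t ω ω')).card := by
          have : 2 * b * s = b * s + b * s := by ring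
          omega
        have := pow_le_pow_right₀ (by norm_num : (1:ℝ) ≤ 2) h5
        linarith
    · rw [ind_of_not hV]; simp
  rw [← expect_mul] at h1
  rw [← pow_mul, one_div, inv_pow, ← div_eq_mul_inv, le_div_iff₀ (by positivity)]
  exact h1

end explore

open Classical in
lemma exists_Val {l : ℕ} (ρ : Perm (Q l)) (a : ℕ) (ω : Sw l → Bool) :
    ∃ m : Q l → ℕ, (∀ x, m x ≤ 2 ^ a) ∧ Val ρ m a ω ∧
      (univ.filter (fun x => m x ≠ 0)).card = short a (ρ * bf l ω) := by
  set γ := ρ * bf l ω with hγ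
  set S := (univ.image (orb γ)).filter fun O => O.card ≤ 2 ^ a with hS
  have hch : ∀ O : Finset (Q l), ∃ x : Q l, O ∈ S → x ∈ O ∧
      (univ.filter fun z => on l ω x z ∧ ∃ y ∈ O, y ≠ x ∧ on l ω y z).card ≤ a := by
    intro O
    by_cases hO : O ∈ S
    · obtain ⟨h1, h2⟩ := mem_filter.1 hO
      obtain ⟨x, _, rfl⟩ := mem_image.1 h1
      obtain ⟨y, hy⟩ := exists_few_shared l ω a _ ⟨x, self_mem_orb γ x⟩ h2
      exact ⟨y, fun _ => hy⟩
    · exact ⟨default, fun h => (hO h).elim⟩
  choose c hc using hch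
  have horb : ∀ O ∈ S, orb γ (γ (c O)) = O := by
    intro O hO
    obtain ⟨x, _, rfl⟩ := mem_image.1 (mem_filter.1 hO).1
    exact (orb_eq_of (Perm.sameCycle_apply_right.2 (mem_orb.1 (hc _ hO).1))).symm
  have hpos : ∀ x, 0 < (orb γ x).card := fun x => card_pos.2 ⟨x, self_mem_orb γ x⟩
  let m : Q l → ℕ := fun x => if ∃ O ∈ S, γ (c O) = x then (orb γ x).card else 0
  have hm : ∀ x, m x ≠ 0 → m x = (orb γ x).card ∧ orb γ x ∈ S ∧ γ (c (orb γ x)) = x := by
    intro x hx
    by_cases h : ∃ O ∈ S, γ (c O) = x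
    · refine ⟨if_pos h, ?_⟩
      obtain ⟨O, hO, rfl⟩ := h
      rw [horb O hO]
      exact ⟨hO, rfl⟩
    · exact (hx (if_neg h)).elim
  refine ⟨m, fun x => ?_, ⟨fun x hx => ?_, fun x hx => ?_, fun x i x' i' hi hi' h => ?_⟩, ?_⟩
  · by_cases hx : m x = 0
    · rw [hx]; exact Nat.zero_le _
    · rw [(hm x hx).1]; exact (mem_filter.1 (hm x hx).2.1).2
  · rw [(hm x hx).1]; exact (orb_data γ x).1
  · obtain ⟨h1, h2, h3⟩ := hm x hx
    have e : crd ρ ω x (m x - 1) = c (orb γ x) := by
      apply γ.injective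
      rw [h3, crd, ← hγ, ← Perm.mul_apply, ← pow_succ', Nat.sub_add_cancel (by omega), h1]
      exact (orb_data γ x).1
    rw [e]
    refine le_trans (card_le_card fun z hz => ?_) (hc _ h2).2
    simp only [mem_filter, mem_univ, true_and] at hz ⊢
    obtain ⟨hz, i, _, hne, hon⟩ := hz
    exact ⟨hz, _, mem_orb.2 (Perm.sameCycle_pow_right.2 (Perm.SameCycle.refl _ _)), hne, hon⟩
  · obtain ⟨h1, _, h3⟩ := hm x (by omega)
    obtain ⟨h1', _, h3'⟩ := hm x' (by omega)
    have hs : γ.SameCycle x x' := by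
      have a1 : γ.SameCycle x (crd ρ ω x i) := Perm.sameCycle_pow_right.2 (Perm.SameCycle.refl _ _)
      have a2 : γ.SameCycle x' (crd ρ ω x' i') :=
        Perm.sameCycle_pow_right.2 (Perm.SameCycle.refl _ _)
      rw [h] at a1
      exact a1.trans a2.symm
    have hxx : x = x' := by rw [← h3, ← h3', orb_eq_of hs]
    subst hxx
    exact ⟨rfl, (orb_data γ x).2 i i' (h1 ▸ hi) (h1 ▸ hi') h⟩
  · have : univ.filter (fun x => m x ≠ 0) = S.image fun O => γ (c O) := by
      ext x
      simp only [mem_filter, mem_univ, true_and, mem_image]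
      constructor
      · intro hx
        exact ⟨_, (hm x hx).2.1, (hm x hx).2.2⟩
      · intro h
        have : m x = (orb γ x).card := if_pos h
        have := hpos x
        omega
    rw [this, card_image_of_injOn]
    · rfl
    · intro O hO O' hO' h
      rw [← horb O hO, ← horb O' hO']
      exact congrArg (orb γ) h

theorem enc {l : ℕ} (ρ : Perm (Q l)) (t a b : ℕ) (hb : 2 * b + a ≤ l - t) (ω : Sw l → Bool)
    (y : ℝ) (hy : 0 ≤ y) :
    𝔼 ω', y ^ short a (ρ * bf l (graft t ω ω')) ≤ 2 * (1 + 2 ^ a * (y * (1/2) ^ b)) ^ (2 ^ l) := by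
  classical
  let M := Fintype.piFinset fun _ : Q l => range (2 ^ a + 1)
  have h1 : ∀ ω', y ^ short a (ρ * bf l (graft t ω ω')) ≤
      ∑ m ∈ M, y ^ (univ.filter (fun x => m x ≠ 0)).card * ind (Val ρ m a (graft t ω ω')) := by
    intro ω'
    obtain ⟨m, h1, h2, h3⟩ := exists_Val ρ a (graft t ω ω')
    have hm : m ∈ M := Fintype.mem_piFinset.2 fun x => mem_range.2 (Nat.lt_succ_of_le (h1 x))
    refine le_trans ?_ (single_le_sum (f := fun m : Q l → ℕ =>
      y ^ (univ.filter (fun x => m x ≠ 0)).card * ind (Val ρ m a (graft t ω ω')))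
      (fun m _ => mul_nonneg (pow_nonneg hy _) (ind_nonneg _)) hm)
    simp only [ind_of h2, mul_one]
    rw [← h3]
  refine (expect_le_expect fun ω' _ => h1 ω').trans ?_
  rw [expect_sum_comm]
  have h2 : ∀ m ∈ M, 𝔼 ω', y ^ (univ.filter (fun x => m x ≠ 0)).card *
      ind (Val ρ m a (graft t ω ω')) ≤
      2 * ∏ x, (if m x ≠ 0 then y * (1/2) ^ b else 1) := by
    intro m _
    rw [← mul_expect, prod_ite, prod_const_one, mul_one, prod_const, mul_pow, mul_left_comm]
    exact mul_le_mul_of_nonneg_left (prob_Val ρ m t a b hb ω) (pow_nonneg hy _)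
  refine (sum_le_sum h2).trans (le_of_eq ?_)
  rw [← mul_sum, ← prod_univ_sum (fun _ : Q l => range (2 ^ a + 1))
    (fun _ j => if j ≠ 0 then y * (1/2) ^ b else 1), prod_const, card_univ, card_Q,
    sum_range_succ']
  simp [add_comm]

end Vale.Agent.P162
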