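import Vale.Agent.P162.Law2

/-! Transposition sums on invariant subspaces. -/

namespace Vale.Agent.P162
open Finset Equiv
open scoped Matrix
open scoped BigOperators

variable {X : Type} [Fintype X] [DecidableEq X]

/-- the transposition form -/
def ff (v : Perm X → ℝ) (x y : X) : ℝ := v ⬝ᵥ Rt (swap x y) v

lemma ff_comm (v : Perm X → ℝ) (x y : X) : ff v x y = ff v y x := by rw [ff, swap_comm, ff]

lemma ff_self (v : Perm X → ℝ) (x : X) : ff v x x = v ⬝ᵥ v := by
  rw [ff, swap_self, ← Perm.one_def, Rt_one]

lemma ff_conj (v : Perm X → ℝ) (h : Perm X) (x y : X) :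
    ff v (h x) (h y) = ff (Rt h⁻¹ v) x y := by
  rw [ff, ff, swap_apply_apply, ← Rt_Rt, ← Rt_Rt, dotProduct_comm, Rt_dot, dotProduct_comm]

lemma conj_avg {Y : Type} [Fintype Y] (p q : Y → X) (hpq : ∀ u, p u ≠ q u) (f : X → X → ℝ)
    (c : ℝ) (h : ∀ g : Perm X, c ≤ ∑ u, f (g (p u)) (g (q u))) :
    (Fintype.card X * (Fintype.card X - 1) : ℝ) * c ≤
      Fintype.card Y * ∑ x, ∑ y ∈ univ.erase x, f x y := by
  let A : X → X → ℝ := fun a b => ∑ g : Perm X, f (g a) (g b)
  have hA : ∀ a b a' b', a ≠ b → a' ≠ b' → A a b = A a' b' := by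
    intro a b a' b' hab hab'
    let g := swap (swap a a' b) b' * swap a a'
    have h1 : g a = a' := by
      simp only [g, Perm.mul_apply, swap_apply_left]
      refine swap_apply_of_ne_of_ne (fun e => hab ?_) hab'
      exact (swap a a').injective (by rw [swap_apply_left, ← e])
    have h2 : g b = b' := by simp only [g, Perm.mul_apply, swap_apply_left]
    simp only [A]
    rw [← Equiv.sum_comp (Equiv.mulRight g)]
    simp [h1, h2]
  have h1 : ∑ a, ∑ b ∈ univ.erase a, A a b =
      Fintype.card (Perm X) * ∑ x, ∑ y ∈ univ.erase x, f x y := by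
    have : ∀ g : Perm X, ∑ a, ∑ b ∈ univ.erase a, f (g a) (g b) =
        ∑ x, ∑ y ∈ univ.erase x, f x y := by
      intro g
      conv_rhs => rw [← Equiv.sum_comp g]
      refine sum_congr rfl fun a _ => ?_
      exact sum_equiv g (by simp) (by simp)
    simp only [A]
    rw [sum_congr rfl fun a _ => sum_comm, sum_comm]
    simp only [this, sum_const, card_univ, nsmul_eq_mul]
  have h2 : ∀ u, (Fintype.card X * (Fintype.card X - 1) : ℝ) * A (p u) (q u) =
      ∑ a, ∑ b ∈ univ.erase a, A a b := by
    intro u
    rw [sum_congr rfl fun a _ => sum_congr rfl fun b hb =>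
      hA a b (p u) (q u) (ne_of_mem_erase hb).symm (hpq u)]
    have : 1 ≤ Fintype.card X := Fintype.card_pos_iff.2 ⟨p u⟩
    simp only [sum_const, card_erase_of_mem (mem_univ _), card_univ, nsmul_eq_mul]
    push_cast [this]
    ring
  have h3 : Fintype.card (Perm X) * c ≤ ∑ u, A (p u) (q u) := by
    simp only [A]
    rw [sum_comm, ← nsmul_eq_mul, ← card_univ, ← sum_const]
    exact sum_le_sum fun g _ => h g
  have h4 : (0:ℝ) ≤ Fintype.card X * (Fintype.card X - 1) := by
    rcases Nat.eq_zero_or_pos (Fintype.card X) with h | h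
    · simp [h]
    · have : (1:ℝ) ≤ Fintype.card X := by exact_mod_cast h
      exact mul_nonneg (by linarith) (by linarith)
  have h5 := mul_le_mul_of_nonneg_left h3 h4
  rw [mul_sum] at h5
  simp only [h2, h1, sum_const, card_univ, nsmul_eq_mul] at h5
  have h6 : (0:ℝ) < Fintype.card (Perm X) := by exact_mod_cast Fintype.card_pos
  refine le_of_mul_le_mul_left ?_ h6
  linarith

lemma inv_of_swaps (B : Finset X) (v : Perm X → ℝ)
    (hv : ∀ x ∈ B, ∀ y ∈ B, Rt (swap x y) v = v) : v ∈ VS Bᶜ := by
  have : ∀ n (h : Perm X), h.support.card = n → h ∈ Fx Bᶜ → Rt h v = v := by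
    intro n
    induction n using Nat.strong_induction_on with
    | _ n ih =>
      intro h hn hh
      by_cases h1 : h = 1
      · rw [h1, Rt_one]
      obtain ⟨x, hx⟩ : ∃ x, h x ≠ x := by
        by_contra hc
        push Not at hc
        exact h1 (Perm.ext hc)
      have a1 : x ∈ B := by
        by_contra hc; exact hx (mem_Fx.1 hh x (mem_compl.2 hc))
      have a2 : h x ∈ B := by
        by_contra hc; exact hx (h.injective (mem_Fx.1 hh _ (mem_compl.2 hc)))
      have a3 := ih _ (hn ▸ Perm.card_support_swap_mul hx) _ rfl (mem_Fx.2 fun y hy => by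
        rw [Perm.mul_apply, mem_Fx.1 hh y hy]
        exact swap_apply_of_ne_of_ne (fun e => mem_compl.1 hy (e ▸ a1))
          (fun e => mem_compl.1 hy (e ▸ a2)))
      rw [← swap_mul_self_mul x (h x) h, ← Rt_Rt, a3, hv x a1 _ a2]
  exact fun h hh => this _ h rfl hh

theorem upper_content (W : Submodule ℝ (Perm X → ℝ)) (hR : ∀ h, ∀ v ∈ W, Rt h v ∈ W) (k : ℕ)
    (hk : k ≤ Fintype.card X) (hp : ∀ v ∈ W, v ∈ perp (UU X k)) (hne : ∃ v ∈ W, v ≠ 0) :
    ∃ v ∈ W, v ≠ 0 ∧
      ∑ x, ∑ y, ff v x y ≤ Fintype.card X * (Fintype.card X - k - 1) * (v ⬝ᵥ v) := by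
  classical
  let C : Finset (X → X) := univ.filter fun col =>
    ∃ v ∈ W, v ≠ 0 ∧ ∀ x y, col x = col y → Rt (swap x y) v = v
  let sc : (X → X) → ℝ := fun col => ∑ x, ∑ y, ind (col x = col y)
  obtain ⟨col, hcol, hmax⟩ := exists_max_image C sc (by
    obtain ⟨v, hv, hv0⟩ := hne
    exact ⟨id, mem_filter.2 ⟨mem_univ _, v, hv, hv0, fun x y h => by
      rw [show x = y from h, swap_self, ← Perm.one_def, Rt_one]⟩⟩)
  obtain ⟨v, hv, hv0, hinv⟩ := (mem_filter.1 hcol).2
  refine ⟨v, hv, hv0, ?_⟩
  let B : X → Finset X := fun c => univ.filter fun x => col x = c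
  have hB : ∀ c x, x ∈ B c ↔ col x = c := fun c x => by simp [B]
  have key : ∀ c y, col y ≠ c → (B (col y)).card ≤ (B c).card → ∑ x ∈ B c, ff v x y ≤ 0 := by
    intro c y hy hsz
    let col' := Function.update col y c
    have hsc : sc col < sc col' := by
      have split : ∀ F : X → X → ℝ, ∑ x, ∑ z, F x z = F y y + ∑ z ∈ univ.erase y, F y z +
          (∑ x ∈ univ.erase y, F x y + ∑ x ∈ univ.erase y, ∑ z ∈ univ.erase y, F x z) := by
        intro F
        rw [← add_sum_erase _ _ (mem_univ y), ← add_sum_erase _ _ (mem_univ y),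
          ← sum_add_distrib]
        congr 1
        exact sum_congr rfl fun x _ => (add_sum_erase _ _ (mem_univ y)).symm
      have e0 : ∀ x ∈ univ.erase y, col' x = col x := fun x hx =>
        Function.update_of_ne (ne_of_mem_erase hx) _ _
      have e1 : col' y = c := Function.update_self _ _ _
      have e2 : ∀ c, ∑ x ∈ univ.erase y, ind (col x = c) = (B c).card - ind (col y = c) := by
        intro c
        rw [← sum_ind, ← add_sum_erase _ _ (mem_univ y)]; ring
      simp only [sc]
      rw [split, split, sum_congr rfl fun x hx => sum_congr rfl fun z hz =>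
        show ind (col' x = col' z) = ind (col x = col z) by rw [e0 x hx, e0 z hz],
        sum_congr rfl fun x hx => show ind (col' x = col' y) = ind (col x = c) by
          rw [e0 x hx, e1],
        sum_congr rfl fun x hx => show ind (col' y = col' x) = ind (col x = c) by
          rw [e0 x hx, e1, ind_congr eq_comm],
        sum_congr rfl fun x _ => show ind (col y = col x) = ind (col x = col y) from
          ind_congr eq_comm, e2, e2, ind_of_not hy, ind_of rfl, ind_of rfl]
      have : ((B (col y)).card : ℝ) ≤ (B c).card := by exact_mod_cast hsz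
      linarith
    let w := v + ∑ x ∈ B c, Rt (swap x y) v
    have hw : w = 0 := by
      by_contra hw0
      refine absurd (hmax col' (mem_filter.2 ⟨mem_univ _, w,
        W.add_mem hv (W.sum_mem fun x _ => hR _ _ hv), hw0, ?_⟩)) (not_le.2 hsc)
      have main : ∀ b, b ≠ y → col b = c → Rt (swap b y) w = w := by
        intro b hb hbc
        have hbB := (hB c b).2 hbc
        simp only [w]
        rw [map_add, map_sum, ← add_sum_erase _ _ hbB, ← add_sum_erase _ _ hbB, Rt_Rt,
          swap_mul_self, Rt_one, add_left_comm]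
        congr 2
        refine sum_congr rfl fun x hx => ?_
        have hx1 := ne_of_mem_erase hx
        have hx2 := (hB c x).1 (mem_of_mem_erase hx)
        have : swap b y * swap x y = swap x y * swap b x := by
          rw [mul_swap_eq_swap_mul (swap x y) b x, swap_apply_left,
            swap_apply_of_ne_of_ne hx1.symm hb]
        rw [Rt_Rt, this, ← Rt_Rt, hinv b x (hbc.trans hx2.symm)]
      intro a b hab
      by_cases ha : a = y
      · by_cases hb : b = y
        · rw [ha, hb, swap_self, ← Perm.one_def, Rt_one]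
        · rw [ha, swap_comm]
          refine main b hb ?_
          simp only [col', ha, Function.update_self, Function.update_of_ne hb] at hab
          exact hab.symm
      by_cases hb : b = y
      · rw [hb]
        refine main a ha ?_
        simpa only [col', hb, Function.update_self, Function.update_of_ne ha] using hab
      simp only [col', Function.update_of_ne ha, Function.update_of_ne hb] at hab
      simp only [w]
      rw [map_add, map_sum, hinv a b hab]
      congr 1
      refine sum_equiv (swap a b) (fun x => ?_) (fun x _ => ?_)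
      · rw [hB, hB, swap_apply_def]
        split_ifs with h1 h2
        · rw [h1, hab]
        · rw [h2, hab]
        · rfl
      · rw [Rt_Rt, mul_swap_eq_swap_mul, swap_apply_of_ne_of_ne (Ne.symm ha) (Ne.symm hb),
          ← Rt_Rt, hinv a b hab]
    have := congrArg (v ⬝ᵥ ·) hw
    simp only [w, dotProduct_add, dotProduct_sum, dotProduct_zero] at this
    have h0 := dot_self_nonneg v
    simp only [ff]
    linarith
  have hsize : ∀ c, ((B c).card : ℝ) ≤ Fintype.card X - k - 1 := by
    intro c
    have h1 := inv_of_swaps (B c) v fun x hx y hy =>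
      hinv x y (((hB c x).1 hx).trans ((hB c y).1 hy).symm)
    have h2 : k < (B c)ᶜ.card := by
      by_contra h
      exact hv0 (dotProduct_self_eq_zero.1 (hp v hv v (UU_mono (not_lt.1 h) hk (VS_le_UU _ h1))))
    have h3 := card_add_card_compl (B c)
    have : (B c).card + k + 1 ≤ Fintype.card X := by omega
    have : ((B c).card : ℝ) + k + 1 ≤ Fintype.card X := by exact_mod_cast this
    linarith
  let a : X → X → ℝ := fun c c' => if c = c' then 0 else
    if (B c').card < (B c).card then 1 else if (B c').card = (B c).card then 1 / 2 else 0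
  have ha : ∀ x y, ff v x y = ind (col y = col x) * (v ⬝ᵥ v) +
      (a (col x) (col y) * ff v x y + a (col y) (col x) * ff v y x) := by
    intro x y
    rw [ff_comm v y x]
    by_cases h : col x = col y
    · rw [ind_of h.symm, ff, hinv x y h]; simp [a, h]
    · rw [ind_of_not (Ne.symm h)]
      simp only [a, if_neg h, if_neg (Ne.symm h)]
      split_ifs <;> first | omega | ring
  have h1 : ∑ x, ∑ y, a (col x) (col y) * ff v x y ≤ 0 := by
    rw [sum_comm]
    refine sum_nonpos fun y _ => ?_
    rw [← sum_fiberwise univ col]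
    refine sum_nonpos fun c _ => ?_
    rw [sum_congr rfl (g := fun x => a c (col y) * ff v x y)
      fun x hx => by rw [(mem_filter.1 hx).2], ← mul_sum]
    simp only [a]
    split_ifs with c1 c2 c3
    · simp
    · rw [one_mul]; exact key c y (Ne.symm c1) c2.le
    · have := key c y (Ne.symm c1) c3.le
      simp only [B] at this
      linarith
    · simp
  rw [sum_congr rfl fun x _ => sum_congr rfl fun y _ => ha x y]
  simp only [sum_add_distrib, ← sum_mul]
  rw [sum_comm (f := fun x y => a (col y) (col x) * ff v y x)]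
  have h2 : ∑ x, ∑ y, ind (col y = col x) ≤ Fintype.card X * (Fintype.card X - k - 1 : ℝ) := by
    rw [← nsmul_eq_mul, ← card_univ, ← sum_const]
    exact sum_le_sum fun x _ => by rw [sum_ind]; exact hsize _
  have := mul_le_mul_of_nonneg_right h2 (dot_self_nonneg v)
  linarith

theorem lower_content (p : X → X) (hp : ∀ x, p x ≠ x) (v : Perm X → ℝ)
    (hv : ∀ x g, v (swap x (p x) * g) = v g) :
    -(Fintype.card X * (Fintype.card X - 1) / 2 * (v ⬝ᵥ v)) ≤
      ∑ x, ∑ y ∈ univ.erase x, ff v x y := by
  let L : Perm X → ℝ := fun s => ∑ g, v g * v (s * g)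
  have h1 : ∑ x, ∑ y ∈ univ.erase x, ff v x y = ∑ x, ∑ y ∈ univ.erase x, L (swap x y) := by
    simp only [ff, dotProduct, Rt_apply, L]
    rw [sum_congr rfl fun a _ => sum_comm, sum_comm]
    conv_rhs => rw [sum_congr rfl fun a _ => sum_comm, sum_comm]
    refine sum_congr rfl fun g _ => ?_
    conv_rhs => rw [← Equiv.sum_comp g]
    refine sum_congr rfl fun x _ => ?_
    exact sum_equiv g (by simp) (fun y _ => by rw [mul_swap_eq_swap_mul])
  have hL : ∀ (s : Perm X) (F : Perm X → ℝ), ∑ g, F (s * g) = ∑ g, F g := fun s F =>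
    Equiv.sum_comp (Equiv.mulLeft s) F
  have h2 : ∀ x y, x ≠ y → -(1 / 2 * (v ⬝ᵥ v)) ≤ L (swap x y) := by
    intro x y hxy
    have h0 := dot_self_nonneg v
    by_cases hy : y = p x
    · simp only [L, hy, hv]
      exact le_trans (by linarith) h0
    have a1 : L (swap (p x) y) = L (swap x y) := by
      simp only [L]
      rw [← hL (swap x (p x))]
      refine sum_congr rfl fun g _ => ?_
      rw [hv, ← mul_assoc, ← hv x (swap x y * g), ← mul_assoc, mul_swap_eq_swap_mul _ x y,
        swap_apply_left, swap_apply_of_ne_of_ne hxy.symm hy]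
    have a2 : ∑ g, v (swap x y * g) * v (swap (p x) y * g) = L (swap (p x) y) := by
      simp only [L]
      rw [← hL (swap x y)]
      refine sum_congr rfl fun g _ => ?_
      rw [swap_mul_self_mul, ← mul_assoc, mul_swap_eq_swap_mul _ x y, swap_apply_right,
        swap_apply_of_ne_of_ne (hp x).symm hxy, mul_assoc, hv]
    have a3 : ∀ s, ∑ g, v (s * g) * v (s * g) = v ⬝ᵥ v := fun s => hL s (fun g => v g * v g)
    have a4 : 0 ≤ ∑ g, (v g + v (swap x y * g) + v (swap (p x) y * g)) ^ 2 :=
      sum_nonneg fun _ _ => sq_nonneg _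
    have a5 : ∀ g, (v g + v (swap x y * g) + v (swap (p x) y * g)) ^ 2 =
        v g * v g + v (swap x y * g) * v (swap x y * g) +
        v (swap (p x) y * g) * v (swap (p x) y * g) + 2 * (v g * v (swap x y * g)) +
        2 * (v g * v (swap (p x) y * g)) + 2 * (v (swap x y * g) * v (swap (p x) y * g)) :=
      fun g => by ring
    simp only [a5, sum_add_distrib, ← mul_sum, a3, a2] at a4
    have a6 : ∑ g, v g * v g = v ⬝ᵥ v := rfl
    simp only [L] at a1 a4 ⊢
    linarith
  rw [h1]
  refine le_trans (le_of_eq ?_) (sum_le_sum fun x _ => sum_le_sum fun y hy =>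
    h2 x y (ne_of_mem_erase hy).symm)
  simp only [sum_const, card_erase_of_mem (mem_univ _), card_univ, nsmul_eq_mul]
  rcases Nat.eq_zero_or_pos (Fintype.card X) with h | h
  · simp [h]
  · push_cast [h]; ring

end Vale.Agent.P162
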