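import Vale.Agent.P162.Enc

/-! The weight bound for the low degree recursion. -/

namespace Vale.Agent.P162
open Finset Equiv
open scoped BigOperators

/-- sign of a bit -/
def sg (b : Bool) : ℝ := if b then -1 else 1

lemma sg_xor (b c : Bool) : sg (xor b c) = sg b * sg c := by cases b <;> cases c <;> simp [sg]
lemma sg_sq (b : Bool) : sg b * sg b = 1 := by cases b <;> simp [sg]

section expm
variable {Y : Type*} [Fintype Y] [DecidableEq Y]

lemma E_upd (u : Y) (F : (Y → Bool) → ℝ) :
    𝔼 a, F a = 𝔼 a, (F (Function.update a u false) + F (Function.update a u true)) / 2 := by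
  let e : (Y → Bool) ≃ (Y → Bool) :=
    Function.Involutive.toPerm (fun a => Function.update a u (!(a u))) (by
      intro a; ext x
      by_cases h : x = u
      · subst h; simp
      · simp [Function.update_of_ne h])
  have h1 := Fintype.expect_equiv e (fun a => F (e a)) F (fun _ => rfl)
  have h2 : ∀ a, (F (Function.update a u false) + F (Function.update a u true)) / 2 =
      (F a + F (e a)) / 2 := by
    intro a
    show _ = (F a + F (Function.update a u (!(a u)))) / 2
    cases h : a u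
    · rw [← h, Function.update_eq_self, h]; rfl
    · rw [add_comm]; nth_rewrite 1 [← h]; rw [Function.update_eq_self]; rfl
  simp only [h2]
  rw [← expect_div, expect_add_distrib, h1]
  ring

lemma exp_sq_moment (c : Y → ℝ) {lam : ℝ} (hl : 0 ≤ lam) (K : Finset Y) :
    4 * lam * ∑ u ∈ K, c u ^ 2 ≤ 1 → ∀ a₀ : ℝ,
    𝔼 a : Y → Bool, Real.exp (lam * (a₀ + ∑ u ∈ K, c u * sg (a u)) ^ 2) ≤
      Real.exp (2 * lam * ∑ u ∈ K, c u ^ 2 + lam / (1 - 2 * lam * ∑ u ∈ K, c u ^ 2) * a₀ ^ 2) := by
  induction K using Finset.induction_on with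
  | empty => intro _ a₀; simp
  | insert u K hu ih =>
    intro hV a₀
    rw [sum_insert hu] at hV ⊢
    set V := ∑ u ∈ K, c u ^ 2 with hVdef
    have hV0 : 0 ≤ V := sum_nonneg fun _ _ => sq_nonneg _
    set v := c u ^ 2 with hv
    have hv0 : 0 ≤ v := sq_nonneg _
    have hlv : 0 ≤ lam * v := mul_nonneg hl hv0
    have hlV : 0 ≤ lam * V := mul_nonneg hl hV0
    have ih' := ih (by nlinarith)
    rw [E_upd u]
    have e : ∀ (a : Y → Bool) b, a₀ + ∑ x ∈ insert u K, c x * sg (Function.update a u b x) =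
        (a₀ + c u * sg b) + ∑ x ∈ K, c x * sg (a x) := by
      intro a b
      rw [sum_insert hu, Function.update_self, add_assoc]
      congr 2
      exact sum_congr rfl fun x hx => by
        rw [Function.update_of_ne (fun h : x = u => hu (h ▸ hx))]
    simp only [e]
    rw [← expect_div, expect_add_distrib]
    set μ := lam / (1 - 2 * lam * V) with hμ
    have hd : 1 / 2 ≤ 1 - 2 * lam * V := by nlinarith
    have hd' : 1 / 2 ≤ 1 - 2 * lam * (v + V) := by nlinarith
    have hμ0 : 0 ≤ μ := div_nonneg hl (by linarith)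
    have hμ1 : μ * (1 - 2 * lam * V) = lam := div_mul_cancel₀ _ (by linarith)
    have hμ2 : μ ≤ 2 * lam := by nlinarith
    have hμ3 : μ + 2 * μ ^ 2 * v ≤ lam / (1 - 2 * lam * (v + V)) := by
      rw [le_div_iff₀ (by linarith)]
      have : (μ + 2 * μ ^ 2 * v) * (1 - 2 * lam * (v + V)) =
          (1 + 2 * μ * v) * (μ * (1 - 2 * lam * V) - 2 * lam * μ * v) := by ring
      rw [this, hμ1]
      have h3 : 0 ≤ lam * (μ * v) ^ 2 := by positivity
      nlinarith
    have h1 := ih' (a₀ + c u * sg false)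
    have h2 := ih' (a₀ + c u * sg true)
    refine (div_le_div_of_nonneg_right (add_le_add h1 h2) (by norm_num)).trans ?_
    have h3 := Real.cosh_le_exp_half_sq (2 * μ * a₀ * c u)
    rw [Real.cosh_eq] at h3
    have e1 : Real.exp (2 * lam * V + μ * (a₀ + c u * sg false) ^ 2) =
        Real.exp (2 * lam * V + μ * (a₀ ^ 2 + v)) * Real.exp (2 * μ * a₀ * c u) := by
      rw [← Real.exp_add, hv]; simp only [sg]; congr 1; simp; ring
    have e2 : Real.exp (2 * lam * V + μ * (a₀ + c u * sg true) ^ 2) =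
        Real.exp (2 * lam * V + μ * (a₀ ^ 2 + v)) * Real.exp (-(2 * μ * a₀ * c u)) := by
      rw [← Real.exp_add, hv]; simp only [sg]; congr 1; simp; ring
    rw [e1, e2, ← mul_add, mul_div_assoc]
    refine (mul_le_mul_of_nonneg_left h3 (Real.exp_pos _).le).trans ?_
    rw [← Real.exp_add]
    refine Real.exp_le_exp.2 ?_
    have e3 : (2 * μ * a₀ * c u) ^ 2 / 2 = 2 * μ ^ 2 * v * a₀ ^ 2 := by rw [hv]; ring
    rw [e3]
    have h4 := mul_le_mul_of_nonneg_right hμ3 (sq_nonneg a₀)
    have h5 := mul_le_mul_of_nonneg_right hμ2 hv0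
    nlinarith

variable {B : Type*} [Fintype B]

lemma exp_sum_moment (z : B → Y × Bool) (hz : Function.Injective z) (hm : 0 < Fintype.card B) :
    𝔼 a : Y → Bool, Real.exp ((∑ i, sg (lay a (z i)).2) ^ 2 / (4 * Fintype.card B)) ≤
      Real.exp (1 / 2) := by
  set m : ℝ := (Fintype.card B : ℝ) with hmdef
  have hm0 : 0 < m := by rw [hmdef]; exact_mod_cast hm
  let n : Y × Bool → ℝ := fun p => ∑ i, ind (z i = p)
  have hn : ∀ p, n p = 0 ∨ n p = 1 := by
    intro p
    by_cases h : ∃ i, z i = p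
    · obtain ⟨i, rfl⟩ := h
      right
      have : ∀ j, ind (z j = z i) = ind (j = i) * 1 := fun j => by
        rw [mul_one]; exact ind_congr hz.eq_iff
      simp only [n, this, sum_ind_eq']
    · left
      exact sum_eq_zero fun i _ => ind_of_not fun e => h ⟨i, e⟩
  have hsum : ∀ f : Y × Bool → ℝ, ∑ i, f (z i) = ∑ p, n p * f p := by
    intro f
    simp only [n, sum_mul]
    rw [sum_comm]
    exact sum_congr rfl fun i _ => (sum_ind_eq _ _).symm
  let c : Y → ℝ := fun u => n (u, false) - n (u, true)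
  have hc : ∑ u, c u ^ 2 ≤ m := by
    have := hsum fun _ => 1
    simp only [sum_const, card_univ, nsmul_eq_mul, mul_one] at this
    rw [hmdef, this, Fintype.sum_prod_type]
    refine sum_le_sum fun u _ => ?_
    rw [Fintype.sum_bool]
    simp only [c]
    rcases hn (u, false) with h | h <;> rcases hn (u, true) with h' | h' <;> rw [h, h'] <;> norm_num
  have hS : ∀ a : Y → Bool, ∑ i, sg (lay a (z i)).2 = ∑ u, c u * sg (a u) := by
    intro a
    rw [hsum fun p => sg (lay a p).2, Fintype.sum_prod_type]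
    refine sum_congr rfl fun u _ => ?_
    rw [Fintype.sum_bool]
    simp only [lay_apply, sg_xor, c, show sg true = -1 from rfl, show sg false = 1 from rfl]
    ring
  have h4 : 4 * (1 / (4 * m)) * ∑ u, c u ^ 2 ≤ 1 := by
    have : 4 * (1 / (4 * m)) * ∑ u, c u ^ 2 = (∑ u, c u ^ 2) / m := by field_simp
    rw [this, div_le_one hm0]; exact hc
  have := exp_sq_moment c (lam := 1 / (4 * m)) (by positivity) univ h4 0
  simp only [hS]
  refine le_trans (le_of_eq ?_) (this.trans (Real.exp_le_exp.2 (by nlinarith)))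
  refine expect_congr rfl fun a _ => ?_
  congr 1; ring

lemma prob_all (z : B → Y × Bool) (hz : Function.Injective z) (c : Bool) :
    𝔼 a : Y → Bool, ind (∀ i, (lay a (z i)).2 = c) ≤ (1 / 2) ^ Fintype.card B := by
  classical
  have hk := kraft (fun a : Y → Bool => ∀ i, (lay a (z i)).2 = c)
    (fun _ => univ.image fun i => (z i).1) (fun a a' h h' hh => by
      funext u
      by_cases hu : u ∈ univ.image fun i => (z i).1
      · obtain ⟨i, _, rfl⟩ := mem_image.1 hu
        have := (h i).trans (h' i).symm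
        simp only [lay_apply] at this
        revert this
        cases (z i).2 <;> simp
      · exact hh u hu hu)
  rw [one_div, inv_pow, ← one_div, le_div_iff₀ (by positivity), expect_mul]
  refine le_trans (expect_le_expect fun a _ => ?_) hk
  by_cases h : ∀ i, (lay a (z i)).2 = c
  · have hi : Function.Injective fun i => (z i).1 :=
      fun i j e => hz ((lay a).injective (Prod.ext e ((h i).trans (h j).symm)))
    rw [card_image_of_injective _ hi, card_univ]
  · rw [ind_of_not h]; simp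

end expm

/-- the base of the norm bound -/
noncomputable def tt (l k : ℕ) : ℝ := (2 ^ 28 * k / 2 ^ l) ^ (1 / 8 : ℝ)

/-- the squared norm bound -/
noncomputable def rr (l k : ℕ) : ℝ :=
  if k = 0 then 1 else if k = 1 then 0 else 1 / 4 * tt l k ^ k

lemma tt_nonneg (l k : ℕ) : 0 ≤ tt l k := Real.rpow_nonneg (by positivity) _

lemma rr_nonneg (l k : ℕ) : 0 ≤ rr l k := by
  have := tt_nonneg l k
  unfold rr; split_ifs <;> positivity

lemma tt_mono (l : ℕ) {k k' : ℕ} (h : k ≤ k') : tt l k ≤ tt l k' := by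
  refine Real.rpow_le_rpow (by positivity) ?_ (by norm_num)
  have : (k:ℝ) ≤ k' := by exact_mod_cast h
  gcongr

lemma tt_pow8 (l k : ℕ) : tt l k ^ 8 = 2 ^ 28 * k / 2 ^ l := by
  rw [tt, ← Real.rpow_natCast, ← Real.rpow_mul (by positivity)]; norm_num

lemma tt_ratio (l p m : ℕ) (hm : 0 < m) :
    tt l p = tt (l + 1) m * (2 * p / m : ℝ) ^ (1 / 8 : ℝ) := by
  rw [tt, tt, ← Real.mul_rpow (by positivity) (by positivity)]
  congr 1
  have : (m:ℝ) ≠ 0 := by positivity
  field_simp
  ring

lemma tt_pow_le (l p m : ℕ) (hm : 0 < m) :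
    (tt l p ^ p) ^ 2 ≤ (tt (l + 1) m ^ p) ^ 2 * Real.exp (p * (2 * p / m - 1) / 4) := by
  rw [tt_ratio l p m hm, mul_pow, mul_pow]
  refine mul_le_mul_of_nonneg_left ?_ (sq_nonneg _)
  have h1 : (2 * p / m : ℝ) ^ (1 / 8 : ℝ) ≤ Real.exp ((2 * p / m - 1) / 8) := by
    have : (2 * p / m : ℝ) ≤ Real.exp (2 * p / m - 1) := by
      linarith [Real.add_one_le_exp (2 * p / m - 1 : ℝ)]
    refine (Real.rpow_le_rpow (by positivity) this (by norm_num)).trans (le_of_eq ?_)
    rw [← Real.exp_mul]; congr 1; ring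
  refine (pow_le_pow_left₀ (by positivity) (pow_le_pow_left₀ (by positivity) h1 p) 2).trans
    (le_of_eq ?_)
  rw [← pow_mul, ← Real.exp_nat_mul]
  congr 1; push_cast; ring

lemma rr_pair (l p q : ℕ) (hm : 2 ≤ p + q) :
    (rr l p * rr l q) ^ 2 ≤ (tt (l + 1) (p + q) ^ (p + q)) ^ 2 *
      ((ind (p = 0) + ind (q = 0)) * (1 / 16 * (((2:ℝ) ^ (1 / 8 : ℝ)) ^ 2) ^ (p + q)) +
        1 / 256 * Real.exp (((p:ℝ) - q) ^ 2 / (4 * (p + q : ℕ)))) := by
  have hT := sq_nonneg (tt (l + 1) (p + q) ^ (p + q))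
  have i1 := ind_nonneg (p = 0)
  have i2 := ind_nonneg (q = 0)
  have single : ∀ m, 2 ≤ m → (rr l m) ^ 2 = (tt (l + 1) m ^ m) ^ 2 *
      (1 / 16 * (((2:ℝ) ^ (1 / 8 : ℝ)) ^ 2) ^ m) := by
    intro m hm
    rw [rr, if_neg (by omega), if_neg (by omega), tt_ratio l m m (by omega),
      mul_div_assoc, div_self (by positivity), mul_one, mul_pow, mul_pow, mul_pow, ← pow_mul _ 2 m,
      mul_comm 2 m, pow_mul]
    ring
  by_cases hp : p = 0
  · subst hp
    rw [zero_add] at *
    rw [show rr l 0 = 1 from if_pos rfl, one_mul, single q hm, ind_of rfl]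
    refine mul_le_mul_of_nonneg_left ?_ hT
    have : (0:ℝ) ≤ 1 / 16 * (((2:ℝ) ^ (1 / 8 : ℝ)) ^ 2) ^ q := by positivity
    nlinarith [Real.exp_pos ((((0:ℕ):ℝ) - q) ^ 2 / (4 * q))]
  by_cases hq : q = 0
  · subst hq
    rw [add_zero] at *
    rw [show rr l 0 = 1 from if_pos rfl, mul_one, single p hm, ind_of (rfl : (0:ℕ) = 0)]
    refine mul_le_mul_of_nonneg_left ?_ hT
    have : (0:ℝ) ≤ 1 / 16 * (((2:ℝ) ^ (1 / 8 : ℝ)) ^ 2) ^ p := by positivity
    nlinarith [Real.exp_pos (((p:ℝ) - (0:ℕ)) ^ 2 / (4 * p))]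
  by_cases hp1 : p = 1
  · rw [show rr l p = 0 by rw [rr, if_neg hp, if_pos hp1], zero_mul, sq, zero_mul]; positivity
  by_cases hq1 : q = 1
  · rw [show rr l q = 0 by rw [rr, if_neg hq, if_pos hq1], mul_zero, sq, zero_mul]; positivity
  rw [ind_of_not hp, ind_of_not hq, rr, rr, if_neg hp, if_neg hp1, if_neg hq, if_neg hq1]
  have h1 := tt_pow_le l p (p + q) (by omega)
  have h2 := tt_pow_le l q (p + q) (by omega)
  have h3 := mul_le_mul h1 h2 (sq_nonneg _) (by positivity)
  have e : Real.exp (((p:ℝ) - q) ^ 2 / (4 * (p + q : ℕ))) =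
      Real.exp (p * (2 * p / (p + q : ℕ) - 1) / 4) * Real.exp (q * (2 * q / (p + q : ℕ) - 1) / 4) := by
    rw [← Real.exp_add]
    congr 1
    have : ((p + q : ℕ) : ℝ) ≠ 0 := by
      have : 0 < p + q := by omega
      positivity
    field_simp
    push_cast
    ring
  rw [e, pow_add]
  nlinarith

variable {B : Type*} [Fintype B]

/-- the sector weight -/
noncomputable def wgt (l : ℕ) (β : B → Bool) : ℝ :=
  rr l (univ.filter fun i => β i = true).card * rr l (univ.filter fun i => ¬ β i = true).card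

lemma wgt_nonneg (l : ℕ) (β : B → Bool) : 0 ≤ wgt l β := mul_nonneg (rr_nonneg _ _) (rr_nonneg _ _)

/-- bound for the weight -/
noncomputable def Wb (l m : ℕ) : ℝ :=
  if m = 0 then 1 else if m = 1 then 0 else 19 / 80 * tt (l + 1) m ^ m

lemma Wb_nonneg (l k : ℕ) : 0 ≤ Wb l k := by
  have := tt_nonneg (l + 1) k
  unfold Wb; split_ifs <;> positivity

theorem W_bound {Y : Type*} [Fintype Y] [DecidableEq Y] (l : ℕ) (z : B → Y × Bool)
    (hz : Function.Injective z) :
    𝔼 a : Y → Bool, wgt l (fun i => (lay a (z i)).2) ^ 2 ≤ Wb l (Fintype.card B) ^ 2 := by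
  have hpq : ∀ β : B → Bool, (univ.filter fun i => β i = true).card +
      (univ.filter fun i => ¬ β i = true).card = Fintype.card B := fun β => by
    rw [card_filter_add_card_filter_not, card_univ]
  set m := Fintype.card B with hm
  by_cases h0 : m = 0
  · refine expect_le univ_nonempty fun a _ => le_of_eq ?_
    have := hpq (fun i => (lay a (z i)).2)
    rw [wgt, show (univ.filter fun i => (lay a (z i)).2 = true).card = 0 by omega,
      show (univ.filter fun i => ¬ (lay a (z i)).2 = true).card = 0 by omega, h0]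
    simp [rr, Wb]
  by_cases h1 : m = 1
  · refine expect_le univ_nonempty fun a _ => le_of_eq ?_
    have := hpq (fun i => (lay a (z i)).2)
    rw [wgt, h1]
    by_cases h : (univ.filter fun i => (lay a (z i)).2 = true).card = 1
    · rw [h]; simp [rr, Wb]
    · rw [show (univ.filter fun i => ¬ (lay a (z i)).2 = true).card = 1 by omega]; simp [rr, Wb]
  set τ : ℝ := (2:ℝ) ^ (1 / 8 : ℝ) with hτ
  have hpt : ∀ a : Y → Bool, wgt l (fun i => (lay a (z i)).2) ^ 2 ≤ (tt (l + 1) m ^ m) ^ 2 *
      ((ind (∀ i, (lay a (z i)).2 = false) + ind (∀ i, (lay a (z i)).2 = true)) *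
        (1 / 16 * (τ ^ 2) ^ m) +
        1 / 256 * Real.exp ((∑ i, sg (lay a (z i)).2) ^ 2 / (4 * m))) := by
    intro a
    have h2 := hpq (fun i => (lay a (z i)).2)
    have h3 := rr_pair l _ _ (h2 ▸ (by omega : 2 ≤ m))
    rw [h2] at h3
    refine h3.trans (le_of_eq ?_)
    congr 4
    · refine ind_congr ?_
      simp [card_eq_zero, filter_eq_empty_iff]
    · refine ind_congr ?_
      simp [card_eq_zero, filter_eq_empty_iff]
    · congr 1
      rw [← neg_sq, neg_sub]
      congr 1
      simp only [sg, sum_ite]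
      simp
      ring
  refine (expect_le_expect fun a _ => hpt a).trans ?_
  rw [← mul_expect, expect_add_distrib, ← expect_mul, expect_add_distrib, ← mul_expect,
    Wb, if_neg h0, if_neg h1, mul_pow (19 / 80 : ℝ), mul_comm ((19 / 80 : ℝ) ^ 2)]
  refine mul_le_mul_of_nonneg_left ?_ (sq_nonneg _)
  have a1 := prob_all z hz false
  have a2 := prob_all z hz true
  have a3 := exp_sum_moment z hz (by omega)
  rw [← hm] at a1 a2 a3
  have t8 : (τ ^ 4) ^ 2 = 2 := by
    rw [hτ, ← pow_mul, ← Real.rpow_natCast, ← Real.rpow_mul (by norm_num)]; norm_num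
  have t0 : 0 ≤ τ := by positivity
  have t4 : τ ^ 4 ≤ 1.415 := by
    by_contra h
    nlinarith
  have t2 : τ ^ 2 ≤ 2 := by
    by_contra h
    nlinarith
  have a4 : (1 / 2 : ℝ) ^ m * (τ ^ 2) ^ m ≤ τ ^ 4 / 4 := by
    rw [← mul_pow]
    calc (1 / 2 * τ ^ 2) ^ m ≤ (1 / 2 * τ ^ 2) ^ 2 :=
          pow_le_pow_of_le_one (by positivity) (by linarith) (by omega)
      _ = _ := by ring
  have a5 : Real.exp (1 / 2) ≤ 1.65 := by
    have h : Real.exp (1 / 2) ^ 2 = Real.exp 1 := by rw [← Real.exp_nat_mul]; norm_num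
    have := Real.exp_one_lt_d9
    by_contra hc
    nlinarith
  have a6 : (0:ℝ) ≤ (τ ^ 2) ^ m := by positivity
  have a7 := mul_le_mul_of_nonneg_right (add_le_add a1 a2) a6
  nlinarith

end Vale.Agent.P162
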