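import Vale.Agent.P162.High1
import Vale.Agent.P162.Low2

/-! Large multiplicity for invariant subspaces of high degree. -/

namespace Vale.Agent.P162
open Finset Equiv
open scoped Matrix BigOperators

variable {Y : Type} [Fintype Y] [DecidableEq Y]

/-- characters of the cube -/
def chi (Z : Finset Y) (a : Y → Bool) : ℝ := ∏ u ∈ Z, sg (a u)

/-- one switch -/
def sw (u : Y) : Y → Bool := fun w => decide (w = u)

omit [Fintype Y] in
lemma lay_sw (u : Y) : lay (sw u) = swap (u, false) (u, true) := by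
  ext ⟨w, b⟩ : 1
  by_cases h : w = u
  · subst h; cases b <;> simp [sw]
  · rw [swap_apply_of_ne_of_ne (by simp [h]) (by simp [h])]; simp [sw, h]

omit [Fintype Y] in
lemma chi_sw (Z : Finset Y) (u : Y) : chi Z (sw u) = if u ∈ Z then -1 else 1 := by
  have : ∀ w, sg (sw u w) = if w = u then -1 else 1 := fun w => by simp [sg, sw]
  simp only [chi, this, prod_ite_eq']

omit [Fintype Y] [DecidableEq Y] in
lemma lay_mul (a a' : Y → Bool) : lay a * lay a' = lay fun u => xor (a u) (a' u) := by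
  ext ⟨w, b⟩ : 1
  simp only [Perm.mul_apply, lay_apply]
  cases b <;> cases a w <;> cases a' w <;> rfl

omit [Fintype Y] [DecidableEq Y] in
lemma lay_comm (a a' : Y → Bool) : lay a * lay a' = lay a' * lay a := by
  simp only [lay_mul, Bool.xor_comm]

/-- projection on a type -/
noncomputable def EZ (Z : Finset Y) : (Perm (Y × Bool) → ℝ) →ₗ[ℝ] (Perm (Y × Bool) → ℝ) :=
  ((2:ℝ) ^ Fintype.card Y)⁻¹ • ∑ a : Y → Bool, chi Z a • Rt (lay a)

lemma EZ_apply (Z : Finset Y) (v : Perm (Y × Bool) → ℝ) :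
    EZ Z v = ((2:ℝ) ^ Fintype.card Y)⁻¹ • ∑ a : Y → Bool, chi Z a • Rt (lay a) v := by
  simp [EZ, LinearMap.sum_apply]

lemma Rt_EZ (Z : Finset Y) (a : Y → Bool) (v : Perm (Y × Bool) → ℝ) :
    Rt (lay a) (EZ Z v) = chi Z a • EZ Z v := by
  rw [EZ_apply, map_smul, smul_comm (chi Z a), map_sum, smul_sum (r := chi Z a)]
  congr 1
  let e : (Y → Bool) ≃ (Y → Bool) := Function.Involutive.toPerm
    (fun a' u => xor (a u) (a' u)) (fun a' => by ext u; simp)
  refine Fintype.sum_equiv e _ _ fun a' => ?_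
  rw [map_smul, Rt_Rt, lay_mul, smul_smul]
  congr 1
  simp only [chi, ← prod_mul_distrib]
  refine prod_congr rfl fun u _ => ?_
  show _ = _ * sg (xor (a u) (a' u))
  rw [sg_xor, ← mul_assoc, sg_sq, one_mul]

lemma EZ_Rt (Z : Finset Y) (a : Y → Bool) (v : Perm (Y × Bool) → ℝ) :
    EZ Z (Rt (lay a) v) = Rt (lay a) (EZ Z v) := by
  simp only [EZ_apply, map_smul, map_sum, Rt_Rt, lay_comm a]

lemma sum_EZ (v : Perm (Y × Bool) → ℝ) : ∑ Z, EZ Z v = v := by
  simp only [EZ_apply]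
  rw [← smul_sum, sum_comm]
  have : ∀ a : Y → Bool, ∑ Z : Finset Y, chi Z a = ∏ u, (1 + sg (a u)) := fun a => by
    rw [prod_one_add, powerset_univ]; rfl
  simp only [← sum_smul, this]
  rw [sum_eq_single (fun _ => false)]
  · have e : lay (fun _ : Y => false) = 1 := by ext ⟨w, b⟩ : 1; simp
    rw [e, Rt_one, smul_smul]
    simp [sg, one_add_one_eq_two]
  · intro a _ ha
    obtain ⟨u, hu⟩ := Function.ne_iff.1 ha
    rw [prod_eq_zero (mem_univ u) (by simp [sg, Bool.ne_false_iff.1 hu]), zero_smul]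
  · simp

lemma EZ_kill {Z Z' : Finset Y} {u : Y} (h : ¬ (u ∈ Z ↔ u ∈ Z')) {w : Perm (Y × Bool) → ℝ}
    (hw : Rt (lay (sw u)) w = chi Z' (sw u) • w) : EZ Z w = 0 := by
  have h1 := EZ_Rt Z (sw u) w
  rw [hw, Rt_EZ, map_smul, chi_sw, chi_sw, ← sub_eq_zero, ← sub_smul] at h1
  refine (smul_eq_zero.1 h1).resolve_left ?_
  by_cases a : u ∈ Z <;> by_cases b : u ∈ Z' <;> simp [a, b] at h ⊢ <;> norm_num

lemma type_orth {Z Z' : Finset Y} (h : Z ≠ Z') {w w' : Perm (Y × Bool) → ℝ}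
    (hw : ∀ a, Rt (lay a) w = chi Z a • w) (hw' : ∀ a, Rt (lay a) w' = chi Z' a • w') :
    w ⬝ᵥ w' = 0 := by
  obtain ⟨u, hu⟩ : ∃ u, ¬ (u ∈ Z ↔ u ∈ Z') := not_forall.1 fun hh => h (Finset.ext hh)
  have := Rt_dot_Rt (lay (sw u)) w w'
  rw [hw, hw', smul_dotProduct, dotProduct_smul, chi_sw, chi_sw] at this
  by_cases a : u ∈ Z <;> by_cases b : u ∈ Z' <;> simp [a, b] at hu this <;> linarith

lemma EZ_nonneg (Z : Finset Y) (v : Perm (Y × Bool) → ℝ) : 0 ≤ v ⬝ᵥ EZ Z v := by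
  nth_rewrite 1 [← sum_EZ v]
  rw [sum_dotProduct, sum_eq_single Z (fun Z' _ h => type_orth h (fun a => Rt_EZ _ a v)
    (fun a => Rt_EZ _ a v)) (by simp)]
  exact dot_self_nonneg _

lemma sum_ff (v : Perm (Y × Bool) → ℝ) : ∑ u, ff v (u, false) (u, true) =
    ∑ Z : Finset Y, (Fintype.card Y - 2 * Z.card : ℝ) * (v ⬝ᵥ EZ Z v) := by
  have h1 : ∀ u, ff v (u, false) (u, true) = ∑ Z, chi Z (sw u) * (v ⬝ᵥ EZ Z v) := by
    intro u
    rw [ff, ← lay_sw]
    nth_rewrite 2 [← sum_EZ v]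
    simp only [map_sum, Rt_EZ, dotProduct_sum, dotProduct_smul, smul_eq_mul]
  simp only [h1]
  rw [sum_comm]
  refine sum_congr rfl fun Z _ => ?_
  rw [← sum_mul]
  congr 1
  have : ∀ u, chi Z (sw u) = 1 - 2 * (if u ∈ Z then 1 else 0) := fun u => by
    rw [chi_sw]; split_ifs <;> norm_num
  simp [this, mul_comm]

lemma EZ_mem {W : Submodule ℝ (Perm (Y × Bool) → ℝ)} (hR : ∀ h, ∀ v ∈ W, Rt h v ∈ W)
    (Z : Finset Y) {v} (hv : v ∈ W) : EZ Z v ∈ W := by
  rw [EZ_apply]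
  exact W.smul_mem _ (W.sum_mem fun a _ => W.smul_mem _ (hR _ _ hv))

/-- vectors whose types all satisfy `P` -/
def WP (W : Submodule ℝ (Perm (Y × Bool) → ℝ)) (P : Finset Y → Prop) :
    Submodule ℝ (Perm (Y × Bool) → ℝ) where
  carrier := {v | v ∈ W ∧ ∀ Z, ¬ P Z → EZ Z v = 0}
  add_mem' ha hb := ⟨W.add_mem ha.1 hb.1, fun Z hZ => by rw [map_add, ha.2 Z hZ, hb.2 Z hZ, add_zero]⟩
  zero_mem' := ⟨W.zero_mem, fun Z _ => map_zero _⟩
  smul_mem' c v hv := ⟨W.smul_mem c hv.1, fun Z hZ => by rw [map_smul, hv.2 Z hZ, smul_zero]⟩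

lemma WP_inv {W : Submodule ℝ (Perm (Y × Bool) → ℝ)} (hR : ∀ h, ∀ v ∈ W, Rt h v ∈ W)
    (P : Finset Y → Prop)
    (hP : ∀ Z Z', P Z' → ¬ P Z → Z.card ≤ Z'.card + 2 → Z'.card ≤ Z.card + 2 →
      ∀ v ∈ W, EZ Z v = 0) : ∀ h, ∀ v ∈ WP W P, Rt h v ∈ WP W P := by
  intro h
  induction h using Perm.swap_induction_on with
  | one => intro v hv; rwa [Rt_one]
  | swap_mul f x y _ ih =>
    intro v hv
    rw [← Rt_Rt]
    generalize hw : Rt f v = w
    have hw' : w ∈ WP W P := hw ▸ ih v hv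
    refine ⟨hR _ _ hw'.1, fun Z hZ => ?_⟩
    rw [← sum_EZ w, map_sum, map_sum]
    refine sum_eq_zero fun Z' _ => ?_
    by_cases hZ' : P Z'
    swap
    · rw [hw'.2 Z' hZ', map_zero, map_zero]
    by_cases hc : ∀ u, u ≠ x.1 → u ≠ y.1 → (u ∈ Z ↔ u ∈ Z')
    · have aux : ∀ A B : Finset Y, (∀ u, u ≠ x.1 → u ≠ y.1 → u ∈ A → u ∈ B) →
          A.card ≤ B.card + 2 := by
        intro A B hAB
        have : A ⊆ insert x.1 (insert y.1 B) := fun u hu => by
          by_cases h1 : u = x.1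
          · simp [h1]
          by_cases h2 : u = y.1
          · simp [h2]
          simp [hAB u h1 h2 hu]
        have := card_le_card this
        have := card_insert_le x.1 (insert y.1 B)
        have := card_insert_le y.1 B
        omega
      exact hP Z Z' hZ' hZ (aux _ _ fun u a b => (hc u a b).1) (aux _ _ fun u a b => (hc u a b).2)
        _ (hR _ _ (EZ_mem hR _ hw'.1))
    · push Not at hc
      obtain ⟨u, h1, h2, h3⟩ := hc
      refine EZ_kill (Z' := Z') (u := u) (by tauto) ?_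
      have e : ∀ p : Y × Bool, u ≠ p.1 → lay (sw u) p = p := fun p hp => by
        simp [sw, Ne.symm hp]
      rw [Rt_Rt, mul_swap_eq_swap_mul, e x h1, e y h2, ← Rt_Rt, Rt_EZ, map_smul]

lemma exists_mid (W : Submodule ℝ (Perm (Y × Bool) → ℝ)) (hR : ∀ h, ∀ v ∈ W, Rt h v ∈ W)
    (k j : ℕ) (hk : k ≤ 2 * Fintype.card Y) (hp : ∀ v ∈ W, v ∈ perp (UU (Y × Bool) k))
    (hL : ∀ v ∈ W, ∀ u g, v (lay (sw u) * g) = v g) (hne : ∃ v ∈ W, v ≠ 0)
    (h1 : 4 * j ≤ k) (h2 : 4 * j < Fintype.card Y) (h3 : 2 * j + 2 < Fintype.card Y) :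
    ∃ Z : Finset Y, j < Z.card ∧ Z.card + j < Fintype.card Y ∧ ∃ v ∈ W, EZ Z v ≠ 0 := by
  by_contra hcon
  push Not at hcon
  set M := Fintype.card Y with hM
  have hn : Fintype.card (Y × Bool) = 2 * M := by simp [hM, mul_comm]
  obtain ⟨v₀, hv₀, hv₀'⟩ := hne
  obtain ⟨Z₀, hZ₀⟩ : ∃ Z, EZ Z v₀ ≠ 0 := by
    by_contra hc
    push Not at hc
    exact hv₀' (by rw [← sum_EZ v₀]; exact sum_eq_zero fun Z _ => hc Z)
  have hmem : ∀ P : Finset Y → Prop, P Z₀ → EZ Z₀ v₀ ∈ WP W P := fun P hP =>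
    ⟨EZ_mem hR _ hv₀, fun Z hZ => by
      obtain ⟨u, hu⟩ : ∃ u, ¬ (u ∈ Z ↔ u ∈ Z₀) :=
        not_forall.1 fun hh => hZ (by rw [Finset.ext hh]; exact hP)
      exact EZ_kill hu (Rt_EZ _ _ _)⟩
  have hsum : ∀ v : Perm (Y × Bool) → ℝ, ∑ Z, v ⬝ᵥ EZ Z v = v ⬝ᵥ v := fun v => by
    rw [← dotProduct_sum, sum_EZ]
  have hM1 : (4 * j + 1 : ℝ) ≤ M := by exact_mod_cast h2
  have hj0 : (0:ℝ) ≤ j := Nat.cast_nonneg _
  have hpos : ∀ v : Perm (Y × Bool) → ℝ, v ≠ 0 → 0 < v ⬝ᵥ v := fun v hv =>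
    lt_of_le_of_ne (dot_self_nonneg _) fun e => hv (dotProduct_self_eq_zero.1 e.symm)
  by_cases hlow : Z₀.card ≤ j
  · have hinv := WP_inv hR (fun Z => Z.card ≤ j) fun Z Z' a b c d =>
      hcon Z (by omega) (by omega)
    obtain ⟨v, hv, hv0, hup⟩ := upper_content _ hinv k (by omega) (fun v hv => hp v hv.1)
      ⟨_, hmem _ hlow, hZ₀⟩
    have h4 := conj_avg (fun u : Y => (u, false)) (fun u => (u, true)) (by simp) (ff v)
      ((M - 2 * j) * (v ⬝ᵥ v)) (fun g => by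
        simp only [ff_conj]
        rw [sum_ff, ← Rt_dot_Rt g⁻¹ v v, ← hsum, mul_sum]
        refine sum_le_sum fun Z _ => ?_
        by_cases hZ : Z.card ≤ j
        · have : (Z.card : ℝ) ≤ j := by exact_mod_cast hZ
          exact mul_le_mul_of_nonneg_right (by linarith) (EZ_nonneg _ _)
        · rw [(hinv _ _ hv).2 Z hZ]; simp)
    have h5 : ∑ x, ∑ y, ff v x y = ∑ x, ∑ y ∈ univ.erase x, ff v x y + 2 * M * (v ⬝ᵥ v) := by
      rw [sum_congr rfl fun x _ => (add_sum_erase _ _ (mem_univ x)).symm, sum_add_distrib]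
      simp only [ff_self, sum_const, card_univ, nsmul_eq_mul, hn]
      push_cast; ring
    rw [h5, hn] at hup
    rw [hn, ← hM] at h4
    push_cast at hup h4
    have h6 := hpos v hv0
    have h7 : (4 * j : ℝ) ≤ k := by exact_mod_cast h1
    have h8 : 2 * (2 * M - 1) * (M - 2 * j) * (v ⬝ᵥ v) ≤ ∑ x, ∑ y ∈ univ.erase x, ff v x y := by
      refine le_of_mul_le_mul_left ?_ (show (0:ℝ) < M by linarith)
      linarith
    have h9 : (2 * (2 * M - 1) * (M - 2 * j) + 2 * M : ℝ) ≤ 2 * M * (2 * M - k - 1) := by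
      refine le_of_mul_le_mul_right ?_ h6
      linarith
    nlinarith
  · have hhigh : M ≤ Z₀.card + j := by
      by_contra hc
      exact hZ₀ (hcon Z₀ (by omega) (by omega) v₀ hv₀)
    have hinv := WP_inv hR (fun Z => M ≤ Z.card + j) fun Z Z' a b c d =>
      hcon Z (by omega) (by omega)
    have hv := hmem (fun Z => M ≤ Z.card + j) hhigh
    generalize EZ Z₀ v₀ = v at hv hZ₀
    have h4 := conj_avg (fun u : Y => (u, false)) (fun u => (u, true)) (by simp)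
      (fun x y => - ff v x y) ((M - 2 * j) * (v ⬝ᵥ v)) (fun g => by
        simp only [ff_conj, sum_neg_distrib]
        rw [sum_ff, ← Rt_dot_Rt g⁻¹ v v, ← hsum, mul_sum, ← sum_neg_distrib]
        refine sum_le_sum fun Z _ => ?_
        by_cases hZ : M ≤ Z.card + j
        · have : (M : ℝ) ≤ Z.card + j := by exact_mod_cast hZ
          rw [← neg_mul]
          exact mul_le_mul_of_nonneg_right (by linarith) (EZ_nonneg _ _)
        · rw [(hinv _ _ hv).2 Z hZ]; simp)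
    have h5 := lower_content (fun x : Y × Bool => (x.1, !x.2)) (by simp [Prod.ext_iff]) v
      (fun x g => by
        rw [← hL v hv.1 x.1 g, lay_sw]
        rcases x with ⟨u, b⟩
        cases b
        · rfl
        · rw [swap_comm]; rfl)
    simp only [sum_neg_distrib] at h4
    rw [hn] at h5
    rw [hn, ← hM] at h4
    push_cast at h5 h4
    have h6 := hpos v hZ₀
    have h8 : 2 * (2 * M - 1) * (M - 2 * j) * (v ⬝ᵥ v) ≤ -∑ x, ∑ y ∈ univ.erase x, ff v x y := by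
      refine le_of_mul_le_mul_left ?_ (show (0:ℝ) < M by linarith)
      linarith
    have h9 : (2 * (2 * M - 1) * (M - 2 * j) : ℝ) ≤ M * (2 * M - 1) := by
      refine le_of_mul_le_mul_right ?_ h6
      linarith
    nlinarith

lemma two_pow_le_choose {M z j : ℕ} (h1 : j ≤ z) (h2 : z + j ≤ M) : 2 ^ j ≤ M.choose z := by
  have a1 : ∀ j, 2 ^ j ≤ (2 * j).choose j := by
    intro j
    induction j with
    | zero => simp
    | succ j ih =>
      have := Nat.succ_mul_centralBinom_succ j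
      rw [← Nat.centralBinom_eq_two_mul_choose] at ih ⊢
      refine Nat.le_of_mul_le_mul_left ?_ (Nat.succ_pos j)
      rw [Nat.succ_eq_add_one, this, pow_succ]
      nlinarith
  calc 2 ^ j ≤ (2 * j).choose j := a1 j
    _ ≤ (z + j).choose j := Nat.choose_le_choose _ (by omega)
    _ = (z + j).choose z := Nat.choose_symm_add.symm
    _ ≤ _ := Nat.choose_le_choose _ h2

theorem high_mult (W : Submodule ℝ (Perm (Y × Bool) → ℝ)) (hR : ∀ h, ∀ v ∈ W, Rt h v ∈ W)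
    (k j : ℕ) (hk : k ≤ 2 * Fintype.card Y) (hp : ∀ v ∈ W, v ∈ perp (UU (Y × Bool) k))
    (hL : ∀ v ∈ W, ∀ u g, v (lay (sw u) * g) = v g) (hne : ∃ v ∈ W, v ≠ 0)
    (h1 : 4 * j ≤ k) (h2 : 4 * j < Fintype.card Y) (h3 : 2 * j + 2 < Fintype.card Y)
    (A : Matrix (Perm (Y × Bool)) (Perm (Y × Bool)) ℝ) (μ : ℝ) (hA : ∀ v ∈ W, A *ᵥ v = μ • v) :
    μ ^ 2 * 2 ^ j ≤ Matrix.trace (Aᵀ * A) := by
  obtain ⟨Z₀, a1, a2, v₀, hv₀, hv₀'⟩ := exists_mid W hR k j hk hp hL hne h1 h2 h3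
  have hv := EZ_mem hR Z₀ hv₀
  have ht := fun a => Rt_EZ Z₀ a v₀
  generalize EZ Z₀ v₀ = v at hv ht hv₀'
  have hch : ∀ Z : {Z : Finset Y // Z.card = Z₀.card}, ∃ w ∈ W, w ⬝ᵥ w = v ⬝ᵥ v ∧
      ∀ a, Rt (lay a) w = chi Z.1 a • w := by
    intro Z
    obtain ⟨σ, hσ⟩ := Perm.exists_map_finset_eq Z₀ Z.1 Z.2.symm
    refine ⟨Rt (bsum fun _ => σ) v, hR _ _ hv, Rt_dot_Rt _ _ _, fun a => ?_⟩
    have e : lay a * bsum (fun _ => σ) = bsum (fun _ => σ) * lay (fun u => a (σ u)) :=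
      Equiv.ext fun _ => rfl
    rw [Rt_Rt, e, ← Rt_Rt, ht, map_smul, ← hσ, chi, chi, prod_map]
    rfl
  choose w hw1 hw2 hw3 using hch
  have hpos : 0 < v ⬝ᵥ v :=
    lt_of_le_of_ne (dot_self_nonneg _) fun e => hv₀' (dotProduct_self_eq_zero.1 e.symm)
  have := mult_bound A w hpos (fun i j => by
    split_ifs with h
    · rw [h, hw2]
    · exact type_orth (fun e => h (Subtype.ext e)) (hw3 i) (hw3 j)) fun i => hA _ (hw1 i)
  refine le_trans (mul_le_mul_of_nonneg_left ?_ (sq_nonneg _)) this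
  rw [Fintype.card_finset_len]
  exact_mod_cast two_pow_le_choose a1.le a2.le

end Vale.Agent.P162
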