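import Mathlib

/-! Matrix and operator inequalities. -/

namespace Vale.Agent.P162
open Finset Matrix
open scoped BigOperators

variable {Y : Type*} [Fintype Y]

lemma young_step (K : Matrix Y Y ℝ) (h0 : ∀ x y, 0 ≤ K x y) (hs : ∀ x y, K x y = K y x)
    {p r : ℝ} (hp : 0 < p) (hr : 1 ≤ r) (hpr : p / 2 + (1 - p / 2) * r = p)
    (h : ∀ x, ∑ y, K x y ^ p ≤ 1) (x : Y) : ∑ z, (K * K) x z ^ r ≤ 1 := by
  have key : ∀ z, (K * K) x z ^ r ≤ ∑ y, K x y ^ p * K y z ^ p := by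
    intro z
    have hab : ∀ y, 0 ≤ K x y * K y z := fun y => mul_nonneg (h0 _ _) (h0 _ _)
    have h1 := Real.inner_le_weight_mul_Lp_of_nonneg univ hr
      (fun y => (K x y * K y z) ^ (p / 2)) (fun y => (K x y * K y z) ^ (1 - p / 2))
      (fun y => Real.rpow_nonneg (hab y) _) (fun y => Real.rpow_nonneg (hab y) _)
    have e1 : ∀ y, (K x y * K y z) ^ (p / 2) * (K x y * K y z) ^ (1 - p / 2) = K x y * K y z := by
      intro y
      rw [← Real.rpow_add' (hab y) (by norm_num)]; simp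
    have e2 : ∀ y, (K x y * K y z) ^ (p / 2) * ((K x y * K y z) ^ (1 - p / 2)) ^ r =
        K x y ^ p * K y z ^ p := by
      intro y
      rw [← Real.rpow_mul (hab y), ← Real.rpow_add' (hab y) (by rw [hpr]; exact hp.ne'), hpr,
        Real.mul_rpow (h0 _ _) (h0 _ _)]
    simp only [e1, e2] at h1
    have h2 : ∑ y, (K x y * K y z) ^ (p / 2) ≤ 1 := by
      have : ∀ y, (K x y * K y z) ^ (p / 2) ≤ (K x y ^ p + K z y ^ p) / 2 := by
        intro y
        rw [Real.mul_rpow (h0 _ _) (h0 _ _), hs y z]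
        have a1 : K x y ^ p = (K x y ^ (p / 2)) ^ 2 := by
          rw [← Real.rpow_natCast, ← Real.rpow_mul (h0 _ _)]; simp
        have a2 : K z y ^ p = (K z y ^ (p / 2)) ^ 2 := by
          rw [← Real.rpow_natCast, ← Real.rpow_mul (h0 _ _)]; simp
        rw [a1, a2]
        nlinarith [sq_nonneg (K x y ^ (p / 2) - K z y ^ (p / 2))]
      refine (sum_le_sum fun y _ => this y).trans ?_
      rw [← sum_div, sum_add_distrib]
      linarith [h x, h z]
    have h3 : 0 ≤ ∑ y, K x y ^ p * K y z ^ p :=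
      sum_nonneg fun y _ => mul_nonneg (Real.rpow_nonneg (h0 _ _) _) (Real.rpow_nonneg (h0 _ _) _)
    have h4 : (∑ y, (K x y * K y z) ^ (p / 2)) ^ (1 - r⁻¹) ≤ 1 :=
      Real.rpow_le_one (sum_nonneg fun y _ => Real.rpow_nonneg (hab y) _) h2
        (sub_nonneg.2 (inv_le_one_of_one_le₀ hr))
    have h5 : (K * K) x z ≤ (∑ y, K x y ^ p * K y z ^ p) ^ r⁻¹ := by
      rw [Matrix.mul_apply]
      exact h1.trans (mul_le_of_le_one_left (Real.rpow_nonneg h3 _) h4)
    have h6 : 0 ≤ (K * K) x z := by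
      rw [Matrix.mul_apply]; exact sum_nonneg fun y _ => hab y
    refine (Real.rpow_le_rpow h6 h5 (by linarith)).trans (le_of_eq ?_)
    rw [← Real.rpow_mul h3, inv_mul_cancel₀ (by linarith), Real.rpow_one]
  refine (sum_le_sum fun z _ => key z).trans ?_
  rw [sum_comm]
  refine le_trans (sum_le_sum fun y _ => ?_) (h x)
  rw [← mul_sum]
  exact mul_le_of_le_one_right (Real.rpow_nonneg (h0 _ _) _) (h y)

variable [DecidableEq Y]

lemma young_one (K : Matrix Y Y ℝ) (h0 : ∀ x y, 0 ≤ K x y) (hs : ∀ x y, K x y = K y x)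
    (h : ∀ x, ∑ y, K x y ^ (128 / 127 : ℝ) ≤ 1) : trace (K ^ 128) ≤ (Fintype.card Y : ℝ) := by
  have n0 : ∀ K : Matrix Y Y ℝ, (∀ x y, 0 ≤ K x y) → ∀ x y, 0 ≤ (K * K) x y := fun K h x y => by
    rw [Matrix.mul_apply]; exact sum_nonneg fun z _ => mul_nonneg (h _ _) (h _ _)
  have s0 : ∀ K : Matrix Y Y ℝ, (∀ x y, K x y = K y x) → ∀ x y, (K * K) x y = (K * K) y x :=
    fun K h x y => by
      simp only [Matrix.mul_apply]
      exact sum_congr rfl fun z _ => by rw [h x z, h z y, mul_comm]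
  have a1 := young_step K h0 hs (r := 64 / 63) (by norm_num) (by norm_num) (by norm_num) h
  have b1 := n0 _ h0
  have c1 := s0 _ hs
  have a2 := young_step _ b1 c1 (r := 32 / 31) (by norm_num) (by norm_num) (by norm_num) a1
  have b2 := n0 _ b1
  have c2 := s0 _ c1
  have a3 := young_step _ b2 c2 (r := 16 / 15) (by norm_num) (by norm_num) (by norm_num) a2
  have b3 := n0 _ b2
  have c3 := s0 _ c2
  have a4 := young_step _ b3 c3 (r := 8 / 7) (by norm_num) (by norm_num) (by norm_num) a3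
  have b4 := n0 _ b3
  have c4 := s0 _ c3
  have a5 := young_step _ b4 c4 (r := 4 / 3) (by norm_num) (by norm_num) (by norm_num) a4
  have b5 := n0 _ b4
  have c5 := s0 _ c4
  have a6 := young_step _ b5 c5 (r := 2) (by norm_num) (by norm_num) (by norm_num) a5
  have c6 := s0 _ c5
  simp only [← pow_two, ← pow_mul] at a6 c6
  norm_num at a6 c6
  rw [show 128 = 64 + 64 by norm_num, pow_add, trace, ← card_univ, card_eq_sum_ones]
  push_cast
  refine sum_le_sum fun x _ => le_trans (le_of_eq ?_) (a6 x)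
  rw [diag_apply, Matrix.mul_apply]
  exact sum_congr rfl fun y _ => by rw [c6 y x, sq]

theorem young (K : Matrix Y Y ℝ) (h0 : ∀ x y, 0 ≤ K x y) (hs : ∀ x y, K x y = K y x) {R : ℝ}
    (hR : 0 < R) (h : ∀ x, ∑ y, K x y ^ (128 / 127 : ℝ) ≤ R) :
    trace (K ^ 128) ≤ Fintype.card Y * R ^ 127 := by
  set F := R ^ (127 / 128 : ℝ) with hF
  have hF0 : 0 < F := by positivity
  have h1 := young_one (F⁻¹ • K) (fun x y => mul_nonneg (by positivity) (h0 x y))
    (fun x y => by simp [hs x y]) (fun x => by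
      have : ∀ y, (F⁻¹ • K) x y ^ (128 / 127 : ℝ) = R⁻¹ * K x y ^ (128 / 127 : ℝ) := by
        intro y
        rw [Matrix.smul_apply, smul_eq_mul, Real.mul_rpow (by positivity) (h0 _ _),
          Real.inv_rpow hF0.le, hF, ← Real.rpow_mul hR.le]
        norm_num
      simp only [this]
      rw [← mul_sum, inv_mul_le_iff₀ hR, mul_one]
      exact h x)
  rw [smul_pow, trace_smul, smul_eq_mul, inv_pow, inv_mul_le_iff₀ (by positivity)] at h1
  have : F ^ 128 = R ^ 127 := by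
    rw [hF, ← Real.rpow_natCast, ← Real.rpow_mul hR.le, ← Real.rpow_natCast]; norm_num
  rw [this, mul_comm] at h1
  exact h1

omit [DecidableEq Y] in
lemma trace_amgm (A B : Matrix Y Y ℝ) :
    2 * trace (Aᵀ * B) ≤ trace (Aᵀ * A) + trace (Bᵀ * B) := by
  simp only [trace, diag_apply, Matrix.mul_apply, transpose_apply, mul_sum, ← sum_add_distrib]
  exact sum_le_sum fun i _ => sum_le_sum fun j _ => by nlinarith [sq_nonneg (A j i - B j i)]

lemma trace_cyc (A B : Matrix Y Y ℝ) (n : ℕ) : trace ((A * B) ^ n) = trace ((B * A) ^ n) := by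
  cases n with
  | zero => simp
  | succ n =>
    rw [pow_succ, ← mul_assoc, mul_pow_mul, trace_mul_comm, ← mul_assoc, ← pow_succ']

theorem dyson (j : ℕ) (A : Matrix Y Y ℝ) :
    trace ((A ^ 2 ^ j)ᵀ * A ^ 2 ^ j) ≤ trace ((Aᵀ * A) ^ 2 ^ j) := by
  have main : ∀ j, (∀ A : Matrix Y Y ℝ,
      trace ((A ^ 2 ^ j)ᵀ * A ^ 2 ^ j) ≤ trace ((Aᵀ * A) ^ 2 ^ j)) ∧
      ∀ P Q : Matrix Y Y ℝ, Pᵀ = P → Qᵀ = Q →
        trace ((P * Q) ^ 2 ^ j) ≤ trace (P ^ 2 ^ j * Q ^ 2 ^ j) := by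
    intro j
    induction j with
    | zero => exact ⟨fun A => by simp, fun P Q _ _ => by simp⟩
    | succ j ih =>
      obtain ⟨ha, hb⟩ := ih
      constructor
      · intro A
        have h1 := ha (A ^ 2)
        rw [← pow_mul, ← pow_succ'] at h1
        refine h1.trans ?_
        have e : (A ^ 2)ᵀ * A ^ 2 = Aᵀ * (Aᵀ * A * A) := by
          rw [sq, transpose_mul]; simp only [mul_assoc]
        rw [e, trace_cyc, mul_assoc (Aᵀ * A)]
        have s1 : (Aᵀ * A)ᵀ = Aᵀ * A := by simp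
        have s2 : (A * Aᵀ)ᵀ = A * Aᵀ := by simp
        refine (hb _ _ s1 s2).trans ?_
        have h2 := trace_amgm ((Aᵀ * A) ^ 2 ^ j) ((A * Aᵀ) ^ 2 ^ j)
        rw [transpose_pow, transpose_pow, s1, s2, ← pow_add, ← pow_add, trace_cyc A Aᵀ,
          ← mul_two (2 ^ j), ← pow_succ] at h2
        linarith
      · intro P Q hP hQ
        have h1 := trace_amgm ((P * Q) ^ 2 ^ j)ᵀ ((P * Q) ^ 2 ^ j)
        rw [transpose_transpose, trace_mul_comm _ (_ᵀ), ← pow_add, ← mul_two, ← pow_succ] at h1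
        have h2 := ha (P * Q)
        have e : (P * Q)ᵀ * (P * Q) = Q * (P ^ 2 * Q) := by
          rw [transpose_mul, hP, hQ, sq]; simp only [mul_assoc]
        rw [e, trace_cyc, mul_assoc, ← sq] at h2
        have h3 := hb (P ^ 2) (Q ^ 2) (by rw [transpose_pow, hP]) (by rw [transpose_pow, hQ])
        rw [← pow_mul, ← pow_mul, ← pow_succ'] at h3
        linarith
  exact (main j).1 A

omit [DecidableEq Y] in
lemma dot_self_nonneg (v : Y → ℝ) : 0 ≤ v ⬝ᵥ v := sum_nonneg fun _ _ => mul_self_nonneg _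

omit [DecidableEq Y] in
lemma dot_cs (v w : Y → ℝ) : (v ⬝ᵥ w) ^ 2 ≤ (v ⬝ᵥ v) * (w ⬝ᵥ w) := by
  simpa only [dotProduct, sq] using sum_mul_sq_le_sq_mul_sq univ v w

omit [DecidableEq Y] in
lemma dot_mulVec_mulVec (A B : Matrix Y Y ℝ) (v w : Y → ℝ) :
    (A *ᵥ v) ⬝ᵥ (B *ᵥ w) = v ⬝ᵥ ((Aᵀ * B) *ᵥ w) := by
  rw [← mulVec_mulVec, dotProduct_mulVec v, vecMul_transpose]

theorem jensen_pow (X : Matrix Y Y ℝ) (hX : Xᵀ = X) (w : Y → ℝ) (h0 : 0 ≤ w ⬝ᵥ (X *ᵥ w))
    (a : ℕ) : (w ⬝ᵥ (X *ᵥ w)) ^ 2 ^ a ≤ (w ⬝ᵥ w) ^ (2 ^ a - 1) * (w ⬝ᵥ ((X ^ 2 ^ a) *ᵥ w)) := by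
  induction a with
  | zero => simp
  | succ a ih =>
    rw [pow_succ 2 a, pow_mul]
    refine (pow_le_pow_left₀ (pow_nonneg h0 _) ih 2).trans ?_
    have h1 := dot_cs w ((X ^ 2 ^ a) *ᵥ w)
    rw [dot_mulVec_mulVec, transpose_pow, hX, ← pow_add, ← mul_two] at h1
    have e : 2 ^ a * 2 - 1 = (2 ^ a - 1) * 2 + 1 := by
      have : 0 < 2 ^ a := by positivity
      omega
    rw [mul_pow, e, pow_succ (w ⬝ᵥ w), pow_mul (w ⬝ᵥ w), mul_assoc]
    exact mul_le_mul_of_nonneg_left h1 (sq_nonneg _)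

omit [DecidableEq Y] in
theorem mult_bound {ι : Type*} [Fintype ι] [DecidableEq ι] (A : Matrix Y Y ℝ) (v : ι → Y → ℝ)
    {a μ : ℝ} (ha : 0 < a) (hv : ∀ i j, v i ⬝ᵥ v j = if i = j then a else 0)
    (hA : ∀ i, A *ᵥ v i = μ • v i) : μ ^ 2 * Fintype.card ι ≤ trace (Aᵀ * A) := by
  have bessel : ∀ r : Y → ℝ, ∑ i, (r ⬝ᵥ v i) ^ 2 ≤ a * (r ⬝ᵥ r) := by
    intro r
    have h1 := dot_self_nonneg (a • r - ∑ i, (r ⬝ᵥ v i) • v i)
    simp only [sub_dotProduct, dotProduct_sub, smul_dotProduct, dotProduct_smul, sum_dotProduct,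
      dotProduct_sum, smul_eq_mul, hv, dotProduct_comm (v _) r, mul_ite, mul_zero,
      sum_ite_eq', mem_univ, if_true, mul_comm _ a, sub_self, sum_const_zero, sub_zero] at h1
    simp only [sq]
    exact sub_nonneg.1 ((mul_nonneg_iff_of_pos_left ha).1 h1)
  refine le_of_mul_le_mul_left ?_ ha
  have h1 : a * trace (Aᵀ * A) = ∑ y, a * (A y ⬝ᵥ A y) := by
    rw [trace_mul_comm, ← mul_sum]; rfl
  have h2 : ∀ i, ∑ y, (A y ⬝ᵥ v i) ^ 2 = μ ^ 2 * a := by
    intro i
    have : ∑ y, (A y ⬝ᵥ v i) ^ 2 = (A *ᵥ v i) ⬝ᵥ (A *ᵥ v i) := by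
      simp only [sq]; rfl
    rw [this, hA, smul_dotProduct, dotProduct_smul, hv, if_pos rfl]
    simp only [smul_eq_mul]; ring
  rw [h1]
  refine le_trans (le_of_eq ?_) (sum_le_sum fun y _ => bessel (A y))
  rw [sum_comm]
  simp only [h2, sum_const, card_univ, nsmul_eq_mul]
  ring

omit [DecidableEq Y] in
theorem exists_proj (U : Submodule ℝ (Y → ℝ)) (v : Y → ℝ) :
    ∃ a ∈ U, ∀ u ∈ U, (v - a) ⬝ᵥ u = 0 := by
  let e : (Y → ℝ) ≃ₗ[ℝ] EuclideanSpace ℝ Y := (WithLp.linearEquiv 2 ℝ (Y → ℝ)).symm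
  obtain ⟨y, ⟨a, ha, rfl⟩, z, hz, h⟩ :=
    (U.map e.toLinearMap).exists_add_mem_mem_orthogonal (e v)
  refine ⟨a, ha, fun u hu => ?_⟩
  have h1 := (Submodule.mem_orthogonal _ _).1 hz (e u) ⟨u, hu, rfl⟩
  have h2 : z = e (v - a) := by rw [map_sub, h]; simp
  rw [h2, PiLp.inner_apply] at h1
  rw [← h1]
  rfl

omit [DecidableEq Y] in
theorem eig_bound (K : (Y → ℝ) →ₗ[ℝ] (Y → ℝ)) (hK : ∀ v w, K v ⬝ᵥ w = v ⬝ᵥ K w)
    (W : Submodule ℝ (Y → ℝ)) (hW : ∀ v ∈ W, K v ∈ W) (c : ℝ)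
    (h : ∀ (μ : ℝ) (v : Y → ℝ), v ∈ W → v ≠ 0 → K v = μ • v → μ ≤ c) :
    ∀ v ∈ W, v ⬝ᵥ K v ≤ c * (v ⬝ᵥ v) := by
  let e : (Y → ℝ) ≃ₗ[ℝ] EuclideanSpace ℝ Y := (WithLp.linearEquiv 2 ℝ (Y → ℝ)).symm
  have hin : ∀ v w, inner ℝ (e v) (e w) = v ⬝ᵥ w := by
    intro v w
    rw [PiLp.inner_apply, dotProduct_comm]; rfl
  let T : EuclideanSpace ℝ Y →ₗ[ℝ] EuclideanSpace ℝ Y :=
    e.toLinearMap ∘ₗ K ∘ₗ e.symm.toLinearMap
  have hT : T.IsSymmetric := by
    intro v w
    obtain ⟨v, rfl⟩ := e.surjective v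
    obtain ⟨w, rfl⟩ := e.surjective w
    simp only [T, LinearMap.comp_apply, LinearEquiv.coe_coe, LinearEquiv.symm_apply_apply, hin, hK]
  let W' := W.map e.toLinearMap
  have hW' : ∀ v ∈ W', T v ∈ W' := by
    rintro _ ⟨v, hv, rfl⟩
    exact ⟨K v, hW v hv, by simp [T]⟩
  have hT' := hT.restrict_invariant hW'
  let B := hT'.eigenvectorBasis rfl
  have hμ : ∀ i, hT'.eigenvalues rfl i ≤ c := by
    intro i
    obtain ⟨v, hv, hv'⟩ := (B i).2
    refine h _ v hv ?_ ?_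
    · rintro rfl
      refine B.orthonormal.ne_zero i (Subtype.ext ?_)
      rw [← hv']; simp
    · have := congrArg Subtype.val (hT'.apply_eigenvectorBasis rfl i)
      apply e.injective
      rw [map_smul]
      have hv'' : e v = (B i).1 := hv'
      have h3 : e (K v) = T (B i).1 := by rw [← hv'']; simp [T]
      rw [h3, hv'']
      exact this
  intro v hv
  let v' : W' := ⟨e v, v, hv, rfl⟩
  have h1 : v ⬝ᵥ v = inner ℝ v' v' := (hin v v).symm
  have h2 : v ⬝ᵥ K v = inner ℝ v' (T.restrict hW' v') := by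
    rw [← hin]; simp [T, v', Submodule.coe_inner]
  rw [h1, h2, ← B.sum_inner_mul_inner, ← B.sum_inner_mul_inner, mul_sum]
  refine sum_le_sum fun i _ => ?_
  rw [← hT' (B i) v', hT'.apply_eigenvectorBasis rfl i, inner_smul_left, real_inner_comm (B i) v']
  have := hμ i
  simp only [RCLike.ofReal_real_eq_id, id_eq, conj_trivial]
  nlinarith [mul_self_nonneg (inner ℝ v' (B i))]

lemma finrank_range_sum {V : Type*} [AddCommGroup V] [Module ℝ V] [FiniteDimensional ℝ V]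
    {ι : Type*} (T : Finset ι) (f : ι → V →ₗ[ℝ] V) :
    Module.finrank ℝ (LinearMap.range (∑ i ∈ T, f i)) ≤
      ∑ i ∈ T, Module.finrank ℝ (LinearMap.range (f i)) := by
  classical
  induction T using Finset.induction_on with
  | empty => rw [sum_empty, LinearMap.range_zero]; simp
  | insert a T ha ih =>
    rw [sum_insert ha, sum_insert ha]
    exact (Submodule.finrank_mono (LinearMap.range_add_le _ _)).trans
      ((Submodule.finrank_add_le_finrank_add_finrank _ _).trans (by omega))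

lemma trace_idem {V : Type*} [AddCommGroup V] [Module ℝ V] [FiniteDimensional ℝ V]
    (f : V →ₗ[ℝ] V) (h : f * f = f) :
    LinearMap.trace ℝ V f = Module.finrank ℝ (LinearMap.range f) :=
  LinearMap.IsProj.trace (LinearMap.IsIdempotentElem.isProj_range _ h)

omit [DecidableEq Y] in
theorem frame {ι : Type*} (T : Finset ι) (P : ι → (Y → ℝ) →ₗ[ℝ] (Y → ℝ))
    (hs : ∀ i v w, P i v ⬝ᵥ w = v ⬝ᵥ P i w) (hi : ∀ i v, P i (P i v) = P i v)
    (hc : ∀ i ∈ T, ∀ v, P i (∑ j ∈ T, P j v) = ∑ j ∈ T, P j (P i v))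
    (W : Submodule ℝ (Y → ℝ)) (hW : ∀ i ∈ T, ∀ v, P i v ∈ W)
    (hW' : ∀ v ∈ W, (∀ i ∈ T, P i v = 0) → v = 0) :
    ∀ v ∈ W, v ⬝ᵥ v ≤ ∑ i ∈ T, P i v ⬝ᵥ P i v := by
  set F := ∑ i ∈ T, P i with hF
  have hFa : ∀ v, F v = ∑ i ∈ T, P i v := fun v => by rw [hF, LinearMap.sum_apply]
  have hq : ∀ v, v ⬝ᵥ F v = ∑ i ∈ T, P i v ⬝ᵥ P i v := by
    intro v
    rw [hFa, dotProduct_sum]
    exact sum_congr rfl fun i _ => by rw [hs, hi]
  have h := eig_bound (-F) (fun v w => by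
      simp only [LinearMap.neg_apply, neg_dotProduct, dotProduct_neg, hFa, sum_dotProduct,
        dotProduct_sum, hs]) W
    (fun v _ => W.neg_mem (by rw [hFa]; exact W.sum_mem fun i hi => hW i hi v)) (-1) (by
      intro μ v hv hv0 hμ
      have hμ' : F v = (-μ) • v := by rw [neg_smul, ← hμ]; simp
      have hne : -μ ≠ 0 := by
        intro h0
        apply hv0
        refine hW' v hv fun i hi => ?_
        have h1 := hq v
        rw [hμ', h0, zero_smul, dotProduct_zero] at h1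
        have := (sum_eq_zero_iff_of_nonneg fun i _ => dot_self_nonneg (P i v)).1 h1.symm i hi
        exact dotProduct_self_eq_zero.1 this
      let E := Module.End.eigenspace F (-μ)
      have hE : ∀ w, w ∈ E ↔ F w = (-μ) • w := fun w => Module.End.mem_eigenspace_iff
      have hinv : ∀ i ∈ T, ∀ w ∈ E, P i w ∈ E := by
        intro i hi w hw
        rw [hE] at hw ⊢
        rw [hFa, ← hc i hi, ← hFa, hw, map_smul]
      classical
      let P' : ι → E →ₗ[ℝ] E := fun i =>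
        if h : i ∈ T then (P i).restrict (hinv i h) else 0
      have hP' : ∀ i ∈ T, ∀ w : E, (P' i w : Y → ℝ) = P i w := by
        intro i hi w; simp only [P', dif_pos hi]; rfl
      have hsum : ∑ i ∈ T, P' i = (-μ) • LinearMap.id := by
        ext w : 1
        apply Subtype.ext
        rw [LinearMap.sum_apply, Submodule.coe_sum, sum_congr rfl fun i hi => hP' i hi w, ← hFa,
          (hE w).1 w.2]
        rfl
      have htr : ∀ i ∈ T, LinearMap.trace ℝ E (P' i) =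
          Module.finrank ℝ (LinearMap.range (P' i)) := by
        intro i hiT
        refine trace_idem _ ?_
        ext w : 1
        apply Subtype.ext
        rw [Module.End.mul_apply, hP' i hiT, hP' i hiT, hi]
      have h1 := congrArg (LinearMap.trace ℝ E) hsum
      rw [map_sum, map_smul, LinearMap.trace_id, sum_congr rfl htr, smul_eq_mul] at h1
      have h2 := finrank_range_sum T P'
      rw [hsum, LinearMap.range_smul _ _ hne, LinearMap.range_id, finrank_top] at h2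
      have h3 : 0 < Module.finrank ℝ E := by
        rw [Module.finrank_pos_iff_exists_ne_zero]
        exact ⟨⟨v, (hE v).2 hμ'⟩, fun h => hv0 (congrArg Subtype.val h)⟩
      have h4 : (Module.finrank ℝ E : ℝ) ≤ -μ * Module.finrank ℝ E := by
        rw [← h1]; exact_mod_cast h2
      have h5 : (0:ℝ) < Module.finrank ℝ E := by exact_mod_cast h3
      nlinarith)
  intro v hv
  have := h v hv
  rw [LinearMap.neg_apply, dotProduct_neg, hq] at this
  linarith

end Vale.Agent.P162
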