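import Vale.Agent.P162.Defs
import Vale.Agent.P162.Dens
import Vale.Agent.P162.Mat

/-! Laws on finite groups. -/

namespace Vale.Agent.P162
open Finset Equiv Matrix
open scoped BigOperators

section group
variable {G : Type} [Group G] [Fintype G]

/-- integral against a law -/
def ev (μ φ : G → ℝ) : ℝ := ∑ g, μ g * φ g

/-- the inverse law -/
def star (μ : G → ℝ) : G → ℝ := fun g => μ g⁻¹

/-- probability vectors -/
def Pr (μ : G → ℝ) : Prop := (∀ g, 0 ≤ μ g) ∧ ∑ g, μ g = 1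

omit [Group G] in
lemma ev_ind (μ : G → ℝ) (g : G) : ev μ (fun h => ind (h = g)) = μ g := by
  simp only [ev, mul_comm (μ _)]; exact sum_ind_eq' _ _

omit [Group G] in
lemma ev_ext {μ ν : G → ℝ} (h : ∀ φ, ev μ φ = ev ν φ) : μ = ν :=
  funext fun g => by rw [← ev_ind μ, h, ev_ind]

lemma ev_conv (μ ν φ : G → ℝ) : ev (conv μ ν) φ = ev μ fun h => ev ν fun h' => φ (h * h') := by
  simp only [ev, conv, sum_mul, mul_sum]
  rw [sum_comm]
  refine sum_congr rfl fun h _ => ?_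
  rw [← Equiv.sum_comp (Equiv.mulLeft h)]
  simp [mul_assoc]

lemma ev_star (μ φ : G → ℝ) : ev (star μ) φ = ev μ fun g => φ g⁻¹ := by
  simp only [ev, star]
  rw [← Equiv.sum_comp (Equiv.inv G)]
  simp

omit [Group G] in
lemma ev_comm {H : Type} [Fintype H] (μ : G → ℝ) (ν : H → ℝ) (φ : G → H → ℝ) :
    (ev μ fun g => ev ν fun h => φ g h) = ev ν fun h => ev μ fun g => φ g h := by
  simp only [ev, mul_sum]
  rw [sum_comm]
  simp only [mul_left_comm]

lemma conv_assoc (μ ν ρ : G → ℝ) : conv (conv μ ν) ρ = conv μ (conv ν ρ) :=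
  ev_ext fun φ => by simp only [ev_conv, mul_assoc]

lemma star_conv (μ ν : G → ℝ) : star (conv μ ν) = conv (star ν) (star μ) :=
  ev_ext fun φ => by
    simp only [ev_conv, ev_star, _root_.mul_inv_rev]
    exact ev_comm _ _ _

omit [Fintype G] in
lemma star_star (μ : G → ℝ) : star (star μ) = μ := by funext g; simp [star]

lemma Pr.conv {μ ν : G → ℝ} (h : Pr μ) (h' : Pr ν) : Pr (conv μ ν) := by
  refine ⟨fun g => sum_nonneg fun _ _ => mul_nonneg (h.1 _) (h'.1 _), ?_⟩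
  have := ev_conv μ ν fun _ => 1
  simpa [ev, h.2, h'.2] using this

lemma Pr.star {μ : G → ℝ} (h : Pr μ) : Pr (star μ) := by
  refine ⟨fun g => h.1 _, ?_⟩
  have := ev_star μ fun _ => 1
  simpa [ev, h.2] using this

/-- the law of a random element -/
noncomputable def law {Ω : Type*} [Fintype Ω] (F : Ω → G) : G → ℝ := fun g => 𝔼 ω, ind (F ω = g)

omit [Group G] in
lemma ev_law {Ω : Type*} [Fintype Ω] (F : Ω → G) (φ : G → ℝ) :
    ev (law F) φ = 𝔼 ω, φ (F ω) := by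
  simp only [ev, law, expect_mul]
  rw [← expect_sum_comm]
  exact expect_congr rfl fun ω _ => sum_ind_eq _ _

omit [Group G] in
lemma law_Pr {Ω : Type*} [Fintype Ω] [Nonempty Ω] (F : Ω → G) : Pr (law F) := by
  refine ⟨fun g => expect_nonneg fun _ _ => ind_nonneg _, ?_⟩
  have := ev_law F fun _ => 1
  simpa [ev] using this

/-- the kernel of a law acting on a set -/
noncomputable def mat (Y : Type*) [MulAction G Y] (μ : G → ℝ) : Matrix Y Y ℝ :=
  fun y y' => ev μ fun g => ind (g • y' = y)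

variable {Y : Type*} [MulAction G Y]

lemma mat_star (μ : G → ℝ) : (mat Y μ)ᵀ = mat Y (star μ) := by
  ext y y'
  simp only [transpose_apply, mat, ev_star, inv_smul_eq_iff, @eq_comm _ y']

lemma mat_nonneg {μ : G → ℝ} (h : ∀ g, 0 ≤ μ g) (y y' : Y) : 0 ≤ mat Y μ y y' :=
  sum_nonneg fun _ _ => mul_nonneg (h _) (ind_nonneg _)

variable [Fintype Y]

lemma mat_mulVec (μ : G → ℝ) (v : Y → ℝ) (y : Y) :
    (mat Y μ *ᵥ v) y = ev μ fun g => v (g⁻¹ • y) := by
  simp only [mulVec, dotProduct, mat, ev, sum_mul]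
  rw [sum_comm]
  refine sum_congr rfl fun g _ => ?_
  simp only [mul_assoc, ← mul_sum, ← eq_inv_smul_iff, sum_ind_eq']

lemma mat_conv (μ ν : G → ℝ) : mat Y (conv μ ν) = mat Y μ * mat Y ν := by
  ext y y'
  have := mat_mulVec μ (fun z => mat Y ν z y') y
  refine Eq.trans ?_ this.symm
  simp only [mat, ev_conv, mul_smul, eq_inv_smul_iff]

lemma mat_self (μ v : G → ℝ) : mat G μ *ᵥ v = conv μ v := by
  funext g; rw [mat_mulVec]; rfl

lemma conv_contr {μ : G → ℝ} (h : Pr μ) (v : G → ℝ) : conv μ v ⬝ᵥ conv μ v ≤ v ⬝ᵥ v := by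
  have h1 : ∀ g, conv μ v g * conv μ v g ≤ ∑ h, μ h * (v (h⁻¹ * g) * v (h⁻¹ * g)) := by
    intro g
    have := sum_sq_le_sum_mul_sum_of_sq_le_mul univ (r := fun h => μ h * v (h⁻¹ * g))
      (f := μ) (g := fun h => μ h * (v (h⁻¹ * g) * v (h⁻¹ * g))) (fun i _ => h.1 i)
      (fun i _ => mul_nonneg (h.1 i) (mul_self_nonneg _)) (fun i _ => le_of_eq (by ring))
    rw [h.2, one_mul, sq] at this
    exact this
  refine (sum_le_sum fun g _ => h1 g).trans (le_of_eq ?_)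
  rw [sum_comm]
  have : ∀ h : G, ∑ g, v (h⁻¹ * g) * v (h⁻¹ * g) = v ⬝ᵥ v := fun h =>
    Equiv.sum_comp (Equiv.mulLeft h⁻¹) (fun g => v g * v g)
  simp only [← mul_sum, this, ← sum_mul, h.2, one_mul]

variable [DecidableEq G]

lemma ev_cpow_zero (μ φ : G → ℝ) : ev (cpow μ 0) φ = φ 1 := by simp [ev, cpow]

lemma conv_cpow_zero (μ ν : G → ℝ) : conv ν (cpow μ 0) = ν :=
  ev_ext fun φ => by simp only [ev_conv, ev_cpow_zero, mul_one]

lemma cpow_zero_conv (μ ν : G → ℝ) : conv (cpow μ 0) ν = ν :=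
  ev_ext fun φ => by simp only [ev_conv, ev_cpow_zero, one_mul]

lemma cpow_add (μ : G → ℝ) (a : ℕ) : ∀ b, cpow μ (a + b) = conv (cpow μ a) (cpow μ b)
  | 0 => (conv_cpow_zero _ _).symm
  | b+1 => by rw [← add_assoc, cpow, cpow_add μ a b, conv_assoc]; rfl

lemma cpow_one (μ : G → ℝ) : cpow μ 1 = μ := cpow_zero_conv _ _

lemma cpow_mul (μ : G → ℝ) (a : ℕ) : ∀ b, cpow μ (a * b) = cpow (cpow μ a) b
  | 0 => rfl
  | b+1 => by rw [Nat.mul_succ, cpow_add, cpow_mul μ a b]; rfl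

lemma Pr.cpow {μ : G → ℝ} (h : Pr μ) : ∀ t, Pr (cpow μ t)
  | 0 => ⟨fun g => by simp only [Vale.Agent.P162.cpow]; split_ifs <;> norm_num,
      by simp [Vale.Agent.P162.cpow]⟩
  | t+1 => (h.cpow t).conv h

lemma mat_cpow [DecidableEq Y] (μ : G → ℝ) : ∀ t, mat Y (cpow μ t) = mat Y μ ^ t
  | 0 => by
    ext y y'
    rw [mat, ev_cpow_zero, one_smul, pow_zero, Matrix.one_apply, ind_eq_ite]
    simp only [eq_comm]
  | t+1 => by rw [cpow, mat_conv, mat_cpow μ t, pow_succ]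

lemma star_cpow {μ : G → ℝ} (h : star μ = μ) : ∀ t, star (cpow μ t) = cpow μ t
  | 0 => by funext g; simp [star, cpow]
  | t+1 => by
    rw [cpow, star_conv, star_cpow h t, h]
    nth_rewrite 1 [← cpow_one μ]
    rw [← cpow_add, add_comm]; rfl

lemma cpow_shift (μ ν : G → ℝ) : ∀ t,
    conv μ (conv (cpow (conv ν μ) t) ν) = cpow (conv μ ν) (t + 1)
  | 0 => by rw [cpow_zero_conv, zero_add, cpow_one]
  | t+1 => by
    rw [cpow, cpow, ← cpow_shift μ ν t]
    simp only [conv_assoc]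

end group

section blocks
variable {Y : Type} [Fintype Y] [DecidableEq Y]

/-- law of a block sum of two independent copies -/
noncomputable def bs (μ : Perm Y → ℝ) : Perm (Y × Bool) → ℝ :=
  fun g => ev μ fun g₀ => ev μ fun g₁ => ind (bsum (fun b => cond b g₁ g₀) = g)

lemma ev_bs (μ : Perm Y → ℝ) (φ : Perm (Y × Bool) → ℝ) :
    ev (bs μ) φ = ev μ fun g₀ => ev μ fun g₁ => φ (bsum fun b => cond b g₁ g₀) := by
  simp only [ev, bs, sum_mul, mul_sum]
  rw [sum_comm]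
  refine sum_congr rfl fun g₀ _ => ?_
  rw [sum_comm]
  refine sum_congr rfl fun g₁ _ => ?_
  simp only [mul_assoc, ← mul_sum, sum_ind_eq]

lemma bs_conv (μ ν : Perm Y → ℝ) : bs (conv μ ν) = conv (bs μ) (bs ν) :=
  ev_ext fun φ => by
    simp only [ev_conv, ev_bs, bsum_mul]
    congr 1; funext g₀
    rw [ev_comm]
    congr 1; funext g₁; congr 1; funext h₀; congr 1; funext h₁; congr 2; funext b
    cases b <;> rfl

lemma bs_star (μ : Perm Y → ℝ) : bs (star μ) = star (bs μ) :=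
  ev_ext fun φ => by
    simp only [ev_star, ev_bs, bsum_inv]
    congr 1; funext g₀; congr 1; funext g₁; congr 2; funext b
    cases b <;> rfl

lemma bs_one (μ : Perm Y → ℝ) (ν : Perm (Y × Bool) → ℝ) : bs (cpow μ 0) = cpow ν 0 :=
  ev_ext fun φ => by
    simp only [ev_bs, ev_cpow_zero, Bool.cond_self, bsum_one]

lemma Pr.bs {μ : Perm Y → ℝ} (h : Pr μ) : Pr (bs μ) := by
  refine ⟨fun g => sum_nonneg fun _ _ => mul_nonneg (h.1 _) (sum_nonneg fun _ _ =>
    mul_nonneg (h.1 _) (ind_nonneg _)), ?_⟩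
  have := ev_bs μ fun _ => 1
  simpa [ev, h.2] using this

end blocks

/-- the law of the butterfly network -/
noncomputable def nu (l : ℕ) : Perm (Q l) → ℝ := law (bf l)

/-- the law of a layer -/
noncomputable def lawLay (Y : Type) [Fintype Y] [DecidableEq Y] : Perm (Y × Bool) → ℝ :=
  law (lay : (Y → Bool) → _)

lemma nu_Pr (l : ℕ) : Pr (nu l) := law_Pr _

lemma nu_succ (l : ℕ) : nu (l + 1) = conv (bs (nu l)) (lawLay (Q l)) :=
  ev_ext fun φ => by
    refine (ev_law _ _).trans ?_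
    refine Eq.trans ?_ (ev_conv (bs (nu l)) (lawLay (Q l)) φ).symm
    simp only [ev_bs, nu, lawLay, ev_law]
    rw [E_split, expect_comm, E_bool2]
    refine expect_congr rfl fun x _ => expect_congr rfl fun y _ => expect_congr rfl fun a _ => ?_
    congr 1
    show bsum _ * lay a = _
    congr 2
    funext b; cases b <;> rfl

variable {s : ℕ}

/-- block laws -/
noncomputable def Bl (μ : Perm (Q s) → ℝ) : ∀ j, Perm (Q (s + j)) → ℝ
  | 0 => μ
  | j+1 => bs (Bl μ j)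

/-- law of the outer layers -/
noncomputable def outL (s : ℕ) : ∀ j, Perm (Q (s + j)) → ℝ
  | 0 => cpow (nu s) 0
  | j+1 => conv (G := Perm (Q (s + j) × Bool)) (bs (outL s j)) (lawLay (Q (s + j)))

lemma outL_Pr : ∀ j, Pr (outL s j)
  | 0 => (nu_Pr s).cpow 0
  | j+1 => (outL_Pr j).bs.conv (law_Pr _)

lemma Bl_conv (μ ν : Perm (Q s) → ℝ) : ∀ j, Bl (conv μ ν) j = conv (Bl μ j) (Bl ν j)
  | 0 => rfl
  | j+1 => by
    have := bs_conv (Bl μ j) (Bl ν j)
    rw [← Bl_conv μ ν j] at this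
    exact this

lemma Bl_star (μ : Perm (Q s) → ℝ) : ∀ j, Bl (star μ) j = star (Bl μ j)
  | 0 => rfl
  | j+1 => by
    have := bs_star (Bl μ j)
    rw [← Bl_star μ j] at this
    exact this

lemma Bl_one (μ : Perm (Q s) → ℝ) : ∀ j ν, Bl (cpow μ 0) j = cpow ν 0
  | 0, _ => rfl
  | j+1, ν => by
    have := bs_one (Bl μ j) ν
    rw [← Bl_one μ j (Bl μ j)] at this
    exact this

lemma Bl_cpow (μ : Perm (Q s) → ℝ) (j : ℕ) : ∀ t, Bl (cpow μ t) j = cpow (Bl μ j) t
  | 0 => Bl_one μ j _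
  | t+1 => by rw [cpow, Bl_conv, Bl_cpow μ j t]; rfl

lemma nu_split : ∀ j, nu (s + j) = conv (Bl (nu s) j) (outL s j)
  | 0 => (conv_cpow_zero _ _).symm
  | j+1 => by
    have := nu_succ (s + j)
    rw [nu_split j, bs_conv, conv_assoc] at this
    exact this

lemma ev_Bl (κ : Perm (Q s) → ℝ) : ∀ j φ, ev (Bl κ j) φ = ∑ ξ, Wt κ j ξ * φ (blk s j ξ)
  | 0, _ => rfl
  | j+1, φ => by
    refine (ev_bs (Bl κ j) φ).trans ?_
    refine Eq.trans ?_ (sum_bool2 (Ω := Xi s j) fun ξ => Wt κ (j + 1) ξ * φ (blk s (j + 1) ξ)).symm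
    simp only [ev_Bl κ j, mul_sum, Wt, cond_true, cond_false, mul_assoc]
    refine sum_congr rfl fun x _ => sum_congr rfl fun y _ => ?_
    congr 3
    show bsum _ = bsum _
    congr 1
    funext b; cases b <;> rfl

/-- law of the two-sided network -/
noncomputable def ben (κ : Perm (Q s) → ℝ) (j : ℕ) : Perm (Q (s + j)) → ℝ :=
  conv (star (nu (s + j))) (conv (Bl κ j) (nu (s + j)))

lemma ev_ben (κ : Perm (Q s) → ℝ) (j : ℕ) (φ : Perm (Q (s + j)) → ℝ) :
    ev (ben κ j) φ = EX κ j fun σ => φ (gS σ) := by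
  simp only [ben, ev_conv, ev_star]
  rw [ev_comm, ev_Bl]
  simp only [nu, ev_law, EX, E_prod, gS, gg, mul_assoc]

end Vale.Agent.P162
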