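import Vale.Agent.P162.Law1

/-! Juntas on the symmetric group. -/

namespace Vale.Agent.P162
open Finset Equiv Matrix
open scoped BigOperators

section gen
variable {G : Type} [Group G] [Fintype G]

/-- right translation -/
def Rt (h : G) : (G → ℝ) →ₗ[ℝ] (G → ℝ) where
  toFun v := fun g => v (g * h)
  map_add' _ _ := rfl
  map_smul' _ _ := rfl

omit [Fintype G] in
lemma Rt_apply (h : G) (v : G → ℝ) (g : G) : Rt h v g = v (g * h) := rfl

omit [Fintype G] in
lemma Rt_Rt (h h' : G) (v : G → ℝ) : Rt h (Rt h' v) = Rt (h * h') v := by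
  funext g; simp only [Rt_apply, mul_assoc]

omit [Fintype G] in
lemma Rt_one (v : G → ℝ) : Rt 1 v = v := by funext g; simp [Rt_apply]

lemma Rt_dot (h : G) (v w : G → ℝ) : Rt h v ⬝ᵥ w = v ⬝ᵥ Rt h⁻¹ w := by
  simp only [dotProduct, Rt_apply]
  rw [← Equiv.sum_comp (Equiv.mulRight h⁻¹)]
  simp

lemma Rt_dot_Rt (h : G) (v w : G → ℝ) : Rt h v ⬝ᵥ Rt h w = v ⬝ᵥ w := by
  rw [Rt_dot, Rt_Rt, inv_mul_cancel, Rt_one]

/-- convolution operator -/
noncomputable def cv (μ : G → ℝ) : (G → ℝ) →ₗ[ℝ] (G → ℝ) := (mat G μ).mulVecLin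

lemma cv_apply (μ v : G → ℝ) : cv μ v = conv μ v := mat_self μ v

lemma cv_Rt (μ : G → ℝ) (h : G) (v : G → ℝ) : cv μ (Rt h v) = Rt h (cv μ v) := by
  funext g; simp only [cv_apply, conv, Rt_apply, mul_assoc]

lemma cv_dot (μ v w : G → ℝ) : cv μ v ⬝ᵥ w = v ⬝ᵥ cv (star μ) w := by
  simp only [cv, mulVecLin_apply, ← mat_star]
  rw [dotProduct_mulVec, vecMul_transpose]

lemma cv_cv (μ ν v : G → ℝ) : cv μ (cv ν v) = cv (conv μ ν) v := by
  simp only [cv_apply, conv_assoc]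

/-- orthogonal complement -/
def perp (U : Submodule ℝ (G → ℝ)) : Submodule ℝ (G → ℝ) where
  carrier := {v | ∀ u ∈ U, v ⬝ᵥ u = 0}
  add_mem' ha hb u hu := by rw [add_dotProduct, ha u hu, hb u hu, add_zero]
  zero_mem' u _ := zero_dotProduct u
  smul_mem' c v hv u hu := by rw [smul_dotProduct, hv u hu, smul_zero]

omit [Group G] in
lemma mem_perp {U : Submodule ℝ (G → ℝ)} {v : G → ℝ} : v ∈ perp U ↔ ∀ u ∈ U, v ⬝ᵥ u = 0 :=
  Iff.rfl

omit [Group G] in
lemma pyth {U : Submodule ℝ (G → ℝ)} {a b : G → ℝ} (ha : a ∈ U) (hb : b ∈ perp U) :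
    (a + b) ⬝ᵥ (a + b) = a ⬝ᵥ a + b ⬝ᵥ b := by
  simp only [add_dotProduct, dotProduct_add, dotProduct_comm a b, hb a ha]; ring

lemma cv_pow_bound [DecidableEq G] (μ : G → ℝ) (W : Submodule ℝ (G → ℝ))
    (hW : ∀ v ∈ W, cv μ v ∈ W) {r : ℝ} (hr : 0 ≤ r)
    (h : ∀ v ∈ W, cv μ v ⬝ᵥ cv μ v ≤ r * (v ⬝ᵥ v)) : ∀ (t : ℕ), ∀ v ∈ W,
    cv (cpow μ t) v ⬝ᵥ cv (cpow μ t) v ≤ r ^ t * (v ⬝ᵥ v)
  | 0, v, _ => by rw [cv_apply, cpow_zero_conv]; simp
  | t+1, v, hv => by
    rw [cpow, ← cv_cv, pow_succ, mul_assoc]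
    exact (cv_pow_bound μ W hW hr h t _ (hW v hv)).trans
      (mul_le_mul_of_nonneg_left (h v hv) (pow_nonneg hr _))

end gen

variable {X : Type} [Fintype X] [DecidableEq X]

/-- pointwise stabiliser -/
def Fx (S : Finset X) : Finset (Perm X) := univ.filter fun h => ∀ x ∈ S, h x = x

lemma mem_Fx {S : Finset X} {h : Perm X} : h ∈ Fx S ↔ ∀ x ∈ S, h x = x := by simp [Fx]

lemma one_mem_Fx (S : Finset X) : (1 : Perm X) ∈ Fx S := mem_Fx.2 fun _ _ => rfl

lemma mul_mem_Fx {S : Finset X} {h h' : Perm X} (a : h ∈ Fx S) (b : h' ∈ Fx S) :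
    h * h' ∈ Fx S :=
  mem_Fx.2 fun x hx => by rw [Perm.mul_apply, mem_Fx.1 b x hx, mem_Fx.1 a x hx]

lemma inv_mem_Fx {S : Finset X} {h : Perm X} (a : h ∈ Fx S) : h⁻¹ ∈ Fx S :=
  mem_Fx.2 fun x hx => by rw [Perm.inv_eq_iff_eq, mem_Fx.1 a x hx]

/-- functions of the images of the points of `S` -/
def VS (S : Finset X) : Submodule ℝ (Perm X → ℝ) where
  carrier := {v | ∀ h ∈ Fx S, Rt h v = v}
  add_mem' ha hb h hh := by rw [map_add, ha h hh, hb h hh]
  zero_mem' h _ := map_zero _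
  smul_mem' c v hv h hh := by rw [map_smul, hv h hh]

lemma mem_VS {S : Finset X} {v : Perm X → ℝ} : v ∈ VS S ↔ ∀ h ∈ Fx S, Rt h v = v := Iff.rfl

/-- projection on juntas -/
noncomputable def PS (S : Finset X) : (Perm X → ℝ) →ₗ[ℝ] (Perm X → ℝ) :=
  ((Fx S).card : ℝ)⁻¹ • ∑ h ∈ Fx S, Rt h

lemma PS_apply (S : Finset X) (v : Perm X → ℝ) :
    PS S v = ((Fx S).card : ℝ)⁻¹ • ∑ h ∈ Fx S, Rt h v := by
  simp [PS, LinearMap.sum_apply]

lemma Fx_card_pos (S : Finset X) : (0:ℝ) < (Fx S).card := by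
  exact_mod_cast card_pos.2 ⟨1, one_mem_Fx S⟩

lemma PS_of_mem {S : Finset X} {v : Perm X → ℝ} (hv : v ∈ VS S) : PS S v = v := by
  rw [PS_apply, sum_congr rfl hv, sum_const, ← Nat.cast_smul_eq_nsmul ℝ, smul_smul,
    inv_mul_cancel₀ (Fx_card_pos S).ne', one_smul]

lemma PS_mem (S : Finset X) (v : Perm X → ℝ) : PS S v ∈ VS S := by
  intro h hh
  rw [PS_apply, map_smul, map_sum]
  congr 1
  simp only [Rt_Rt]
  exact sum_nbij' (fun f => h * f) (fun f => h⁻¹ * f) (fun f hf => mul_mem_Fx hh hf)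
    (fun f hf => mul_mem_Fx (inv_mem_Fx hh) hf) (by simp) (by simp) (fun _ _ => rfl)

lemma PS_dot (S : Finset X) (v w : Perm X → ℝ) : PS S v ⬝ᵥ w = v ⬝ᵥ PS S w := by
  simp only [PS_apply, smul_dotProduct, dotProduct_smul, sum_dotProduct, dotProduct_sum, Rt_dot]
  congr 1
  exact sum_nbij' (fun f => f⁻¹) (fun f => f⁻¹) (fun f hf => inv_mem_Fx hf)
    (fun f hf => inv_mem_Fx hf) (by simp) (by simp) (fun _ _ => rfl)

lemma PS_PS (S : Finset X) (v : Perm X → ℝ) : PS S (PS S v) = PS S v := PS_of_mem (PS_mem S v)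

lemma cv_PS (μ : Perm X → ℝ) (S : Finset X) (v : Perm X → ℝ) :
    cv μ (PS S v) = PS S (cv μ v) := by
  simp only [PS_apply, map_smul, map_sum, cv_Rt]

lemma Rt_PS (h : Perm X) (S : Finset X) (v : Perm X → ℝ) :
    Rt h (PS S v) = PS (S.map h.toEmbedding) (Rt h v) := by
  have a1 : ∀ f ∈ Fx S, h * f * h⁻¹ ∈ Fx (S.map h.toEmbedding) := fun f hf =>
    mem_Fx.2 fun x hx => by
      obtain ⟨y, hy, rfl⟩ := mem_map.1 hx
      simp [mem_Fx.1 hf y hy]
  have a2 : ∀ f ∈ Fx (S.map h.toEmbedding), h⁻¹ * f * h ∈ Fx S := fun f hf =>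
    mem_Fx.2 fun x hx => by
      have := mem_Fx.1 hf (h x) (mem_map_of_mem _ hx)
      simp [this]
  have hc : (Fx S).card = (Fx (S.map h.toEmbedding)).card :=
    card_nbij' (fun f => h * f * h⁻¹) (fun f => h⁻¹ * f * h) a1 a2
      (fun _ _ => by simp [mul_assoc]) (fun _ _ => by simp [mul_assoc])
  rw [PS_apply, PS_apply, map_smul, map_sum, hc]
  congr 1
  simp only [Rt_Rt]
  exact sum_nbij' (fun f => h * f * h⁻¹) (fun f => h⁻¹ * f * h) a1 a2
    (fun _ _ => by simp [mul_assoc]) (fun _ _ => by simp [mul_assoc]) (fun _ _ => by simp)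

variable (X) in
/-- sums of juntas -/
def UU (k : ℕ) : Submodule ℝ (Perm X → ℝ) := ⨆ S : {S : Finset X // S.card = k}, VS S.1

lemma VS_le_UU (S : Finset X) : VS S ≤ UU X S.card :=
  le_iSup (fun S' : {S' : Finset X // S'.card = S.card} => VS S'.1) ⟨S, rfl⟩

lemma UU_ind {k : ℕ} {M : Type*} [AddCommGroup M] [Module ℝ M] (f : (Perm X → ℝ) →ₗ[ℝ] M)
    (W : Submodule ℝ M) (h : ∀ S : Finset X, S.card = k → ∀ v ∈ VS S, f v ∈ W) :
    ∀ v ∈ UU X k, f v ∈ W :=
  show UU X k ≤ W.comap f from iSup_le fun S => h S.1 S.2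

lemma VS_mono {S S' : Finset X} (h : S ⊆ S') : VS S ≤ VS S' :=
  fun _ hv f hf => hv f (mem_Fx.2 fun x hx => mem_Fx.1 hf x (h hx))

lemma UU_mono {k k' : ℕ} (h : k ≤ k') (h' : k' ≤ Fintype.card X) : UU X k ≤ UU X k' := by
  refine iSup_le fun S => ?_
  obtain ⟨S', h1, h2⟩ := exists_superset_card_eq (s := S.1) (S.2.le.trans h) h'
  exact (VS_mono h1).trans (h2 ▸ VS_le_UU S')

lemma cv_VS (μ : Perm X → ℝ) {S : Finset X} {v} (hv : v ∈ VS S) : cv μ v ∈ VS S :=
  fun h hh => by rw [← cv_Rt, hv h hh]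

lemma cv_UU (μ : Perm X → ℝ) {k : ℕ} : ∀ v ∈ UU X k, cv μ v ∈ UU X k :=
  UU_ind _ _ fun S hS _ hv => hS ▸ VS_le_UU S (cv_VS μ hv)

lemma cv_perp (μ : Perm X → ℝ) {k : ℕ} : ∀ v ∈ perp (UU X k), cv μ v ∈ perp (UU X k) :=
  fun v hv u hu => by rw [cv_dot]; exact hv _ (cv_UU _ u hu)

lemma Rt_UU (h : Perm X) {k : ℕ} : ∀ v ∈ UU X k, Rt h v ∈ UU X k :=
  UU_ind _ _ fun S hS v hv => by
    rw [← PS_of_mem hv, Rt_PS, ← hS, ← card_map h.toEmbedding]
    exact VS_le_UU _ (PS_mem _ _)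

lemma Rt_perp (h : Perm X) {k : ℕ} : ∀ v ∈ perp (UU X k), Rt h v ∈ perp (UU X k) :=
  fun v hv u hu => by rw [Rt_dot]; exact hv _ (Rt_UU _ u hu)

lemma PS_perp (S : Finset X) {k : ℕ} {v} (hv : v ∈ perp (UU X k)) : PS S v ∈ perp (UU X k) := by
  rw [PS_apply]
  exact Submodule.smul_mem _ _ (Submodule.sum_mem _ fun h _ => Rt_perp h v hv)

lemma perp_of_PS {k : ℕ} {v : Perm X → ℝ} (h : ∀ S : Finset X, S.card = k → PS S v = 0) :
    v ∈ perp (UU X k) := by
  have := UU_ind (k := k) (dotProductBilin ℝ ℝ v) ⊥ fun S hS u hu => by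
    rw [Submodule.mem_bot, ← PS_of_mem hu]
    show v ⬝ᵥ _ = 0
    rw [← PS_dot, h S hS, zero_dotProduct]
  exact this

lemma PS_eq_zero {S : Finset X} {v : Perm X → ℝ} (hv : v ∈ perp (UU X S.card)) : PS S v = 0 := by
  rw [← dotProduct_self_eq_zero, PS_dot, PS_PS]
  exact hv _ (VS_le_UU S (PS_mem S v))

lemma frame_UU (k : ℕ) : ∀ v ∈ UU X k,
    v ⬝ᵥ v ≤ ∑ S ∈ powersetCard k univ, PS S v ⬝ᵥ PS S v := by
  refine frame _ PS PS_dot PS_PS ?_ _ ?_ ?_
  · intro S _ v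
    have : ∀ h w, Rt h (∑ j ∈ powersetCard k univ, PS j w) =
        ∑ j ∈ powersetCard k (univ : Finset X), PS j (Rt h w) := by
      intro h w
      rw [map_sum]
      simp only [Rt_PS]
      refine sum_nbij' (fun S => S.map h.toEmbedding) (fun S => S.map h⁻¹.toEmbedding)
        (fun S hS => ?_) (fun S hS => ?_) (fun S _ => ?_) (fun S _ => ?_) (fun _ _ => rfl)
      · simpa using hS
      · simpa using hS
      · ext x; simp [Perm.inv_def]
      · ext x; simp [Perm.inv_def]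
    rw [PS_apply S]
    simp only [this, PS_apply S, map_smul, map_sum]
    rw [sum_comm, smul_sum]
  · intro S hS v
    rw [← (mem_powersetCard.1 hS).2]
    exact VS_le_UU S (PS_mem S v)
  · intro v hv h
    exact dotProduct_self_eq_zero.1
      (perp_of_PS (fun S hS => h S (mem_powersetCard.2 ⟨subset_univ _, hS⟩)) v hv)

lemma layer_bound (μ : Perm X → ℝ) (k : ℕ) {r : ℝ}
    (h : ∀ S : Finset X, S.card = k + 1 → ∀ v ∈ VS S, v ∈ perp (UU X k) →
      cv μ v ⬝ᵥ cv μ v ≤ r * (v ⬝ᵥ v)) :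
    ∀ v ∈ UU X (k + 1) ⊓ perp (UU X k), cv μ v ⬝ᵥ cv μ v ≤ r * (v ⬝ᵥ v) := by
  have := eig_bound (cv (conv (star μ) μ)) (fun v w => by rw [cv_dot, star_conv, star_star])
    (UU X (k + 1) ⊓ perp (UU X k)) (fun v hv => ⟨cv_UU _ v hv.1, cv_perp _ v hv.2⟩) r (by
      intro c v hv hv0 hc
      obtain ⟨S, hS, hne⟩ : ∃ S : Finset X, S.card = k + 1 ∧ PS S v ≠ 0 := by
        by_contra hcon
        push Not at hcon
        exact hv0 (dotProduct_self_eq_zero.1 (perp_of_PS hcon v hv.1))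
      have h1 := h S hS _ (PS_mem S v) (PS_perp S hv.2)
      rw [cv_dot, dotProduct_comm, cv_cv, cv_PS, hc, map_smul, smul_dotProduct, smul_eq_mul] at h1
      have h2 : 0 < PS S v ⬝ᵥ PS S v :=
        lt_of_le_of_ne (dot_self_nonneg _) fun e => hne (dotProduct_self_eq_zero.1 e.symm)
      exact le_of_mul_le_mul_right h1 h2)
  intro v hv
  have := this v hv
  rwa [← cv_cv, ← cv_dot] at this

lemma norm_push {Y : Type*} [Fintype Y] [MulAction (Perm X) Y] (e : Y) (S : Finset X)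
    (hS : ∀ h : Perm X, h • e = e ↔ h ∈ Fx S) (v : Perm X → ℝ) :
    (Fx S).card * (v ⬝ᵥ PS S v) = ∑ y, mat Y v y e ^ 2 := by
  have h1 : ∀ g, ∑ h ∈ Fx S, Rt h v g = mat Y v (g • e) e := by
    intro g
    rw [mat, ev, ← Equiv.sum_comp (Equiv.mulLeft g), Fx, sum_filter]
    refine sum_congr rfl fun h _ => ?_
    simp only [coe_mulLeft, mul_smul, smul_left_cancel_iff, hS, mem_Fx, Rt_apply, ind_eq_ite]
    split_ifs <;> simp
  rw [PS_apply, dotProduct_smul, smul_eq_mul, ← mul_assoc, mul_inv_cancel₀ (Fx_card_pos S).ne',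
    one_mul]
  simp only [dotProduct, Finset.sum_apply, h1, sq]
  have h2 : ∀ y, mat Y v y e * mat Y v y e = ∑ g, v g * (ind (g • e = y) * mat Y v y e) := by
    intro y
    nth_rewrite 1 [mat]
    simp only [ev, sum_mul, mul_assoc]
  simp only [h2]
  rw [sum_comm]
  refine sum_congr rfl fun g _ => ?_
  rw [← mul_sum, sum_ind_eq (g • e) (fun y => mat Y v y e)]

lemma card_le_Fx {Y : Type*} [Fintype Y] [MulAction (Perm X) Y] (e : Y) (S : Finset X)
    (hS : ∀ h : Perm X, h • e = e ↔ h ∈ Fx S) :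
    Fintype.card (Perm X) ≤ (Fx S).card * Fintype.card Y := by
  classical
  refine (card_le_mul_card_image (f := fun g : Perm X => g • e) univ (Fx S).card ?_).trans
    (Nat.mul_le_mul_left _ (card_le_univ _))
  intro y hy
  obtain ⟨g, _, rfl⟩ := mem_image.1 hy
  refine card_le_card_of_injOn (fun h => g⁻¹ * h) (fun h hh => ?_) (fun _ _ _ _ h => by simpa using h)
  have := (mem_filter.1 hh).2
  exact (hS _).1 (by rw [mul_smul, this, inv_smul_smul])

lemma emb_stab {ι : Type} [Fintype ι] (e : ι ↪ X) (h : Perm X) :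
    h • e = e ↔ h ∈ Fx (univ.map e) := by
  rw [mem_Fx]
  constructor
  · intro hh x hx
    obtain ⟨i, _, rfl⟩ := mem_map.1 hx
    exact DFunLike.congr_fun hh i
  · intro hh
    ext i
    exact hh _ (mem_map_of_mem _ (mem_univ i))

lemma HS_bound (k : ℕ) (u : Perm X → ℝ) :
    Fintype.card (Perm X) * ∑ S ∈ powersetCard k univ, PS S u ⬝ᵥ PS S u ≤
      (Fintype.card X).choose k * trace ((mat (Fin k ↪ X) u)ᵀ * mat (Fin k ↪ X) u) := by
  classical
  have h1 : ∀ e : Fin k ↪ X, Fintype.card (Perm X) * (PS (univ.map e) u ⬝ᵥ PS (univ.map e) u) ≤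
      Fintype.card (Fin k ↪ X) * ∑ y, mat (Fin k ↪ X) u y e ^ 2 := by
    intro e
    rw [← norm_push e _ (emb_stab e), ← mul_assoc, ← PS_PS _ u, ← PS_dot _ u, PS_PS]
    refine mul_le_mul_of_nonneg_right ?_ (dot_self_nonneg _)
    have := card_le_Fx e _ (emb_stab e)
    rw [mul_comm] at this
    exact_mod_cast this
  have h2 := sum_le_sum fun e (_ : e ∈ univ) => h1 e
  rw [← mul_sum, ← mul_sum] at h2
  have h3 : ∑ e : Fin k ↪ X, ∑ y, mat (Fin k ↪ X) u y e ^ 2 =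
      trace ((mat (Fin k ↪ X) u)ᵀ * mat (Fin k ↪ X) u) := by
    simp only [trace, diag_apply, Matrix.mul_apply, transpose_apply, sq]
  have h4 : (k.factorial : ℝ) * ∑ S ∈ powersetCard k univ, PS S u ⬝ᵥ PS S u ≤
      ∑ e : Fin k ↪ X, PS (univ.map e) u ⬝ᵥ PS (univ.map e) u := by
    rw [← sum_fiberwise_of_maps_to (s := univ) (t := powersetCard k univ)
      (g := fun e : Fin k ↪ X => univ.map e) (fun e _ => by simp), mul_sum]
    refine sum_le_sum fun S hS => ?_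
    rw [sum_congr rfl (g := fun _ => PS S u ⬝ᵥ PS S u) fun e he => by rw [(mem_filter.1 he).2],
      sum_const, nsmul_eq_mul]
    refine mul_le_mul_of_nonneg_right (Nat.cast_le.2 ?_) (dot_self_nonneg _)
    have hc : Fintype.card S = k := by simpa using hS
    have : k.factorial = Fintype.card (Fin k ↪ S) := by
      rw [Fintype.card_embedding_eq, hc, Fintype.card_fin, Nat.descFactorial_self]
    rw [this, ← card_univ]
    refine card_le_card_of_injOn (fun e => e.trans (Function.Embedding.subtype _))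
      (fun e _ => mem_filter.2 ⟨mem_univ _, ?_⟩) (fun e _ e' _ h => ?_)
    · refine eq_of_subset_of_card_le (fun x hx => ?_) (by simp [← hc])
      obtain ⟨i, _, rfl⟩ := mem_map.1 hx
      exact (e i).2
    · ext i
      exact DFunLike.congr_fun h i
  rw [h3, Fintype.card_embedding_eq, Nat.descFactorial_eq_factorial_mul_choose,
    Fintype.card_fin] at h2
  have h5 := (mul_le_mul_of_nonneg_left h4 (Nat.cast_nonneg (Fintype.card (Perm X)))).trans h2
  have h6 : (0:ℝ) < k.factorial := by exact_mod_cast k.factorial_pos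
  refine le_of_mul_le_mul_left ?_ h6
  push_cast at h5
  linarith

lemma low_link (l k : ℕ) (S : Finset (Q l)) (hS : S.card = k + 1) (v : Perm (Q l) → ℝ)
    (hv : v ∈ VS S) (hv' : v ∈ perp (UU (Q l) k)) {r : ℝ}
    (h : ∀ φ : (S → Q l) → ℝ, (∀ x, ¬ Function.Injective x → φ x = 0) →
      (∀ i x, ∑ z, φ (Function.update x i z) = 0) →
      ∑ y : S → Q l, (𝔼 ω, φ (fun i => (bf l ω)⁻¹ (y i))) ^ 2 ≤ r * ∑ x, φ x ^ 2) :
    cv (nu l) v ⬝ᵥ cv (nu l) v ≤ r * (v ⬝ᵥ v) := by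
  let e : S → Q l := Subtype.val
  have he : ∀ h : Perm (Q l), h • e = e ↔ h ∈ Fx S := by
    intro h
    rw [mem_Fx, funext_iff]
    exact ⟨fun hh x hx => hh ⟨x, hx⟩, fun hh i => hh i.1 i.2⟩
  have h1 := norm_push e S he v
  have h2 := norm_push e S he (cv (nu l) v)
  rw [PS_of_mem hv] at h1
  rw [PS_of_mem (cv_VS _ hv)] at h2
  refine le_of_mul_le_mul_left ?_ (Fx_card_pos S)
  rw [mul_left_comm, h1, h2]
  refine le_trans (le_of_eq (sum_congr rfl fun y _ => ?_)) (h (fun y => mat _ v y e) ?_ ?_)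
  · rw [cv_apply, mat_conv]
    congr 1
    exact (mat_mulVec (nu l) (fun y => mat _ v y e) y).trans (ev_law _ _)
  · intro x hx
    refine sum_eq_zero fun g _ => mul_eq_zero_of_right _ (ind_of_not fun hh => hx ?_)
    rw [← hh]
    exact g.injective.comp Subtype.val_injective
  · intro i x
    let u : Perm (Q l) → ℝ := fun g => ind (∀ j : S, j ≠ i → g j = x j)
    have hu : u ∈ UU (Q l) k := by
      have : (S.erase i).card = k := by rw [card_erase_of_mem i.2, hS]; rfl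
      rw [← this]
      refine VS_le_UU _ fun f hf => funext fun g => ind_congr (forall_congr' fun j =>
        imp_congr_right fun hj => ?_)
      rw [Perm.mul_apply, mem_Fx.1 hf j (mem_erase.2 ⟨fun e => hj (Subtype.ext e), j.2⟩)]
    rw [← hv' u hu]
    simp only [mat, ev, dotProduct]
    rw [sum_comm]
    refine sum_congr rfl fun g _ => ?_
    rw [← mul_sum]
    congr 1
    rw [← sum_ind_eq (g i) (fun _ => u g)]
    refine sum_congr rfl fun z _ => ?_
    rw [← ind_and]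
    refine ind_congr ⟨fun hh => ⟨?_, fun j hj => ?_⟩, fun hh => funext fun j => ?_⟩
    · simpa using congrFun hh i
    · simpa [Function.update_of_ne hj] using congrFun hh j
    · by_cases hj : j = i
      · subst hj; simpa using hh.1
      · simpa [Function.update_of_ne hj] using hh.2 j hj

theorem l2_decomp (μ : Perm X → ℝ) (hμ : Pr μ) (K : ℕ) (hK : K ≤ Fintype.card X)
    (r : ℕ → ℝ) (hr : ∀ k, 0 ≤ r k) {lam : ℝ} (hlam : 0 ≤ lam)
    (h1 : ∀ k < K, ∀ S : Finset X, S.card = k + 1 → ∀ v ∈ VS S, v ∈ perp (UU X k) →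
      cv μ v ⬝ᵥ cv μ v ≤ r (k + 1) * (v ⬝ᵥ v))
    (h2 : ∀ v ∈ perp (UU X K), cv μ v ⬝ᵥ cv μ v ≤ lam * (v ⬝ᵥ v)) (R m : ℕ) (H : ℕ → ℝ)
    (hH : ∀ k, trace ((mat (Fin k ↪ X) μ ^ m)ᵀ * mat (Fin k ↪ X) μ ^ m) ≤ H k) :
    Fintype.card (Perm X) * ∑ g, (cpow μ (R + m) g - 1 / Fintype.card (Perm X)) ^ 2 ≤
      ∑ k ∈ range K, r (k + 1) ^ R * ((Fintype.card X).choose (k + 1) * H (k + 1)) +
        lam ^ R * H (Fintype.card X) := by
  choose a ha hb using fun k => exists_proj (UU X k) (cpow μ 0)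
  have hu : ∀ t, cv (cpow μ t) (cpow μ 0) = cpow μ t := fun t => by rw [cv_apply, conv_cpow_zero]
  set N : ℝ := (Fintype.card (Perm X) : ℝ) with hN
  have hN0 : 0 < N := by rw [hN]; exact_mod_cast Fintype.card_pos
  have hHS : ∀ k, N * ∑ S ∈ powersetCard k univ, PS S (cpow μ m) ⬝ᵥ PS S (cpow μ m) ≤
      (Fintype.card X).choose k * H k := fun k => by
    refine (HS_bound k _).trans (mul_le_mul_of_nonneg_left ?_ (Nat.cast_nonneg _))
    rw [mat_cpow]; exact hH k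
  have tele : ∀ K' ≤ K, N * (cv (cpow μ (R + m)) (cpow μ 0 - a 0) ⬝ᵥ
      cv (cpow μ (R + m)) (cpow μ 0 - a 0)) ≤
      ∑ k ∈ range K', r (k + 1) ^ R * ((Fintype.card X).choose (k + 1) * H (k + 1)) +
      N * (cv (cpow μ (R + m)) (cpow μ 0 - a K') ⬝ᵥ cv (cpow μ (R + m)) (cpow μ 0 - a K')) := by
    intro K' hK'
    induction K' with
    | zero => simp
    | succ k ih =>
      refine (ih (by omega)).trans ?_
      have hm : UU X k ≤ UU X (k + 1) := UU_mono (Nat.le_succ k) (by omega)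
      have c1 : a (k + 1) - a k ∈ UU X (k + 1) := Submodule.sub_mem _ (ha _) (hm (ha _))
      have c2 : a (k + 1) - a k ∈ perp (UU X k) := by
        have : a (k + 1) - a k = (cpow μ 0 - a k) - (cpow μ 0 - a (k + 1)) := by abel
        rw [this]
        exact Submodule.sub_mem _ (hb k) fun u hu => hb (k + 1) u (hm hu)
      have e : cpow μ 0 - a k = (a (k + 1) - a k) + (cpow μ 0 - a (k + 1)) := by abel
      rw [sum_range_succ, add_assoc, e, map_add, pyth (cv_UU _ _ c1) (cv_perp _ _ (hb (k + 1))),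
        mul_add]
      refine add_le_add_right (add_le_add_left ?_ _) _
      have c3 := cv_pow_bound μ (UU X (k + 1) ⊓ perp (UU X k))
        (fun v hv => ⟨cv_UU _ v hv.1, cv_perp _ v hv.2⟩) (hr _)
        (layer_bound μ k (h1 k (by omega))) R (cv (cpow μ m) (a (k + 1) - a k))
        ⟨cv_UU _ _ c1, cv_perp _ _ c2⟩
      rw [cv_cv, ← cpow_add] at c3
      refine (mul_le_mul_of_nonneg_left c3 hN0.le).trans ?_
      rw [mul_left_comm]
      refine mul_le_mul_of_nonneg_left (le_trans (mul_le_mul_of_nonneg_left ?_ hN0.le)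
        (hHS (k + 1))) (pow_nonneg (hr _) _)
      have c4 := pyth (cv_UU (cpow μ m) _ (ha k)) (cv_perp (cpow μ m) _ c2)
      rw [← map_add, add_sub_cancel] at c4
      have c5 := frame_UU (k + 1) _ (cv_UU (cpow μ m) _ (ha (k + 1)))
      have c6 : ∀ S ∈ powersetCard (k + 1) univ,
          PS S (cv (cpow μ m) (a (k + 1))) = PS S (cpow μ m) := by
        intro S hS
        have := PS_eq_zero (S := S) (v := cv (cpow μ m) (cpow μ 0 - a (k + 1))) (by
          rw [(mem_powersetCard.1 hS).2]; exact cv_perp (cpow μ m) _ (hb (k + 1)))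
        rw [map_sub, map_sub, hu, sub_eq_zero] at this
        exact this.symm
      rw [sum_congr rfl fun S hS => by rw [c6 S hS]] at c5
      linarith [dot_self_nonneg (cv (cpow μ m) (a k))]
  refine le_trans (mul_le_mul_of_nonneg_left ?_ hN0.le) ((tele K le_rfl).trans ?_)
  · have hc : ∀ g, a 0 g = a 0 1 := by
      have := UU_ind (X := X) (k := 0) LinearMap.id (VS ∅) (fun S hS v hv => by
        rw [card_eq_zero.1 hS] at hv; exact hv) _ (ha 0)
      intro g
      simpa [Rt_apply] using congrFun (this g (mem_Fx.2 (by simp))) 1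
    have hs := (hμ.cpow (R + m)).2
    have e : ∀ g, cv (cpow μ (R + m)) (cpow μ 0 - a 0) g = cpow μ (R + m) g - a 0 1 := by
      intro g
      rw [map_sub, hu, Pi.sub_apply, cv_apply, conv]
      simp only [hc, ← sum_mul, hs, one_mul]
    simp only [dotProduct, e]
    have : ∀ g, (cpow μ (R + m) g - a 0 1) * (cpow μ (R + m) g - a 0 1) =
        (cpow μ (R + m) g - 1 / N) ^ 2 + (2 * (1 / N - a 0 1) * (cpow μ (R + m) g - 1 / N) +
          (1 / N - a 0 1) ^ 2) := fun g => by ring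
    simp only [this, sum_add_distrib, ← mul_sum, sum_sub_distrib, hs, sum_const, card_univ,
      nsmul_eq_mul, ← hN, mul_one_div_cancel hN0.ne', sub_self, mul_zero, zero_add]
    exact le_add_of_nonneg_right (by positivity)
  · refine add_le_add_right ?_ _
    have c3 := cv_pow_bound μ (perp (UU X K)) (cv_perp μ) hlam h2 R _
      (cv_perp (cpow μ m) _ (hb K))
    rw [cv_cv, ← cpow_add] at c3
    refine (mul_le_mul_of_nonneg_left c3 hN0.le).trans ?_
    rw [mul_left_comm]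
    refine mul_le_mul_of_nonneg_left ?_ (pow_nonneg hlam _)
    have c4 := pyth (cv_UU (cpow μ m) _ (ha K)) (cv_perp (cpow μ m) _ (hb K))
    rw [← map_add, add_sub_cancel, hu] at c4
    have c5 := hHS (Fintype.card X)
    rw [Nat.choose_self, Nat.cast_one, one_mul, ← card_univ, powersetCard_self, sum_singleton,
      PS_of_mem (fun h hh => by
        rw [show h = 1 from Perm.ext fun x => mem_Fx.1 hh x (mem_univ x), Rt_one])] at c5
    refine le_trans (mul_le_mul_of_nonneg_left ?_ hN0.le) c5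
    linarith [dot_self_nonneg (cv (cpow μ m) (a K))]

end Vale.Agent.P162
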