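import Vale.Agent.P162.Law1

/-! The Thorp shuffle and the butterfly network. -/

namespace Vale.Agent.P162
open Finset Equiv
open scoped BigOperators

/-- binary value -/
def val : ∀ l, Q l → ℕ
  | 0, _ => 0
  | l+1, x => x.2.toNat * 2 ^ l + val l x.1

lemma val_lt : ∀ l (x : Q l), val l x < 2 ^ l
  | 0, _ => Nat.one_pos
  | l+1, (u, b) => by
    have := val_lt l u
    simp only [val, pow_succ]
    cases b <;> simp <;> omega

lemma code_inj {K a b a' b' : ℕ} (hb : b < K) (hb' : b' < K) (h : a * K + b = a' * K + b') :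
    a = a' ∧ b = b' := by
  have h1 := congrArg (· / K) h
  have h2 := congrArg (· % K) h
  have hK : 0 < K := by omega
  simp only [mul_comm _ K, Nat.mul_add_div hK, Nat.div_eq_of_lt hb, Nat.div_eq_of_lt hb',
    Nat.mul_add_mod, Nat.mod_eq_of_lt hb, Nat.mod_eq_of_lt hb'] at h1 h2
  exact ⟨h1, h2⟩

lemma val_inj : ∀ l, Function.Injective (val l)
  | 0 => fun _ _ _ => rfl
  | l+1 => fun (u, b) (v, c) h => by
    obtain ⟨h1, h2⟩ := code_inj (val_lt l u) (val_lt l v) h
    rw [val_inj l h2, show b = c from by cases b <;> cases c <;> simp_all]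

lemma exists_code {α : Type} [Fintype α] {n : ℕ} (f : α → ℕ) (hf : Function.Injective f)
    (hlt : ∀ a, f a < n) (hc : Fintype.card α = n) : ∃ e : α ≃ Fin n, ∀ a, (e a : ℕ) = f a := by
  let g : α → Fin n := fun a => ⟨f a, hlt a⟩
  have hg : Function.Bijective g := (Fintype.bijective_iff_injective_and_card g).2
    ⟨fun a b h => hf (congrArg Fin.val h), by simp [hc]⟩
  exact ⟨Equiv.ofBijective g hg, fun _ => rfl⟩

/-- one shuffle in coordinates -/
def stepE {Y B : Type} (a : B → Y → Bool) : (Y × Bool) × B ≃ Y × (B × Bool) where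
  toFun p := (p.1.1, p.2, xor p.1.2 (a p.2 p.1.1))
  invFun p := ((p.1, xor p.2.2 (a p.2.1 p.1)), p.2.1)
  left_inv p := by simp
  right_inv p := by simp

lemma thorp_law {Y B : Type} [Fintype Y] [DecidableEq Y] [Fintype B] [DecidableEq B] {h : ℕ}
    (hc : Fintype.card B * Fintype.card Y = h) (c : Y → B → ℕ) (hlt : ∀ u β, c u β < h)
    (I : (Y × Bool) × B ≃ Fin (2 * h)) (I' : Y × (B × Bool) ≃ Fin (2 * h))
    (hI : ∀ u b β, (I ((u, b), β) : ℕ) = b.toNat * h + c u β)
    (hI' : ∀ u β b, (I' (u, β, b) : ℕ) = 2 * c u β + b.toNat) :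
    thorp (2 * h) = law fun a : B → Y → Bool => (I.symm.trans ((stepE a).trans I') : Perm _) := by
  funext σ
  have e2 : 2 * h / 2 = h := by omega
  have hmod : ∀ u b β, (I ((u, b), β) : ℕ) % h = c u β := by
    intro u b β
    rw [hI, mul_comm, Nat.mul_add_mod, Nat.mod_eq_of_lt (hlt u β)]
  have happ : ∀ (a : B → Y → Bool) u b β, ((I.symm.trans ((stepE a).trans I') : Perm _)
      (I ((u, b), β)) : ℕ) = 2 * c u β + (xor b (a β u)).toNat := by
    intro a u b β
    simp only [Equiv.trans_apply, Equiv.symm_apply_apply]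
    exact hI' _ _ _
  rw [thorp, e2, law]
  split_ifs with hσ
  · let a₀ : B → Y → Bool := fun β u => decide ((σ (I ((u, false), β)) : ℕ) % 2 = 1)
    have h0 : ∀ u b β, (σ (I ((u, b), β)) : ℕ) = 2 * c u β + (xor b (a₀ β u)).toNat := by
      intro u b β
      have a1 := hσ (I ((u, false), β))
      have a2 := hσ (I ((u, true), β))
      rw [hmod] at a1 a2
      have a3 : (σ (I ((u, false), β)) : ℕ) ≠ σ (I ((u, true), β)) := fun e => by
        simpa using I.injective (σ.injective (Fin.ext e))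
      by_cases a4 : (σ (I ((u, false), β)) : ℕ) % 2 = 1 <;> cases b <;> simp [a₀, a4] <;> omega
    have : ∀ a : B → Y → Bool, (I.symm.trans ((stepE a).trans I') : Perm _) = σ ↔ a = a₀ := by
      intro a
      constructor
      · intro e
        funext β u
        have := happ a u false β
        rw [e, h0] at this
        revert this
        cases a β u <;> cases a₀ β u <;> simp
      · rintro rfl
        ext x
        obtain ⟨⟨⟨u, b⟩, β⟩, rfl⟩ := I.surjective x
        rw [happ, h0]
    simp only [this]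
    rw [Fintype.expect_eq_sum_div_card]
    have := sum_ind_eq' a₀ (fun _ => 1)
    simp only [mul_one] at this
    rw [this]
    simp [← hc, ← pow_mul, mul_comm]
  · refine (expect_eq_zero fun a _ => ind_of_not fun e => hσ fun x => ?_).symm
    obtain ⟨⟨⟨u, b⟩, β⟩, rfl⟩ := I.surjective x
    rw [← e, happ, hmod]
    cases xor b (a β u) <;> simp <;> omega

lemma thorp_pow (n : ℕ) : ∀ (l m : ℕ) (B : Type) [Fintype B] [DecidableEq B] (vb : B → ℕ),
    n = 2 ^ (l + m) → Function.Injective vb → (∀ β, vb β < 2 ^ m) → Fintype.card B = 2 ^ m →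
    ∀ (I O : Q l × B ≃ Fin n), (∀ u β, (I (u, β) : ℕ) = val l u * 2 ^ m + vb β) →
    (∀ u β, (O (u, β) : ℕ) = vb β * 2 ^ l + val l u) → ∀ φ : Perm (Fin n) → ℝ,
    ev (cpow (thorp n) l) φ = 𝔼 ω : B → Sw l → Bool,
      φ (I.symm.trans ((Equiv.prodCongrLeft fun β => bf l (ω β)).trans O)) := by
  intro l
  induction l with
  | zero =>
    intro m B _ _ vb _ _ _ _ I O hI hO φ
    rw [ev_cpow_zero]
    refine (Fintype.expect_const _).symm.trans (expect_congr rfl fun ω _ => ?_)
    congr 1
    ext x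
    obtain ⟨⟨u, β⟩, rfl⟩ := I.surjective x
    simp only [Equiv.trans_apply, Equiv.symm_apply_apply, Equiv.prodCongrLeft_apply, hO,
      Perm.one_apply, hI, val]
    simp
  | succ l ih =>
    intro m B _ _ vb hn hinj hlt hc I O hI hO φ
    have hn' : n = 2 * 2 ^ (l + m) := by rw [hn]; ring
    let vb' : B × Bool → ℕ := fun p => vb p.1 * 2 + p.2.toNat
    have hlt' : ∀ p, vb' p < 2 ^ (m + 1) := fun ⟨β, c⟩ => by
      have := hlt β
      simp only [vb', pow_succ]
      cases c <;> simp <;> omega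
    have hinj' : Function.Injective vb' := fun ⟨β, c⟩ ⟨β', c'⟩ h => by
      obtain ⟨h1, h2⟩ := code_inj (Bool.toNat_lt c) (Bool.toNat_lt c') h
      rw [show β = β' from hinj h1, show c = c' from by cases c <;> cases c' <;> simp_all]
    have hc' : Fintype.card (B × Bool) = 2 ^ (m + 1) := by simp [hc, pow_succ]
    obtain ⟨I', hI'⟩ := exists_code (n := n)
      (fun p : Q l × (B × Bool) => val l p.1 * 2 ^ (m + 1) + vb' p.2)
      (fun p q h => by
        obtain ⟨h1, h2⟩ := code_inj (hlt' _) (hlt' _) h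
        exact Prod.ext (val_inj l h1) (hinj' h2))
      (fun p => by
        have h1 := hlt' p.2
        have h2 : (val l p.1 + 1) * 2 ^ (m + 1) ≤ 2 ^ l * 2 ^ (m + 1) :=
          Nat.mul_le_mul_right _ (val_lt l p.1)
        have h3 : n = 2 ^ l * 2 ^ (m + 1) := by rw [hn]; ring
        rw [h3]; nlinarith)
      (by rw [Fintype.card_prod, card_Q, hc', hn]; ring)
    let O' : Q l × (B × Bool) ≃ Fin n := (stepE fun _ _ => false).symm.trans O
    have h1 := ih (m + 1) (B × Bool) vb' (by rw [hn]; ring) hinj' hlt' hc' I' O'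
      (fun u β => hI' (u, β)) (fun u β => by
        have := hO (u, β.2) β.1
        simp only [O', Equiv.trans_apply, stepE, Equiv.coe_fn_symm_mk, Bool.xor_false]
        rw [this]; simp only [val, vb']; ring)
    rw [cpow, ev_conv, h1]
    subst hn'
    have h2 := thorp_law (Y := Q l) (B := B) (h := 2 ^ (l + m))
      (by rw [hc, card_Q]; ring) (fun u β => val l u * 2 ^ m + vb β)
      (fun u β => by
        have h1 := hlt β
        have h2 : (val l u + 1) * 2 ^ m ≤ 2 ^ l * 2 ^ m := Nat.mul_le_mul_right _ (val_lt l u)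
        rw [pow_add]; nlinarith) I I'
      (fun u b β => by rw [hI]; simp only [val]; ring)
      (fun u β b => by rw [hI']; simp only [vb']; ring)
    rw [h2]
    simp only [ev_law]
    rw [← E_prod (fun p : (B × Bool → Sw l → Bool) × (B → Q l → Bool) =>
      φ ((I'.symm.trans ((Equiv.prodCongrLeft fun β => bf l (p.1 β)).trans O') : Perm _) *
        (I.symm.trans ((stepE p.2).trans I') : Perm _)))]
    let e : (B × Bool → Sw l → Bool) × (B → Q l → Bool) ≃ (B → Sw (l + 1) → Bool) :=
      { toFun := fun p β => join (p.2 β) fun c => p.1 (β, c)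
        invFun := fun ω => (fun p => sub (ω p.1) p.2, fun β => top (ω β))
        left_inv := fun _ => rfl
        right_inv := fun ω => by funext β z; rcases z with u | ⟨b, z⟩ <;> rfl }
    refine Fintype.expect_equiv e _ _ fun p => ?_
    congr 1
    ext x
    obtain ⟨⟨⟨u, b⟩, β⟩, rfl⟩ := I.surjective x
    simp only [Perm.mul_apply, Equiv.trans_apply, Equiv.symm_apply_apply,
      Equiv.prodCongrLeft_apply, O', stepE, Equiv.coe_fn_symm_mk, Equiv.coe_fn_mk, Bool.xor_false]
    rfl

lemma thorp_Pr (d : ℕ) : Pr (thorp (2 ^ (d + 1))) := by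
  obtain ⟨I, hI⟩ := exists_code (n := 2 * 2 ^ d)
    (fun p : (Fin (2 ^ d) × Bool) × Unit => p.1.2.toNat * 2 ^ d + p.1.1)
    (fun ⟨⟨u, b⟩, _⟩ ⟨⟨v, c⟩, _⟩ h => by
      obtain ⟨h1, h2⟩ := code_inj u.2 v.2 h
      rw [Fin.ext h2, show b = c from by cases b <;> cases c <;> simp_all])
    (fun ⟨⟨u, b⟩, _⟩ => by have := u.2; cases b <;> simp <;> omega) (by simp [mul_comm])
  obtain ⟨I', hI'⟩ := exists_code (n := 2 * 2 ^ d)
    (fun p : Fin (2 ^ d) × (Unit × Bool) => p.1 * 2 + p.2.2.toNat)
    (fun ⟨u, _, b⟩ ⟨v, _, c⟩ h => by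
      obtain ⟨h1, h2⟩ := code_inj (Bool.toNat_lt b) (Bool.toNat_lt c) h
      rw [show u = v from Fin.ext h1, show b = c from by cases b <;> cases c <;> simp_all])
    (fun ⟨u, _, b⟩ => by have := u.2; cases b <;> simp <;> omega) (by simp [mul_comm])
  rw [pow_succ', thorp_law (Y := Fin (2 ^ d)) (B := Unit) (h := 2 ^ d) (by simp) (fun u _ => u)
    (fun u _ => u.2) I I' (fun u b β => hI _) (fun u β b => by rw [hI']; ring)]
  exact law_Pr _

theorem tv_link (d R : ℕ) : tvUnif (cpow (thorp (2 ^ d)) (d * R)) = tvUnif (cpow (nu d) R) := by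
  obtain ⟨e, he⟩ := exists_code (val d) (val_inj d) (val_lt d) (card_Q d)
  let I : Q d × Unit ≃ Fin (2 ^ d) := (Equiv.prodUnique _ _).trans e
  have h1 := thorp_pow (2 ^ d) d 0 Unit (fun _ => 0) rfl (fun _ _ _ => rfl) (fun _ => Nat.one_pos)
    rfl I I (fun u _ => by simp [I, he]) (fun u _ => by simp [I, he])
  have h2 : ∀ φ, ev (cpow (thorp (2 ^ d)) d) φ = ev (nu d) fun g => φ (e.permCongrHom g) := by
    intro φ
    rw [h1, nu, ev_law]
    refine Fintype.expect_equiv (Equiv.funUnique Unit _) _ _ fun ω => ?_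
    congr 1
  have h3 : ∀ R φ, ev (cpow (cpow (thorp (2 ^ d)) d) R) φ =
      ev (cpow (nu d) R) fun g => φ (e.permCongrHom g) := by
    intro R
    induction R with
    | zero => intro φ; simp only [ev_cpow_zero, map_one]
    | succ R ih => intro φ; simp only [cpow, ev_conv, ih, h2, map_mul]
  have h4 : ∀ g, cpow (thorp (2 ^ d)) (d * R) (e.permCongrHom g) = cpow (nu d) R g := by
    intro g
    rw [cpow_mul, ← ev_ind (cpow _ R), h3, ← ev_ind (cpow (nu d) R) g]
    simp only [EmbeddingLike.apply_eq_iff_eq]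
  rw [tvUnif, tvUnif, ← Equiv.sum_comp e.permCongrHom.toEquiv,
    ← Fintype.card_congr e.permCongrHom.toEquiv]
  simp only [← h4]
  rfl

end Vale.Agent.P162
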