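import Vale.Agent.P162.Net
import Vale.Agent.P162.Mat

/-! Tensor kernels. -/

namespace Vale.Agent.P162
open Finset Matrix Equiv
open scoped BigOperators

section tens
variable {A X : Type*} [Fintype A] [DecidableEq A] [Fintype X]

/-- tensor product of kernels -/
def tens (M : A → Matrix X X ℝ) : Matrix (A → X) (A → X) ℝ := fun y x => ∏ i, M i (y i) (x i)

lemma tens_mul (M M' : A → Matrix X X ℝ) : tens M * tens M' = tens fun i => M i * M' i := by
  ext y x
  simp only [Matrix.mul_apply, tens, ← prod_mul_distrib]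
  rw [prod_univ_sum, Fintype.piFinset_univ]

omit [DecidableEq A] [Fintype X] in
lemma tens_transpose (M : A → Matrix X X ℝ) : (tens M)ᵀ = tens fun i => (M i)ᵀ := rfl

omit [DecidableEq A] [Fintype X] in
lemma tens_eq_zero (M : A → Matrix X X ℝ) (i : A) (h : M i = 0) : tens M = 0 := by
  ext y x
  exact prod_eq_zero (mem_univ i) (by rw [h]; rfl)

omit [Fintype X] in
lemma tens_add (M M' : Matrix X X ℝ) :
    tens (fun _ : A => M + M') = ∑ I : Finset A, tens fun i => if i ∈ I then M else M' := by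
  ext y x
  simp only [tens, Matrix.add_apply, Matrix.sum_apply]
  rw [Fintype.prod_add]
  refine sum_congr rfl fun I _ => ?_
  rw [← prod_mul_prod_compl I]
  congr 1
  · exact prod_congr rfl fun i hi => by rw [if_pos hi]
  · exact prod_congr rfl fun i hi => by rw [if_neg (mem_compl.1 hi)]

/-- permutation kernel -/
noncomputable def pm (π : Perm X) : Matrix X X ℝ := fun y x => ind (π x = y)

/-- centred permutation kernel -/
noncomputable def cen (π : Perm X) : Matrix X X ℝ :=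
  fun y x => ind (π x = y) - 1 / Fintype.card X

lemma tens_pm (π : Perm X) (φ : (A → X) → ℝ) (y : A → X) :
    (tens (fun _ : A => pm π) *ᵥ φ) y = φ (fun i => π⁻¹ (y i)) := by
  rw [← sum_ind_eq' (fun i => π⁻¹ (y i)) φ]
  refine sum_congr rfl fun x _ => ?_
  simp only [tens, pm, ← ind_forall]
  congr 1
  refine ind_congr ⟨fun h => funext fun i => by rw [← h i]; simp, fun h i => by rw [h]; simp⟩

lemma mul_pm (M : Matrix X X ℝ) (π : Perm X) (y x : X) : (M * pm π) y x = M y (π x) := by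
  simp only [Matrix.mul_apply, pm, mul_comm (M y _)]
  exact sum_ind_eq _ _

lemma pm_mul (M : Matrix X X ℝ) (π : Perm X) (y x : X) : (pm π * M) y x = M (π⁻¹ y) x := by
  rw [← sum_ind_eq' (π⁻¹ y) (fun z => M z x)]
  refine sum_congr rfl fun z _ => ?_
  simp only [pm]
  congr 1
  exact ind_congr ⟨fun h => by rw [← h]; simp, fun h => by rw [h]; simp⟩

lemma sum_cen [Nonempty X] (π : Perm X) (x : X) : ∑ y, cen π y x = 0 := by
  have : ∑ y, ind (π x = y) = 1 := by simpa using sum_ind_eq (π x) (fun _ => 1)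
  have h : (Fintype.card X : ℝ) ≠ 0 := by positivity
  simp only [cen, sum_sub_distrib, this, sum_const, card_univ, nsmul_eq_mul]
  field_simp
  simp

lemma cen_eq (π : Perm X) : cen π = pm π * cen 1 := by
  ext y x
  rw [pm_mul]
  simp only [cen]
  congr 1
  exact ind_congr ⟨fun h => by rw [← h]; simp, fun h => by
    have h : x = π⁻¹ y := h
    rw [h]; simp⟩

lemma cen_one_sq [Nonempty X] : (cen (1 : Perm X))ᵀ * cen 1 = cen 1 := by
  ext y x
  have h1 : ∀ z, (cen (1 : Perm X))ᵀ y z * cen 1 z x =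
      ind (y = z) * cen 1 z x - 1 / Fintype.card X * cen 1 z x := fun z => by
    rw [← sub_mul]; rfl
  rw [Matrix.mul_apply]
  simp only [h1, sum_sub_distrib, ← mul_sum, sum_cen, sum_ind_eq y (fun z => cen 1 z x)]
  simp

lemma nsq_comp (π : Perm X) (φ : (A → X) → ℝ) :
    (tens (fun _ : A => pm π) *ᵥ φ) ⬝ᵥ (tens (fun _ : A => pm π) *ᵥ φ) = φ ⬝ᵥ φ := by
  simp only [dotProduct, tens_pm]
  exact Equiv.sum_comp (Equiv.piCongrRight fun _ : A => (π⁻¹ : Perm X)) (fun x => φ x * φ x)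

lemma tens_cen_contr [Nonempty X] (π : Perm X) (φ : (A → X) → ℝ) :
    (tens (fun _ : A => cen π) *ᵥ φ) ⬝ᵥ (tens (fun _ : A => cen π) *ᵥ φ) ≤ φ ⬝ᵥ φ := by
  simp only [cen_eq π]
  rw [← tens_mul, ← mulVec_mulVec, nsq_comp]
  set v := tens (fun _ : A => cen (1 : Perm X)) *ᵥ φ with hv
  have h1 : v ⬝ᵥ v = φ ⬝ᵥ v := by
    rw [hv, dot_mulVec_mulVec, tens_transpose, tens_mul]
    simp only [cen_one_sq]
  have h2 := dot_self_nonneg (φ - v)
  simp only [sub_dotProduct, dotProduct_sub, dotProduct_comm v φ] at h2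
  linarith

lemma sum_zero_of_update [Nonempty X] (i : A) (F φ : (A → X) → ℝ)
    (hF : ∀ x z, F (Function.update x i z) = F x)
    (hφ : ∀ x, ∑ z, φ (Function.update x i z) = 0) : ∑ x, F x * φ x = 0 := by
  let e : (A → X) × X ≃ (A → X) × X := Function.Involutive.toPerm
    (fun p => (Function.update p.1 i p.2, p.1 i)) (by
      rintro ⟨x, z⟩; simp)
  have h1 := Equiv.sum_comp e (fun p => F p.1 * φ p.1)
  have h2 : ∑ p : (A → X) × X, F (e p).1 * φ (e p).1 = 0 := by
    rw [Fintype.sum_prod_type]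
    refine sum_eq_zero fun x _ => ?_
    show ∑ z, F (Function.update x i z) * φ (Function.update x i z) = 0
    simp only [hF, ← mul_sum, hφ, mul_zero]
  rw [h2, Fintype.sum_prod_type] at h1
  simp only [sum_const, card_univ, nsmul_eq_mul, ← mul_sum] at h1
  have h : (Fintype.card X : ℝ) ≠ 0 := by positivity
  exact (mul_eq_zero.1 h1.symm).resolve_left h

lemma tens_cen_of_zero [Nonempty X] (π : Perm X) (φ : (A → X) → ℝ)
    (hφ : ∀ i x, ∑ z, φ (Function.update x i z) = 0) :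
    tens (fun _ : A => cen π) *ᵥ φ = tens (fun _ : A => pm π) *ᵥ φ := by
  let J : Matrix X X ℝ := fun _ _ => -(1 / Fintype.card X)
  have e : cen π = J + pm π := by
    ext y x; rw [Matrix.add_apply]; simp only [cen, pm, J]; ring
  rw [e, tens_add, Matrix.sum_mulVec, sum_eq_single ∅]
  · simp
  · intro I _ hI
    obtain ⟨i, hi⟩ := nonempty_iff_ne_empty.2 hI
    funext y
    refine sum_zero_of_update i _ φ (fun x z => ?_) (hφ i)
    refine prod_congr rfl fun j _ => ?_
    by_cases h : j = i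
    · subst h; simp [hi, J]
    · rw [Function.update_of_ne h]
  · simp

end tens

section Bd
variable {Z Z' : Type*} [Fintype Z] [Fintype Z']

/-- norm bound on functions supported on `p` -/
def Bd (M : Matrix Z Z ℝ) (p : Z → Prop) (r : ℝ) : Prop :=
  ∀ φ : Z → ℝ, (∀ x, ¬ p x → φ x = 0) → (M *ᵥ φ) ⬝ᵥ (M *ᵥ φ) ≤ r * (φ ⬝ᵥ φ)

lemma Bd.tensor {M : Matrix Z Z ℝ} {M' : Matrix Z' Z' ℝ} {p p' r r'} (h : Bd M p r)
    (h' : Bd M' p' r') (hr : 0 ≤ r) :
    Bd (fun y x : Z × Z' => M y.1 x.1 * M' y.2 x.2) (fun x => p x.1 ∧ p' x.2) (r * r') := by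
  intro φ hφ
  let χ : Z' → Z → ℝ := fun y' x => (M' *ᵥ fun x' => φ (x, x')) y'
  have e : ∀ y y', ((fun y x : Z × Z' => M y.1 x.1 * M' y.2 x.2) *ᵥ φ) (y, y') =
      (M *ᵥ χ y') y := by
    intro y y'
    simp only [mulVec, dotProduct, Fintype.sum_prod_type, χ, mul_sum, mul_assoc]
  have h1 : ∀ y', (M *ᵥ χ y') ⬝ᵥ (M *ᵥ χ y') ≤ r * (χ y' ⬝ᵥ χ y') := fun y' =>
    h _ fun x hx => by
      have : (fun x' => φ (x, x')) = 0 := funext fun x' => hφ _ fun hh => hx hh.1
      simp only [χ, this, mulVec_zero, Pi.zero_apply]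
  have h2 := fun x => h' (fun x' => φ (x, x')) fun x' hx => hφ _ fun hh => hx hh.2
  calc _ = ∑ y', (M *ᵥ χ y') ⬝ᵥ (M *ᵥ χ y') := by
        rw [dotProduct, Fintype.sum_prod_type_right]
        simp only [e, dotProduct]
    _ ≤ ∑ y', r * (χ y' ⬝ᵥ χ y') := sum_le_sum fun y' _ => h1 y'
    _ = r * ∑ x, (M' *ᵥ fun x' => φ (x, x')) ⬝ᵥ (M' *ᵥ fun x' => φ (x, x')) := by
        rw [← mul_sum]
        simp only [dotProduct, χ]
        rw [sum_comm]
    _ ≤ r * ∑ x, r' * ((fun x' => φ (x, x')) ⬝ᵥ fun x' => φ (x, x')) :=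
        mul_le_mul_of_nonneg_left (sum_le_sum fun x _ => h2 x) hr
    _ = _ := by
        rw [← mul_sum, mul_assoc]
        simp only [dotProduct, Fintype.sum_prod_type]

lemma Bd.equiv (e : Z ≃ Z') {M : Matrix Z Z ℝ} {M' : Matrix Z' Z' ℝ} {p p' r} (h' : Bd M' p' r)
    (hM : ∀ y x, M y x = M' (e y) (e x)) (hp : ∀ x, p x → p' (e x)) : Bd M p r := by
  intro φ hφ
  have h1 := h' (fun x => φ (e.symm x)) fun x hx => hφ _ fun hh => hx (by simpa using hp _ hh)
  have e1 : ∀ y, (M *ᵥ φ) y = (M' *ᵥ fun x => φ (e.symm x)) (e y) := by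
    intro y
    simp only [mulVec, dotProduct]
    rw [← Equiv.sum_comp e]
    simp [hM]
  have e2 : φ ⬝ᵥ φ = (fun x => φ (e.symm x)) ⬝ᵥ fun x => φ (e.symm x) := by
    simp only [dotProduct]
    rw [← Equiv.sum_comp e]
    simp
  rw [e2]
  refine le_trans (le_of_eq ?_) h1
  simp only [dotProduct, e1]
  exact Equiv.sum_comp e (fun y => (M' *ᵥ fun x => φ (e.symm x)) y *
    (M' *ᵥ fun x => φ (e.symm x)) y)

end Bd

lemma E_sq_le {Ω : Type*} [Fintype Ω] [Nonempty Ω] (f : Ω → ℝ) :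
    (𝔼 x, f x) * (𝔼 x, f x) ≤ 𝔼 x, f x * f x := by
  have := expect_mul_sq_le_sq_mul_sq univ f (fun _ => (1:ℝ))
  simpa [sq] using this

/-- the averaged centred kernel -/
noncomputable def GG (l : ℕ) (A : Type) [Fintype A] : Matrix (A → Q l) (A → Q l) ℝ :=
  fun y x => 𝔼 ω, tens (fun _ : A => cen (bf l ω)) y x

lemma GG_mulVec (l : ℕ) (A : Type) [Fintype A] [DecidableEq A] (φ : (A → Q l) → ℝ) (y) :
    (GG l A *ᵥ φ) y = 𝔼 ω, (tens (fun _ : A => cen (bf l ω)) *ᵥ φ) y := by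
  simp only [mulVec, dotProduct, GG, expect_sum_comm, expect_mul]

lemma GG_triv (l : ℕ) (A : Type) [Fintype A] [DecidableEq A] (p) : Bd (GG l A) p 1 := by
  intro φ _
  rw [one_mul]
  simp only [dotProduct, GG_mulVec]
  refine (sum_le_sum fun y _ => E_sq_le _).trans ?_
  rw [← expect_sum_comm]
  exact expect_le univ_nonempty fun ω _ => tens_cen_contr _ φ

lemma GG_one (l : ℕ) (A : Type) [Fintype A] (h : Fintype.card A = 1) : GG l A = 0 := by
  obtain ⟨i, hi⟩ := Fintype.card_eq_one_iff.1 h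
  ext y x
  have : ∀ ω, tens (fun _ : A => cen (bf l ω)) y x =
      ind (bf l ω (x i) = y i) - 1 / Fintype.card (Q l) := by
    intro ω
    simp only [tens]
    rw [Fintype.prod_eq_single i (fun j hj => (hj (hi j)).elim)]
    rfl
  simp only [GG, this, expect_sub_distrib, marginal, Fintype.expect_const, card_Q]
  simp

end Vale.Agent.P162
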