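import Vale.Agent.P162.Low2
import Vale.Agent.P063.Cube

/-! Counting and hypercontractivity for the low degree recursion. -/

namespace Vale.Agent.P162
open Finset Equiv
open scoped BigOperators Nat

variable {Y : Type*} [Fintype Y] [DecidableEq Y]

/-- switches met once -/
def od (T : Finset (Y × Bool)) : Finset Y :=
  univ.filter fun u => ¬ ((u, false) ∈ T ↔ (u, true) ∈ T)

/-- switches met twice -/
def db (T : Finset (Y × Bool)) : Finset Y :=
  univ.filter fun u => (u, false) ∈ T ∧ (u, true) ∈ T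

lemma card_od_db (T : Finset (Y × Bool)) : T.card = (od T).card + 2 * (db T).card := by
  have : T.card = ∑ p, if p ∈ T then 1 else 0 := by simp
  rw [this, Fintype.sum_prod_type, od, db, card_filter, card_filter, mul_sum, ← sum_add_distrib]
  refine sum_congr rfl fun u _ => ?_
  rw [Fintype.sum_bool]
  by_cases h1 : (u, false) ∈ T <;> by_cases h2 : (u, true) ∈ T <;> simp [h1, h2]

lemma prod_sg_od (T : Finset (Y × Bool)) (a : Y → Bool) :
    ∏ p ∈ T, sg (a p.1) = ∏ u ∈ od T, sg (a u) := by
  have : ∏ p ∈ T, sg (a p.1) = ∏ p, if p ∈ T then sg (a p.1) else 1 := by simp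
  rw [this, Fintype.prod_prod_type, od, prod_filter]
  refine prod_congr rfl fun u _ => ?_
  rw [Fintype.prod_bool]
  by_cases h1 : (u, false) ∈ T <;> by_cases h2 : (u, true) ∈ T <;> simp [h1, h2, sg_sq]

variable {J : Type*} [Fintype J] [DecidableEq J]

lemma card_Cl (Z : Finset Y) (q : ℕ) :
    (univ.filter fun x : J → Y × Bool => Function.Injective x ∧ od (univ.image x) = Z ∧
      (db (univ.image x)).card = q).card ≤
      (Fintype.card J)! * (4 ^ Z.card * (Fintype.card Y).choose q) := by
  classical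
  refine (card_le_mul_card_image (f := fun x => univ.image x) _ (Fintype.card J)! ?_).trans
    (Nat.mul_le_mul_left _ ?_)
  · intro T hT
    obtain ⟨x₀, hx₀, rfl⟩ := mem_image.1 hT
    have h0 := (mem_filter.1 hx₀).2.1
    have hc : Fintype.card (univ.image x₀ : Finset _) = Fintype.card J := by
      rw [Fintype.card_coe, card_image_of_injective _ h0, card_univ]
    rw [← Nat.descFactorial_self, ← Fintype.card_coe]
    nth_rewrite 1 [← hc]
    rw [← Fintype.card_embedding_eq]
    refine Fintype.card_le_of_injective (fun x => ⟨fun i => ⟨x.1 i, ?_⟩, ?_⟩) ?_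
    · exact (Finset.ext_iff.1 (mem_filter.1 x.2).2 _).1 (mem_image_of_mem x.1 (mem_univ i))
    · exact fun i j h => (mem_filter.1 (mem_filter.1 x.2).1).2.1 (congrArg Subtype.val h)
    · intro x y h
      exact Subtype.ext (funext fun i => congrArg Subtype.val (DFunLike.congr_fun h i))
  · have : 4 ^ Z.card * (Fintype.card Y).choose q =
        ((Z ×ˢ (univ : Finset Bool)).powerset ×ˢ powersetCard q (univ : Finset Y)).card := by
      rw [card_product, card_powerset, card_powersetCard, card_product, card_univ, card_univ,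
        Fintype.card_bool, mul_comm Z.card, pow_mul]
      rfl
    rw [this]
    refine card_le_card_of_injOn (fun T => (T ∩ Z ×ˢ univ, db T)) ?_ ?_
    · intro T hT
      obtain ⟨x, hx, rfl⟩ := mem_image.1 hT
      exact mem_product.2 ⟨mem_powerset.2 inter_subset_right,
        mem_powersetCard.2 ⟨subset_univ _, (mem_filter.1 hx).2.2.2⟩⟩
    · intro T hT T' hT' h
      obtain ⟨x, hx, rfl⟩ := mem_image.1 hT
      obtain ⟨x', hx', rfl⟩ := mem_image.1 hT'
      have o1 := (mem_filter.1 hx).2.2.1
      have o2 := (mem_filter.1 hx').2.2.1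
      generalize univ.image x = T at *
      generalize univ.image x' = T' at *
      obtain ⟨h1, h2⟩ := Prod.mk.inj h
      ext ⟨u, b⟩
      have a1 : u ∈ od T ↔ u ∈ Z := by rw [o1]
      have a2 : u ∈ od T' ↔ u ∈ Z := by rw [o2]
      have a3 : u ∈ db T ↔ u ∈ db T' := by rw [h2]
      have a4 : (u, b) ∈ T ∩ Z ×ˢ univ ↔ (u, b) ∈ T' ∩ Z ×ˢ univ := by rw [h1]
      simp only [od, db, mem_filter, mem_univ, true_and, mem_inter, mem_product, and_true]
        at a1 a2 a3 a4
      clear hx hx' h h1 h2 o1 o2 hT hT' this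
      by_cases c1 : (u, false) ∈ T <;> by_cases c2 : (u, true) ∈ T <;>
        by_cases c3 : (u, false) ∈ T' <;> by_cases c4 : (u, true) ∈ T' <;>
        cases b <;> simp_all

/-- counting weight -/
def Cw (Δ N z q : ℕ) : ℝ := 16 ^ z * Δ ! * N.choose q

lemma hyp_bound (g : (J → Y × Bool) → ℝ) (hg : ∀ x, ¬ Function.Injective x → g x = 0) :
    𝔼 a : Y → Bool, ((∑ x, (∏ i, sg (lay a (x i)).2) * g x) ^ 2) ^ 2 ≤
      (∑ x, Cw (Fintype.card J) (Fintype.card Y) (od (univ.image x)).card
        (db (univ.image x)).card * g x ^ 2) ^ 2 := by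
  classical
  let Cl : Finset Y → Finset (J → Y × Bool) := fun Z =>
    univ.filter fun x => Function.Injective x ∧ od (univ.image x) = Z
  let c : Finset Y → ℝ := fun Z => ∑ x ∈ Cl Z, (∏ i, sg (x i).2) * g x
  have fib : ∀ F : (J → Y × Bool) → ℝ, (∀ x, ¬ Function.Injective x → F x = 0) →
      ∑ x, F x = ∑ Z, ∑ x ∈ Cl Z, F x := by
    intro F hF
    rw [← sum_fiberwise univ (fun x : J → Y × Bool => od (univ.image x))]
    refine sum_congr rfl fun Z _ => (sum_subset (fun x hx => ?_) fun x hx hx' => hF x ?_).symm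
    · exact mem_filter.2 ⟨mem_univ _, (mem_filter.1 hx).2.2⟩
    · exact fun h => hx' (mem_filter.2 ⟨mem_univ _, h, (mem_filter.1 hx).2⟩)
  have e1 : ∀ a : Y → Bool, ∑ x, (∏ i, sg (lay a (x i)).2) * g x =
      P063.Fc (1 / 2) (fun Z => (-2) ^ Z.card * c Z) a := by
    intro a
    rw [fib _ fun x hx => by rw [hg x hx, mul_zero], P063.Fc]
    refine sum_congr rfl fun Z _ => ?_
    have : ∏ u ∈ Z, sg (a u) = (-2) ^ Z.card * P063.psi (1 / 2) Z a := by
      rw [P063.psi, ← prod_const, ← prod_mul_distrib]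
      exact prod_congr rfl fun u _ => by cases a u <;> norm_num [sg, P063.ps1]
    rw [mul_right_comm, ← this, mul_sum]
    refine sum_congr rfl fun x hx => ?_
    obtain ⟨h1, h2⟩ := (mem_filter.1 hx).2
    rw [← h2, ← prod_sg_od, prod_image fun i _ j _ h => h1 h]
    simp only [lay_apply, sg_xor, prod_mul_distrib]
    ring
  have e2 : ∀ G : (Y → Bool) → ℝ, 𝔼 a, G a = P063.Ex (1 / 2) G := by
    intro G
    rw [Fintype.expect_eq_sum_div_card, P063.Ex, sum_div]
    refine sum_congr rfl fun a _ => ?_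
    have : P063.wt (1 / 2) a = (1 / 2) ^ Fintype.card Y := by
      rw [P063.wt, ← card_univ, ← prod_const]
      exact prod_congr rfl fun u _ => by cases a u <;> norm_num [P063.w1]
    rw [this]
    simp [div_eq_inv_mul]
  simp only [e1, ← pow_mul]
  rw [e2]
  refine (P063.hyper (by norm_num) (by norm_num) _).trans ?_
  refine pow_le_pow_left₀ (sum_nonneg fun _ _ => sq_nonneg _) ?_ 2
  rw [fib _ fun x hx => by rw [hg x hx]; simp]
  refine sum_le_sum fun Z _ => ?_
  have h1 : c Z ^ 2 ≤ (Cl Z).card * ∑ x ∈ Cl Z, g x ^ 2 := by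
    have := sum_mul_sq_le_sq_mul_sq (Cl Z) (fun x => ∏ i, sg (x i).2) g
    refine this.trans (le_of_eq ?_)
    congr 1
    rw [card_eq_sum_ones]
    push_cast
    refine sum_congr rfl fun x _ => ?_
    rw [← prod_pow]
    exact prod_eq_one fun i _ => by rw [sq, sg_sq]
  rw [mul_pow, ← pow_mul, mul_comm Z.card, pow_mul]
  refine (mul_le_mul_of_nonneg_left h1 (by positivity)).trans ?_
  rw [← mul_assoc, mul_sum]
  refine sum_le_sum fun x hx => mul_le_mul_of_nonneg_right ?_ (sq_nonneg _)
  obtain ⟨h2, h3⟩ := (mem_filter.1 hx).2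
  have h4 : (Cl Z).card ≤ (Fintype.card J)! * (4 ^ Z.card *
      (Fintype.card Y).choose (db (univ.image x)).card) := by
    refine le_trans (card_le_card fun y hy => ?_) (card_Cl Z _)
    obtain ⟨h5, h6⟩ := (mem_filter.1 hy).2
    refine mem_filter.2 ⟨mem_univ _, h5, h6, ?_⟩
    have a1 := card_od_db (univ.image x)
    have a2 := card_od_db (univ.image y)
    rw [card_image_of_injective _ h2, h3] at a1
    rw [card_image_of_injective _ h5, h6] at a2
    omega
  have h5 : ((Cl Z).card : ℝ) ≤ (Fintype.card J)! * (4 ^ Z.card *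
      (Fintype.card Y).choose (db (univ.image x)).card) := by exact_mod_cast h4
  rw [h3, Cw, show (16:ℝ) = 4 * 4 by norm_num, mul_pow, show ((-2:ℝ)) ^ 2 = 4 by norm_num]
  have := mul_le_mul_of_nonneg_left h5 (show (0:ℝ) ≤ 4 ^ Z.card by positivity)
  linarith

lemma sum_subsets_le (x : J → Y × Bool) (hx : Function.Injective x) (F : ℕ → ℕ → ℝ)
    (hF : ∀ z q, 0 ≤ F z q) :
    ∑ I : Finset J, F (od (I.image x)).card (db (I.image x)).card ≤
      ∑ S : Finset J, ∑ D ∈ (univ.image fun i => (x i).1).powerset, F S.card D.card := by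
  classical
  let f : Finset J → Finset J × Finset Y := fun I =>
    (I.filter fun i => (x i).1 ∈ od (I.image x), db (I.image x))
  have hmem : ∀ (I : Finset J) i, x i ∈ I.image x ↔ i ∈ I := fun I i => hx.mem_finset_image
  have hrec : ∀ I i, i ∈ I ↔ i ∈ (f I).1 ∨ (x i).1 ∈ (f I).2 := by
    intro I i
    have := hmem I i
    simp only [f, od, db, mem_filter, mem_univ, true_and]
    generalize I.image x = T at *
    rcases h : x i with ⟨u, b⟩
    rw [h] at this
    cases b <;> tauto
  have hinj : Function.Injective f := fun I I' h => by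
    ext i; rw [hrec I, hrec I', h]
  have hcard : ∀ I, (f I).1.card = (od (I.image x)).card := by
    intro I
    refine card_bij (fun i _ => (x i).1) (fun i hi => (mem_filter.1 hi).2) ?_ ?_
    · intro i hi j hj h
      obtain ⟨a1, a2⟩ := mem_filter.1 hi
      have a3 := (hmem I i).2 a1
      have a4 := (hmem I j).2 (mem_filter.1 hj).1
      apply hx
      simp only [od, mem_filter, mem_univ, true_and] at a2
      rcases h1 : x i with ⟨u, b⟩
      rcases h2 : x j with ⟨v, c⟩
      simp only [h1, h2] at h a2 a3 a4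
      subst h
      cases b <;> cases c <;> tauto
    · intro u hu
      have : ∃ b, (u, b) ∈ I.image x := by
        simp only [od, mem_filter, mem_univ, true_and] at hu
        by_contra hc
        rw [not_exists] at hc
        exact hu ⟨fun h => (hc _ h).elim, fun h => (hc _ h).elim⟩
      obtain ⟨b, hb⟩ := this
      obtain ⟨i, hi, e⟩ := mem_image.1 hb
      exact ⟨i, mem_filter.2 ⟨hi, by rw [e]; exact hu⟩, by rw [e]⟩
  rw [← sum_product']
  calc _ = ∑ I : Finset J, F (f I).1.card (f I).2.card := by simp only [hcard]; rfl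
    _ = ∑ p ∈ univ.image f, F p.1.card p.2.card :=
        (sum_image (f := fun p : Finset J × Finset Y => F p.1.card p.2.card)
          fun I _ I' _ h => hinj h).symm
    _ ≤ _ := by
        refine sum_le_sum_of_subset_of_nonneg ?_ fun _ _ _ => hF _ _
        intro p hp
        obtain ⟨I, _, rfl⟩ := mem_image.1 hp
        refine mem_product.2 ⟨mem_univ _, mem_powerset.2 fun u hu => ?_⟩
        obtain ⟨i, _, e⟩ := mem_image.1 (mem_filter.1 hu).2.1
        exact mem_image.2 ⟨i, mem_univ _, by rw [e]⟩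

lemma sum_fact_le {α : Type*} (U : Finset α) {k : ℕ} (hk : U.card ≤ k) {t : ℝ} (ht : 0 ≤ t)
    (h : k * t ≤ 1 / 2) : ∑ S ∈ U.powerset, (S.card)! * t ^ S.card ≤ 1 + 2 * (k * t) := by
  rw [sum_powerset_apply_card (fun j => (j ! : ℝ) * t ^ j)]
  have hy : 0 ≤ k * t := by positivity
  have h1 : ∀ n, ∑ j ∈ range (n + 1), (k * t) ^ j + 2 * (k * t) ^ (n + 1) ≤ 1 + 2 * (k * t) := by
    intro n
    induction n with
    | zero => simp
    | succ n ih =>
      rw [sum_range_succ, pow_succ _ (n + 1)]
      have := pow_nonneg hy (n + 1)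
      nlinarith
  refine le_trans (sum_le_sum fun j _ => ?_)
    (le_trans (le_add_of_nonneg_right (by positivity)) (h1 U.card))
  rw [nsmul_eq_mul, ← mul_assoc, mul_pow]
  refine mul_le_mul_of_nonneg_right ?_ (pow_nonneg ht _)
  have : U.card.choose j * j ! ≤ k ^ j := by
    rw [mul_comm, ← Nat.descFactorial_eq_factorial_mul_choose]
    exact (Nat.descFactorial_le_pow _ _).trans (Nat.pow_le_pow_left hk _)
  exact_mod_cast this

lemma Cw_le (N z q : ℕ) : Cw (z + 2 * q) N z q ≤ 32 ^ z * z ! * ((16 * N) ^ q * q !) := by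
  have h1 : (z + 2 * q)! ≤ 2 ^ (z + 2 * q) * (z ! * (2 * q)!) := by
    rw [← Nat.add_choose_mul_factorial_mul_factorial, mul_assoc]
    exact Nat.mul_le_mul_right _ (Nat.choose_le_two_pow _ _)
  have h2 : (2 * q)! ≤ 2 ^ (2 * q) * (q ! * q !) := by
    rw [two_mul, ← Nat.add_choose_mul_factorial_mul_factorial, mul_assoc]
    exact Nat.mul_le_mul_right _ (Nat.choose_le_two_pow _ _)
  have h3 : q ! * N.choose q ≤ N ^ q := by
    rw [← Nat.descFactorial_eq_factorial_mul_choose]; exact Nat.descFactorial_le_pow _ _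
  have h4 : 16 ^ z * (z + 2 * q)! * N.choose q ≤ 32 ^ z * z ! * ((16 * N) ^ q * q !) := by
    calc 16 ^ z * (z + 2 * q)! * N.choose q
        ≤ 16 ^ z * (2 ^ (z + 2 * q) * (z ! * (2 ^ (2 * q) * (q ! * q !)))) * N.choose q := by
          gcongr
          exact h1.trans (by gcongr)
      _ = 32 ^ z * z ! * (16 ^ q * (q ! * N.choose q) * q !) := by
          rw [show 32 = 16 * 2 by norm_num, show 16 ^ q = 2 ^ (2 * q) * 2 ^ (2 * q) by
            rw [← mul_pow, pow_mul]; norm_num, mul_pow 16 2, pow_add]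
          ring
      _ ≤ 32 ^ z * z ! * (16 ^ q * N ^ q * q !) := by gcongr
      _ = _ := by rw [mul_pow]
  unfold Cw
  exact_mod_cast h4

end Vale.Agent.P162
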