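import Vale.Agent.P162.Low1
import Vale.Agent.P162.Low3

/-! The low degree norm bound. -/

namespace Vale.Agent.P162
open Finset Equiv Matrix
open scoped BigOperators

section HS
variable {Y : Type*} [Fintype Y]

/-- the block part -/
noncomputable def HH (f : Bool → Perm Y) : Matrix (Y × Bool) (Y × Bool) ℝ :=
  fun y x => ind (y.2 = x.2) * cen (f x.2) y.1 x.1

/-- the sign part -/
noncomputable def SS (Y : Type*) [Fintype Y] : Matrix (Y × Bool) (Y × Bool) ℝ :=
  fun y x => sg y.2 * sg x.2 / (2 * Fintype.card Y)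

lemma cen_step [Nonempty Y] (f : Bool → Perm Y) (a : Y → Bool) :
    cen (bsum f * lay a) = (SS Y + HH f) * pm (lay a) := by
  ext y x
  rw [mul_pm, Matrix.add_apply]
  simp only [cen, Perm.mul_apply, SS, HH]
  generalize lay a x = p
  have hN : (Fintype.card Y : ℝ) ≠ 0 := by positivity
  have e : ind (bsum f p = y) = ind (y.2 = p.2) * ind (f p.2 p.1 = y.1) := by
    rw [← ind_and]
    exact ind_congr ⟨fun h => by rw [← h]; exact ⟨rfl, rfl⟩, fun h => Prod.ext h.2 h.1.symm⟩
  rw [e, Fintype.card_prod, Fintype.card_bool]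
  push_cast
  rcases y with ⟨v, c⟩
  rcases p with ⟨u, b⟩
  cases b <;> cases c <;> simp [sg, ind_true, ind_false] <;> field_simp <;> ring

lemma SS_HH [Nonempty Y] (f : Bool → Perm Y) : (SS Y)ᵀ * HH f = 0 := by
  ext x x'
  rw [Matrix.mul_apply, Fintype.sum_prod_type_right]
  refine sum_eq_zero fun c _ => ?_
  simp only [transpose_apply, SS, HH, ← mul_sum, sum_cen, mul_zero]

lemma HH_SS [Nonempty Y] (f : Bool → Perm Y) : (HH f)ᵀ * SS Y = 0 := by
  rw [← transpose_transpose (SS Y), ← transpose_mul, SS_HH, transpose_zero]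

end HS

variable {l : ℕ}

/-- averaged block kernel -/
noncomputable def KK (l : ℕ) (B : Type) [Fintype B] :
    Matrix (B → Q l × Bool) (B → Q l × Bool) ℝ :=
  fun y x => 𝔼 w : Bool → Sw l → Bool, tens (fun _ : B => HH fun b => bf l (w b)) y x

lemma sector
    (ih : ∀ (B : Type) [Fintype B] [DecidableEq B],
      Bd (GG l B) Function.Injective (rr l (Fintype.card B)))
    (B : Type) [Fintype B] [DecidableEq B] (ψ : (B → Q l × Bool) → ℝ)
    (hψ : ∀ x, ¬ Function.Injective x → ψ x = 0) :
    (KK l B *ᵥ ψ) ⬝ᵥ (KK l B *ᵥ ψ) ≤ ∑ z, wgt l (fun i => (z i).2) * ψ z ^ 2 := by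
  let Kβ : (B → Bool) → Matrix (B → Q l) (B → Q l) ℝ := fun β v u =>
    𝔼 w : Bool → Sw l → Bool, ∏ i, cen (bf l (w (β i))) (v i) (u i)
  have hK : ∀ β, Bd (Kβ β) (fun u => Function.Injective fun i => (u i, β i)) (wgt l β) := by
    intro β
    have h1 := (ih {i // β i = true}).tensor (ih {i // ¬ β i = true}) (rr_nonneg _ _)
    rw [Fintype.card_subtype, Fintype.card_subtype] at h1
    refine Bd.equiv (Equiv.piEquivPiSubtypeProd (fun i => β i = true) (fun _ => Q l)) h1 ?_ ?_
    · intro v u
      simp only [GG, tens, Kβ]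
      rw [mul_comm, ← E_bool_mul]
      refine expect_congr rfl fun w _ => ?_
      rw [← Fintype.prod_subtype_mul_prod_subtype (fun i => β i = true), mul_comm]
      congr 1
      · exact prod_congr rfl fun i _ => by rw [Bool.eq_false_iff.2 i.2]; rfl
      · exact prod_congr rfl fun i _ => by rw [i.2]; rfl
    · intro u hu
      refine ⟨fun i j h => Subtype.ext (hu (Prod.ext h ?_)), fun i j h =>
        Subtype.ext (hu (Prod.ext h ?_))⟩
      · exact i.2.trans j.2.symm
      · exact (Bool.eq_false_iff.2 i.2).trans (Bool.eq_false_iff.2 j.2).symm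
  let e := (Equiv.arrowProdEquivProdArrow B (fun _ => Q l) (fun _ => Bool)).symm
  have he : ∀ u β, e (u, β) = fun i => (u i, β i) := fun _ _ => rfl
  have h2 : ∀ v β, (KK l B *ᵥ ψ) (e (v, β)) = (Kβ β *ᵥ fun u => ψ (e (u, β))) v := by
    intro v β
    simp only [mulVec, dotProduct]
    rw [← Equiv.sum_comp e, Fintype.sum_prod_type]
    refine sum_congr rfl fun u _ => ?_
    rw [← sum_ind_eq β (fun β' => Kβ β' v u * ψ (e (u, β')))]
    refine sum_congr rfl fun β' _ => ?_
    rw [← mul_assoc]
    congr 1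
    simp only [KK, tens, HH, he, Kβ, prod_mul_distrib, ← ind_forall, ← mul_expect]
    rw [ind_congr funext_iff.symm]
  rw [dotProduct, ← Equiv.sum_comp e, ← Equiv.sum_comp e, Fintype.sum_prod_type_right,
    Fintype.sum_prod_type_right]
  refine sum_le_sum fun β _ => ?_
  simp only [h2]
  refine (hK β (fun u => ψ (e (u, β))) fun u hu => hψ _ hu).trans (le_of_eq ?_)
  simp only [dotProduct, mul_sum, sq, he]

variable {A : Type} [Fintype A] [DecidableEq A]

/-- splitting of coordinates -/
abbrev spl (l : ℕ) (I : Finset A) :=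
  Equiv.piEquivPiSubtypeProd (fun i => i ∈ I) (fun _ => Q l × Bool)

lemma psi_bound (φ : (A → Q l × Bool) → ℝ) (hφ : ∀ x, ¬ Function.Injective x → φ x = 0)
    (I : Finset A) :
    ∑ z : {i // ¬ i ∈ I} → Q l × Bool, wgt l (fun i => (z i).2) *
      (∑ x : {i // i ∈ I} → Q l × Bool, (∏ i, sg (x i).2) *
        𝔼 a : Q l → Bool, φ (fun i => lay a ((spl l I).symm (x, z) i))) ^ 2 ≤
      Wb l (Fintype.card A - I.card) * ∑ x, Cw I.card (2 ^ l) (od (I.image x)).card
        (db (I.image x)).card * φ x ^ 2 := by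
  let α : (Q l → Bool) → ({i // ¬ i ∈ I} → Q l × Bool) → ℝ := fun a z =>
    ∑ x : {i // i ∈ I} → Q l × Bool, (∏ i, sg (lay a (x i)).2) * φ ((spl l I).symm (x, z))
  have e1 : ∀ z : {i // ¬ i ∈ I} → Q l × Bool, ∑ x : {i // i ∈ I} → Q l × Bool,
      (∏ i, sg (x i).2) * 𝔼 a : Q l → Bool, φ (fun i => lay a ((spl l I).symm (x, z) i)) =
      𝔼 a, α a (fun i => lay a (z i)) := by
    intro z
    simp only [mul_expect, α]
    rw [← expect_sum_comm]
    refine expect_congr rfl fun a _ => ?_
    rw [← Equiv.sum_comp (Equiv.piCongrRight fun _ : {i // i ∈ I} => lay a)]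
    refine sum_congr rfl fun x _ => ?_
    congr 2
    funext i
    by_cases h : i ∈ I <;> simp [Equiv.piEquivPiSubtypeProd, h, lay_lay, -lay_apply]
  simp only [e1]
  have hinj : ∀ x z, Function.Injective ((spl l I).symm (x, z)) →
      Function.Injective x ∧ Function.Injective z := by
    intro x z h
    refine ⟨fun i j e => Subtype.ext (h ?_), fun i j e => Subtype.ext (h ?_)⟩
    · simpa [Equiv.piEquivPiSubtypeProd, i.2, j.2] using e
    · simpa [Equiv.piEquivPiSubtypeProd, i.2, j.2] using e
  calc ∑ z : {i // ¬ i ∈ I} → Q l × Bool, wgt l (fun i => (z i).2) *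
        (𝔼 a, α a (fun i => lay a (z i))) ^ 2
      ≤ ∑ z : {i // ¬ i ∈ I} → Q l × Bool, wgt l (fun i => (z i).2) *
        𝔼 a, α a (fun i => lay a (z i)) ^ 2 := by
        refine sum_le_sum fun z _ => mul_le_mul_of_nonneg_left ?_ (wgt_nonneg _ _)
        simp only [sq]; exact E_sq_le _
    _ = ∑ z : {i // ¬ i ∈ I} → Q l × Bool,
        𝔼 a, wgt l (fun i => (lay a (z i)).2) * α a z ^ 2 := by
        simp only [mul_expect]
        rw [← expect_sum_comm, ← expect_sum_comm]
        refine expect_congr rfl fun a _ => ?_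
        rw [← Equiv.sum_comp (Equiv.piCongrRight fun _ : {i // ¬ i ∈ I} => lay a)]
        refine sum_congr rfl fun z _ => ?_
        simp [lay_lay, -lay_apply]
    _ ≤ ∑ z : {i // ¬ i ∈ I} → Q l × Bool, Wb l (Fintype.card A - I.card) *
        ∑ x : {i // i ∈ I} → Q l × Bool, Cw I.card (2 ^ l) (od (univ.image x)).card
          (db (univ.image x)).card * φ ((spl l I).symm (x, z)) ^ 2 := by
        refine sum_le_sum fun z _ => ?_
        have hR : 0 ≤ Wb l (Fintype.card A - I.card) *
            ∑ x : {i // i ∈ I} → Q l × Bool, Cw I.card (2 ^ l) (od (univ.image x)).card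
            (db (univ.image x)).card * φ ((spl l I).symm (x, z)) ^ 2 :=
          mul_nonneg (Wb_nonneg _ _) (sum_nonneg fun _ _ =>
            mul_nonneg (by unfold Cw; positivity) (sq_nonneg _))
        by_cases hz : Function.Injective z
        · have h1 := W_bound l z hz
          have h2 := hyp_bound (fun x => φ ((spl l I).symm (x, z)))
            fun x hx => hφ _ fun h => hx (hinj _ _ h).1
          rw [Fintype.card_coe, card_Q] at h2
          rw [Fintype.card_subtype_compl, Fintype.card_coe] at h1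
          have h3 := expect_mul_sq_le_sq_mul_sq univ
            (fun a : Q l → Bool => wgt l (fun i => (lay a (z i)).2)) (fun a => α a z ^ 2)
          have h4 := h3.trans (mul_le_mul h1 h2 (expect_nonneg fun _ _ => sq_nonneg _)
            (sq_nonneg _))
          rw [← mul_pow] at h4
          exact (pow_le_pow_iff_left₀ (expect_nonneg fun _ _ =>
            mul_nonneg (wgt_nonneg _ _) (sq_nonneg _)) hR two_ne_zero).1 h4
        · refine le_trans (le_of_eq ?_) hR
          refine expect_eq_zero fun a _ => ?_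
          have : α a z = 0 := sum_eq_zero fun x _ => by
            rw [hφ _ fun h => hz (hinj _ _ h).2, mul_zero]
          rw [this]; simp
    _ = _ := by
        rw [← mul_sum, ← Equiv.sum_comp (spl l I).symm, Fintype.sum_prod_type_right]
        congr 1
        refine sum_congr rfl fun z _ => sum_congr rfl fun x _ => ?_
        have : I.image ((spl l I).symm (x, z)) = univ.image x := by
          ext p
          simp only [mem_image, mem_univ, true_and]
          constructor
          · rintro ⟨i, hi, rfl⟩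
            exact ⟨⟨i, hi⟩, by simp [Equiv.piEquivPiSubtypeProd, hi]⟩
          · rintro ⟨i, rfl⟩
            exact ⟨i.1, i.2, by simp [Equiv.piEquivPiSubtypeProd, i.2]⟩
        rw [this]

lemma step_sum
    (ih : ∀ (B : Type) [Fintype B] [DecidableEq B],
      Bd (GG l B) Function.Injective (rr l (Fintype.card B)))
    (φ : (A → Q l × Bool) → ℝ) (hφ : ∀ x, ¬ Function.Injective x → φ x = 0) :
    (GG (l + 1) A *ᵥ φ) ⬝ᵥ (GG (l + 1) A *ᵥ φ) ≤ ∑ x, (∑ I : Finset A,
      (1 / (2 * 2 ^ l)) ^ I.card * Wb l (Fintype.card A - I.card) *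
      Cw I.card (2 ^ l) (od (I.image x)).card (db (I.image x)).card) * φ x ^ 2 := by
  let ψ : (A → Q l × Bool) → ℝ := fun x => 𝔼 a : Q l → Bool, φ (fun i => lay a (x i))
  let M : Finset A → (Bool → Sw l → Bool) → A → Matrix (Q l × Bool) (Q l × Bool) ℝ :=
    fun I w i => if i ∈ I then SS (Q l) else HH fun b => bf l (w b)
  let D : Finset A → (A → Q l × Bool) → ℝ := fun I y => 𝔼 w, (tens (M I w) *ᵥ ψ) y
  have e1 : GG (l + 1) A *ᵥ φ = ∑ I, D I := by
    funext y
    rw [GG_mulVec, E_split, Finset.sum_apply, expect_comm, ← expect_sum_comm]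
    refine expect_congr rfl fun w _ => ?_
    have : ∀ a, tens (fun _ : A => cen (bf (l + 1) (join a w))) *ᵥ φ =
        (∑ I, tens (M I w)) *ᵥ fun x => φ (fun i => lay a (x i)) := by
      intro a
      have h1 : bf (l + 1) (join a w) = bsum (fun b => bf l (w b)) * lay a := rfl
      rw [h1]
      simp only [cen_step]
      rw [← tens_mul, ← mulVec_mulVec, tens_add]
      congr 1
      funext x
      rw [tens_pm]; rfl
    simp only [this]
    rw [← Finset.sum_apply, ← Matrix.sum_mulVec]
    simp only [mulVec, dotProduct, ψ, mul_expect, expect_sum_comm]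
  have e2 : ∀ I I', I ≠ I' → D I ⬝ᵥ D I' = 0 := by
    intro I I' h
    simp only [dotProduct, D, Finset.expect_mul_expect]
    rw [← expect_sum_comm]
    refine expect_eq_zero fun w _ => ?_
    rw [← expect_sum_comm]
    refine expect_eq_zero fun w' _ => ?_
    have := dot_mulVec_mulVec (tens (M I w)) (tens (M I' w')) ψ ψ
    rw [tens_transpose, tens_mul] at this
    refine this.trans ?_
    obtain ⟨i, hi⟩ : ∃ i, ¬ (i ∈ I ↔ i ∈ I') := not_forall.1 fun hh => h (Finset.ext hh)
    rw [tens_eq_zero _ i, zero_mulVec, dotProduct_zero]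
    by_cases h1 : i ∈ I
    · have h2 : i ∉ I' := fun h2 => hi ⟨fun _ => h2, fun _ => h1⟩
      simp only [M, if_pos h1, if_neg h2, SS_HH]
    · have h2 : i ∈ I' := by
        by_contra h2; exact hi ⟨fun h => (h1 h).elim, fun h => (h2 h).elim⟩
      simp only [M, if_neg h1, if_pos h2, HH_SS]
  have e3 : ∀ I, D I ⬝ᵥ D I ≤ (1 / (2 * 2 ^ l)) ^ I.card * (Wb l (Fintype.card A - I.card) *
      ∑ x, Cw I.card (2 ^ l) (od (I.image x)).card (db (I.image x)).card * φ x ^ 2) := by
    intro I
    let ψI : ({i // ¬ i ∈ I} → Q l × Bool) → ℝ := fun z =>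
      ∑ x : {i // i ∈ I} → Q l × Bool, (∏ i, sg (x i).2) * ψ ((spl l I).symm (x, z))
    have h1 : ∀ y₁ y₂, D I ((spl l I).symm (y₁, y₂)) =
        (∏ i, sg (y₁ i).2) * (1 / (2 * 2 ^ l)) ^ I.card * (KK l _ *ᵥ ψI) y₂ := by
      intro y₁ y₂
      simp only [D, mulVec, dotProduct, KK, ψI, mul_sum, expect_mul, mul_expect]
      simp only [← expect_sum_comm]
      refine expect_congr rfl fun w _ => ?_
      rw [← Equiv.sum_comp (spl l I).symm, Fintype.sum_prod_type_right]
      refine sum_congr rfl fun z _ => sum_congr rfl fun x _ => ?_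
      have h2 : tens (M I w) ((spl l I).symm (y₁, y₂)) ((spl l I).symm (x, z)) =
          (∏ i, SS (Q l) (y₁ i) (x i)) * tens (fun _ => HH fun b => bf l (w b)) y₂ z := by
        simp only [tens]
        rw [← Fintype.prod_subtype_mul_prod_subtype (fun i => i ∈ I)]
        congr 1
        · exact prod_congr (by congr; exact Subsingleton.elim _ _) fun i _ => by
            simp [M, Equiv.piEquivPiSubtypeProd, i.2]
        · exact prod_congr rfl fun i _ => by simp [M, Equiv.piEquivPiSubtypeProd, i.2]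
      have h3 : ∏ i, SS (Q l) (y₁ i) (x i) =
          (∏ i, sg (y₁ i).2) * (∏ i, sg (x i).2) * (1 / (2 * 2 ^ l)) ^ I.card := by
        simp only [SS, card_Q, div_eq_mul_one_div (sg _ * sg _), prod_mul_distrib, prod_const,
          card_univ, Fintype.card_coe]
        push_cast; rfl
      rw [h2, h3]; ring
    have h2 : D I ⬝ᵥ D I = (1 / (2 * 2 ^ l)) ^ I.card * ((KK l _ *ᵥ ψI) ⬝ᵥ (KK l _ *ᵥ ψI)) := by
      rw [dotProduct, ← Equiv.sum_comp (spl l I).symm, Fintype.sum_prod_type]
      simp only [h1]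
      have h3 : ∀ (y₁ : {i // i ∈ I} → Q l × Bool) (c : ℝ),
          (∏ i, sg (y₁ i).2) * (1 / (2 * 2 ^ l)) ^ I.card * c *
          ((∏ i, sg (y₁ i).2) * (1 / (2 * 2 ^ l)) ^ I.card * c) =
          (1 / (2 * 2 ^ l)) ^ I.card * (1 / (2 * 2 ^ l)) ^ I.card * (c * c) := by
        intro y₁ c
        have : (∏ i, sg (y₁ i).2) * (∏ i, sg (y₁ i).2) = 1 := by
          rw [← prod_mul_distrib]; exact prod_eq_one fun i _ => sg_sq _
        linear_combination ((1 / (2 * 2 ^ l)) ^ I.card * (1 / (2 * 2 ^ l)) ^ I.card * (c * c)) * this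
      simp only [h3, ← mul_sum, sum_const, card_univ, nsmul_eq_mul, Fintype.card_fun,
        Fintype.card_prod, Fintype.card_coe, card_Q, Fintype.card_bool, dotProduct]
      have h4 : (((2 ^ l * 2) ^ I.card : ℕ) : ℝ) * (1 / (2 * 2 ^ l)) ^ I.card = 1 := by
        push_cast
        rw [← mul_pow, show (2:ℝ) ^ l * 2 * (1 / (2 * 2 ^ l)) = 1 by field_simp, one_pow]
      linear_combination ((1 / (2 * 2 ^ l)) ^ I.card *
        ∑ y, (KK l _ *ᵥ ψI) y * (KK l _ *ᵥ ψI) y) * h4
    rw [h2]
    refine mul_le_mul_of_nonneg_left ((sector ih _ ψI fun z hz => ?_).trans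
      (psi_bound φ hφ I)) (by positivity)
    refine sum_eq_zero fun x _ => mul_eq_zero_of_right _ (expect_eq_zero fun a _ =>
      hφ _ fun h => hz fun i j e => Subtype.ext (h ?_))
    simp [Equiv.piEquivPiSubtypeProd, i.2, j.2, e]
  rw [e1, sum_dotProduct]
  simp only [dotProduct_sum]
  refine le_trans (sum_le_sum fun I _ => ?_) ((sum_le_sum fun I _ => e3 I).trans (le_of_eq ?_))
  · rw [sum_eq_single I (fun I' _ h => e2 _ _ h.symm) (fun h => (h (mem_univ _)).elim)]
  · simp only [sum_mul, mul_sum, mul_assoc]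
    exact sum_comm

lemma coef_bound (hk : 2 ≤ Fintype.card A) (ht : tt (l + 1) (Fintype.card A) < 2)
    (x : A → Q l × Bool) (hx : Function.Injective x) :
    ∑ I : Finset A, (1 / (2 * 2 ^ l)) ^ I.card * Wb l (Fintype.card A - I.card) *
      Cw I.card (2 ^ l) (od (I.image x)).card (db (I.image x)).card ≤
      1 / 4 * tt (l + 1) (Fintype.card A) ^ Fintype.card A := by
  set k := Fintype.card A with hkdef
  set t := tt (l + 1) k with htdef
  have h8 : t ^ 8 = 2 ^ 28 * k / 2 ^ (l + 1) := tt_pow8 _ _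
  have hk0 : (0:ℝ) < k := by exact_mod_cast (by omega : 0 < k)
  have ht0 : 0 < t := by
    refine lt_of_le_of_ne (tt_nonneg _ _) fun h => ?_
    rw [← h] at h8
    have : (0:ℝ) < 2 ^ 28 * k / 2 ^ (l + 1) := by positivity
    rw [← h8] at this
    norm_num at this
  set N : ℝ := 2 ^ l with hN
  have hN0 : 0 < N := by positivity
  set s₁ := 16 / (N * t) with hs₁
  set s₂ := 4 / (N * t ^ 2) with hs₂
  let F : ℕ → ℕ → ℝ := fun z q => 4 * ((z.factorial * s₁ ^ z) * (q.factorial * s₂ ^ q)) -
    ind (z = 0) * ind (q = 0) * (61 / 20)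
  have hF : ∀ z q, 0 ≤ F z q := by
    intro z q
    by_cases h : z = 0 ∧ q = 0
    · obtain ⟨rfl, rfl⟩ := h
      simp only [F, ind_of]; norm_num
    · simp only [F]
      rw [← ind_and, ind_of_not h, zero_mul, sub_zero]; positivity
  have h1 : ∀ I : Finset A, (1 / (2 * N)) ^ I.card * Wb l (k - I.card) *
      Cw I.card (2 ^ l) (od (I.image x)).card (db (I.image x)).card ≤
      1 / 4 * t ^ k * F (od (I.image x)).card (db (I.image x)).card := by
    intro I
    have a1 := card_od_db (I.image x)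
    rw [card_image_of_injective _ hx] at a1
    have a2 : I.card ≤ k := card_le_univ I
    rw [a1] at a2 ⊢
    generalize (od (I.image x)).card = z at *
    generalize (db (I.image x)).card = q at *
    by_cases h : z = 0 ∧ q = 0
    · obtain ⟨rfl, rfl⟩ := h
      simp only [F, ind_of, Cw, Wb, mul_zero, add_zero, Nat.sub_zero]
      rw [if_neg (by omega), if_neg (by omega)]
      norm_num
      linarith
    · simp only [F]
      rw [← ind_and, ind_of_not h, zero_mul, sub_zero]
      have a3 : Wb l (k - (z + 2 * q)) ≤ t ^ (k - (z + 2 * q)) := by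
        unfold Wb
        split_ifs with c1 c2
        · rw [c1, pow_zero]
        · positivity
        · have := pow_le_pow_left₀ (tt_nonneg _ _)
            (tt_mono (l + 1) (Nat.sub_le k (z + 2 * q))) (k - (z + 2 * q))
          have := pow_nonneg (tt_nonneg (l + 1) (k - (z + 2 * q))) (k - (z + 2 * q))
          linarith
      have a4 := Cw_le (2 ^ l) z q
      have a5 : 0 ≤ Cw (z + 2 * q) (2 ^ l) z q := by unfold Cw; positivity
      refine (mul_le_mul (mul_le_mul_of_nonneg_left a3 (by positivity)) a4 a5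
        (by positivity)).trans (le_of_eq ?_)
      obtain ⟨m, hm⟩ := Nat.exists_eq_add_of_le a2
      rw [hm, Nat.add_sub_cancel_left]
      have b1 : s₁ * t = 32 * (1 / (2 * N)) := by rw [hs₁]; field_simp; norm_num
      have b2 : s₂ * t ^ 2 = 16 * N * (1 / (2 * N)) ^ 2 := by rw [hs₂]; field_simp; norm_num
      have b3 : ((2 ^ l : ℕ) : ℝ) = N := by push_cast; rfl
      rw [b3]
      calc (1 / (2 * N)) ^ (z + 2 * q) * t ^ m * (32 ^ z * z.factorial * ((16 * N) ^ q * q.factorial))
          = t ^ m * z.factorial * q.factorial * (32 * (1 / (2 * N))) ^ z *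
            (16 * N * (1 / (2 * N)) ^ 2) ^ q := by
            rw [pow_add, pow_mul, mul_pow 32, mul_pow (16 * N)]; ring
        _ = _ := by
            rw [← b1, ← b2, pow_add, pow_add, pow_mul, mul_pow, mul_pow]; ring
  refine (sum_le_sum fun I _ => h1 I).trans ?_
  rw [← mul_sum]
  refine mul_le_of_le_one_right (by positivity) ((sum_subsets_le x hx F hF).trans ?_)
  have hkN : k / N = t ^ 8 / 2 ^ 27 := by rw [h8, pow_succ 2 l, ← hN]; field_simp
  have t7 : t ^ 7 ≤ 2 ^ 7 := pow_le_pow_left₀ ht0.le ht.le _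
  have t6 : t ^ 6 ≤ 2 ^ 6 := pow_le_pow_left₀ ht0.le ht.le _
  have c1 : k * s₁ ≤ 1 / 1000 := by
    have : k * s₁ = 16 * (k / N) / t := by rw [hs₁]; field_simp
    rw [this, hkN, show 16 * (t ^ 8 / 2 ^ 27) / t = 16 * t ^ 7 / 2 ^ 27 by field_simp]
    linarith
  have c2 : k * s₂ ≤ 1 / 1000 := by
    have : k * s₂ = 4 * (k / N) / t ^ 2 := by rw [hs₂]; field_simp
    rw [this, hkN, show 4 * (t ^ 8 / 2 ^ 27) / t ^ 2 = 4 * t ^ 6 / 2 ^ 27 by field_simp]
    linarith
  have d1 := sum_fact_le (univ : Finset A) (k := k) le_rfl (t := s₁) (by positivity) (by linarith)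
  have d2 := sum_fact_le (univ.image fun i => (x i).1) (k := k) card_image_le (t := s₂)
    (by positivity) (by linarith)
  rw [powerset_univ] at d1
  simp only [F, sum_sub_distrib, ← mul_sum, ← sum_mul]
  have d3 : ∑ S : Finset A, ind (S.card = 0) = 1 := by
    simp only [card_eq_zero]
    simpa using sum_ind_eq' (∅ : Finset A) (fun _ => 1)
  have d4 : ∑ D ∈ (univ.image fun i => (x i).1).powerset, ind (D.card = 0) = 1 := by
    rw [sum_eq_single ∅ (fun D _ h => ind_of_not fun e => h (card_eq_zero.1 e))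
      (fun h => (h (empty_mem_powerset _)).elim), ind_of card_empty]
  rw [d3, d4]
  have d5 := mul_le_mul d1 d2 (sum_nonneg fun _ _ => by positivity) (by positivity)
  have d6 : (1 + 2 * (k * s₁)) * (1 + 2 * (k * s₂)) ≤ (1 + 2 / 1000) * (1 + 2 / 1000) :=
    mul_le_mul (by linarith) (by linarith) (by positivity) (by norm_num)
  linarith

theorem low_bd : ∀ (l : ℕ) (B : Type) [Fintype B] [DecidableEq B],
    Bd (GG l B) Function.Injective (rr l (Fintype.card B)) := by
  intro l
  induction l with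
  | zero =>
    intro B _ _
    by_cases h0 : Fintype.card B = 0
    · rw [rr, if_pos h0]; exact GG_triv _ _ _
    by_cases h1 : Fintype.card B = 1
    · intro φ _; rw [GG_one _ _ h1, rr, if_neg h0, if_pos h1]; simp
    intro φ hφ
    have : φ = 0 := funext fun x => hφ x fun hx => by
      have := Fintype.card_le_of_injective x hx
      rw [card_Q] at this
      omega
    rw [this]; simp
  | succ l ih =>
    intro B _ _
    by_cases h0 : Fintype.card B = 0
    · rw [rr, if_pos h0]; exact GG_triv _ _ _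
    by_cases h1 : Fintype.card B = 1
    · intro φ _; rw [GG_one _ _ h1, rr, if_neg h0, if_pos h1]; simp
    rw [rr, if_neg h0, if_neg h1]
    intro φ hφ
    by_cases ht : tt (l + 1) (Fintype.card B) < 2
    · refine (step_sum ih φ hφ).trans ?_
      rw [dotProduct, mul_sum]
      refine sum_le_sum fun x _ => ?_
      rw [← sq]
      by_cases hx : Function.Injective x
      · exact mul_le_mul_of_nonneg_right (coef_bound (by omega) ht x hx) (sq_nonneg _)
      · rw [hφ x hx]; simp
    · refine (GG_triv _ _ _ φ hφ).trans (mul_le_mul_of_nonneg_right ?_ (dot_self_nonneg _))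
      have h2 : (2:ℝ) ^ 2 ≤ tt (l + 1) (Fintype.card B) ^ Fintype.card B :=
        (pow_le_pow_right₀ (by norm_num) (by omega)).trans
          (pow_le_pow_left₀ (by norm_num) (not_lt.1 ht) _)
      linarith

theorem low (l : ℕ) (φ : (A → Q l) → ℝ) (hφ : ∀ x, ¬ Function.Injective x → φ x = 0)
    (h0 : ∀ i x, ∑ z, φ (Function.update x i z) = 0) :
    ∑ y : A → Q l, (𝔼 ω, φ (fun i => (bf l ω)⁻¹ (y i))) ^ 2 ≤
      rr l (Fintype.card A) * ∑ x, φ x ^ 2 := by
  have := low_bd l A φ hφ
  simpa only [dotProduct, GG_mulVec, tens_cen_of_zero _ φ h0, tens_pm, ← sq] using this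

end Vale.Agent.P162
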