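import Vale.Agent.P162.Doeblin

/-! Trace bounds. -/

namespace Vale.Agent.P162
open Finset Equiv Matrix
open scoped BigOperators

variable {s : ℕ}

lemma star_ben {κ : Perm (Q s) → ℝ} (h : star κ = κ) (j : ℕ) : star (ben κ j) = ben κ j := by
  rw [ben, star_conv, star_conv, star_star, ← Bl_star, h, conv_assoc]

lemma Pr.Bl {κ : Perm (Q s) → ℝ} (h : Pr κ) : ∀ j, Pr (Bl κ j)
  | 0 => h
  | j+1 => (h.Bl j).bs

lemma Pr.ben {κ : Perm (Q s) → ℝ} (h : Pr κ) (j : ℕ) : Pr (ben κ j) :=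
  (nu_Pr _).star.conv ((h.Bl j).conv (nu_Pr _))

lemma pr_eq (κ : Perm (Q s) → ℝ) (j : ℕ) {A : Type} (x x' : A → Q (s + j)) :
    pr κ j x x' = ev (ben κ j) fun g => ind (∀ i, g (x i) = x' i) := by
  rw [ev_ben, pr]

theorem trace_ben {κ : Perm (Q s) → ℝ} (hκ : Pr κ) (hs' : star κ = κ) (full : Prop) {c₀ Λ : ℝ}
    (hc : 0 < c₀) (hΛ : 0 < Λ)
    (hbase : ∀ (A : Type) [Fintype A] (x x' : A → Q (s + 0)), Good full x →
      ((2:ℝ) ^ s) ^ Fintype.card A * pr κ 0 x x' ≤ c₀ * Λ ^ Fintype.card A)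
    (j : ℕ) (hs : j ≠ 0 → 48 ≤ s) (A : Type) [Fintype A] [DecidableEq A]
    (Y : Type) [Fintype Y] [DecidableEq Y] [MulAction (Perm (Q (s + j))) Y]
    (e : Y → A → Q (s + j)) (he : Function.Injective e) (hg : ∀ y, Good full (e y))
    (hq : ∀ (g : Perm (Q (s + j))) y i, e (g • y) i = g (e y i)) :
    trace (mat Y (ben κ j) ^ 128) ≤ Fintype.card Y *
      (c₀ ^ 2 ^ j * Λ ^ Fintype.card A * Real.exp (Fintype.card A * (32 * (1/2) ^ (s / 16))) /
        ((2:ℝ) ^ (s + j)) ^ Fintype.card A *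
      Real.exp (127 * (2 ^ (s + j) * (32 * (1/2) ^ (s / 16))))) := by
  have hsym : ∀ x y, mat Y (ben κ j) x y = mat Y (ben κ j) y x := fun x y => by
    nth_rewrite 1 [← star_ben hs', ← mat_star]; rfl
  have h1 := young (mat Y (ben κ j)) (mat_nonneg (hκ.ben j).1) hsym
    (R := (c₀ ^ 2 ^ j * Λ ^ Fintype.card A * Real.exp (Fintype.card A * (32 * (1/2) ^ (s / 16))) /
        ((2:ℝ) ^ (s + j)) ^ Fintype.card A) ^ (1 / 127 : ℝ) *
      Real.exp (2 ^ (s + j) * (32 * (1/2) ^ (s / 16)))) (by positivity) (fun y => by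
      refine le_trans ?_ (dens_row hκ.1 hκ.2 full hc.le hΛ.le hbase j hs A (e y) (hg y))
      have : ∀ y', mat Y (ben κ j) y y' = pr κ j (e y) (e y') := by
        intro y'
        rw [hsym, pr_eq, mat]
        congr 1
        funext g
        exact ind_congr ⟨fun h i => by rw [← h, hq], fun h => he (funext fun i => by rw [hq, h])⟩
      simp only [this]
      rw [← sum_image (f := fun x' => pr κ j (e y) x' ^ (128 / 127 : ℝ)) fun _ _ _ _ h => he h]
      exact sum_le_sum_of_subset_of_nonneg (subset_univ _) fun _ _ _ =>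
        Real.rpow_nonneg (pr_nonneg hκ.1 _ _ _) _)
  refine h1.trans (le_of_eq ?_)
  rw [mul_pow, ← Real.rpow_natCast (_ ^ (1 / 127 : ℝ)), ← Real.rpow_mul (by positivity),
    ← Real.exp_nat_mul]
  norm_num

lemma ev_le_one {G : Type} [Fintype G] {μ : G → ℝ} (h : Pr μ) (p : G → Prop) :
    ev μ (fun g => ind (p g)) ≤ 1 := by
  rw [← h.2]
  exact sum_le_sum fun g _ => mul_le_of_le_one_right (h.1 g) (ind_le_one _)

lemma HS_triv {G : Type} [Group G] [Fintype G] {Y : Type} [Fintype Y] [MulAction G Y]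
    {μ : G → ℝ} (h : Pr μ) : trace ((mat Y μ)ᵀ * mat Y μ) ≤ Fintype.card Y := by
  simp only [trace, diag_apply, Matrix.mul_apply, transpose_apply]
  rw [← card_univ, card_eq_sum_ones]
  push_cast
  refine sum_le_sum fun e _ => ?_
  refine (sum_le_sum fun y _ => mul_le_of_le_one_right (mat_nonneg h.1 _ _) (ev_le_one h _)).trans
    (le_of_eq ?_)
  simp only [mat, ev]
  rw [sum_comm, ← h.2]
  refine sum_congr rfl fun g _ => ?_
  have := sum_ind_eq (g • e) (fun _ => (1:ℝ))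
  simp only [mul_one] at this
  rw [← mul_sum, this, mul_one]

lemma card_emb_le (k d : ℕ) : (Fintype.card (Fin k ↪ Q d) : ℝ) ≤ ((2:ℝ) ^ d) ^ k := by
  rw [Fintype.card_embedding_eq, card_Q, Fintype.card_fin]
  exact_mod_cast Nat.descFactorial_le_pow _ _

lemma HS_nu_aux (s j k : ℕ) (hs : 48 ≤ s) :
    trace ((mat (Fin k ↪ Q (s + j)) (nu (s + j)) ^ 128)ᵀ *
      mat (Fin k ↪ Q (s + j)) (nu (s + j)) ^ 128) ≤ ((2:ℝ) ^ s) ^ k *
      Real.exp (k * (32 * (1/2) ^ (s / 16)) + 127 * (2 ^ (s + j) * (32 * (1/2) ^ (s / 16)))) := by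
  refine (dyson 7 _).trans ?_
  have e : conv (star (nu (s + j))) (nu (s + j)) = ben (cpow (nu s) 0) j := by
    rw [ben, Bl_one _ j (nu (s + j)), cpow_zero_conv]
  rw [mat_star, ← mat_conv, e]
  refine (trace_ben ((nu_Pr s).cpow 0) (by funext g; simp [star, cpow]) False one_pos
    (Λ := 2 ^ s) (by positivity) (fun A _ x x' _ => by
      rw [one_mul, pr_eq]
      exact mul_le_of_le_one_right (by positivity) (ev_le_one (((nu_Pr s).cpow 0).ben 0) _))
    j (fun _ => hs) (Fin k) (Fin k ↪ Q (s + j)) (fun y => y) DFunLike.coe_injective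
    (fun y => ⟨y.injective, False.elim⟩) (fun _ _ _ => rfl)).trans ?_
  refine (mul_le_mul_of_nonneg_right (card_emb_le _ _) (by positivity)).trans (le_of_eq ?_)
  rw [Fintype.card_fin, Real.exp_add, one_pow]
  field_simp

/-- the constant -/
noncomputable def C0 : ℝ := 8 ^ 16 * Real.exp 4096

theorem HS_nu (d k : ℕ) (hk : 0 < k) (hkn : k ≤ 2 ^ d) :
    trace ((mat (Fin k ↪ Q d) (nu d) ^ 128)ᵀ * mat (Fin k ↪ Q d) (nu d) ^ 128) ≤
      ((2 ^ d / k) ^ 16 * C0) ^ k := by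
  obtain ⟨t, ht⟩ : ∃ t, t = Nat.log 2 (2 ^ d / k) + 3 := ⟨_, rfl⟩
  have hk0 : (0:ℝ) < k := by exact_mod_cast hk
  have h1 : (2:ℝ) ^ t ≤ 8 * (2 ^ d / k) := by
    have a1 : 2 ^ Nat.log 2 (2 ^ d / k) ≤ 2 ^ d / k :=
      Nat.pow_log_le_self _ (Nat.div_pos hkn hk).ne'
    have a2 : ((2 ^ d / k : ℕ) : ℝ) ≤ (2 ^ d : ℕ) / k := Nat.cast_div_le
    have a3 : ((2 ^ Nat.log 2 (2 ^ d / k) : ℕ) : ℝ) ≤ ((2 ^ d / k : ℕ) : ℝ) := by exact_mod_cast a1
    push_cast at a2 a3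
    rw [ht, pow_add]; linarith
  have h2 : (2:ℝ) ^ d ≤ k * 2 ^ t := by
    have a1 : 2 ^ d / k < 2 ^ (Nat.log 2 (2 ^ d / k) + 1) := Nat.lt_pow_succ_log_self (by norm_num) _
    have a2 : 2 ^ d < k * (2 ^ d / k + 1) := Nat.lt_mul_div_succ _ hk
    have a3 : 2 ^ (Nat.log 2 (2 ^ d / k) + 1) ≤ 2 ^ t := Nat.pow_le_pow_right (by norm_num) (by omega)
    have a4 : 2 ^ d ≤ k * 2 ^ t := a2.le.trans (Nat.mul_le_mul_left _ (by omega))
    exact_mod_cast a4
  have h3 : ((2:ℝ) ^ (16 * t)) ^ k * Real.exp (k * 4096) ≤ ((2 ^ d / k) ^ 16 * C0) ^ k := by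
    rw [Real.exp_nat_mul, ← mul_pow]
    refine pow_le_pow_left₀ (by positivity) ?_ _
    rw [C0, ← mul_assoc, ← mul_pow, mul_comm 16, pow_mul, mul_comm _ (8:ℝ)]
    gcongr
  refine le_trans ?_ h3
  by_cases h : 16 * t ≤ d
  · have h48 : 48 ≤ 16 * t := by omega
    clear ht
    obtain ⟨j, rfl⟩ := Nat.exists_eq_add_of_le h
    refine (HS_nu_aux _ j k h48).trans (mul_le_mul_of_nonneg_left
      (Real.exp_le_exp.2 ?_) (by positivity))
    rw [Nat.mul_div_cancel_left _ (by norm_num)]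
    have a1 : (1/2 : ℝ) ^ t ≤ 1 := pow_le_one₀ (by norm_num) (by norm_num)
    have a2 : (2:ℝ) ^ (16 * t + j) * (1/2) ^ t ≤ k := by
      rw [one_div, inv_pow, ← div_eq_mul_inv, div_le_iff₀ (by positivity)]; exact h2
    nlinarith
  · rw [← mat_cpow]
    refine (HS_triv ((nu_Pr d).cpow _)).trans ((card_emb_le _ _).trans ?_)
    refine le_trans (pow_le_pow_left₀ (by positivity) (pow_le_pow_right₀ (by norm_num)
      (by omega : d ≤ 16 * t)) _) (le_mul_of_one_le_right (by positivity) ?_)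
    exact Real.one_le_exp (by positivity)

lemma fact_ratio (s : ℕ) : ∀ j, ((2 ^ (s + j)).factorial : ℝ) / (2 ^ (s + j)) ^ 2 ^ (s + j) ≤
    ((2 ^ s).factorial / (2 ^ s) ^ 2 ^ s) ^ 2 ^ j
  | 0 => by simp
  | j+1 => by
    have ih := fact_ratio s j
    rw [pow_succ 2 j, pow_mul]
    refine le_trans ?_ (pow_le_pow_left₀ (by positivity) ih 2)
    have e1 : 2 ^ (s + (j + 1)) = 2 ^ (s + j) + 2 ^ (s + j) := by rw [← add_assoc, pow_succ]; ring
    have e2 : (2:ℝ) ^ (s + (j + 1)) = 2 * 2 ^ (s + j) := by rw [← add_assoc, pow_succ]; ring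
    rw [e1, e2]
    have hx : (0:ℝ) < 2 ^ (s + j) := by positivity
    generalize (2:ℝ) ^ (s + j) = x at hx
    generalize 2 ^ (s + j) = N
    have h1 : (N + N).factorial ≤ 2 ^ (N + N) * (N.factorial * N.factorial) := by
      rw [← Nat.add_choose_mul_factorial_mul_factorial, mul_assoc]
      exact Nat.mul_le_mul_right _ (Nat.choose_le_two_pow _ _)
    have h2 : ((N + N).factorial : ℝ) ≤ 2 ^ (N + N) * (N.factorial * N.factorial) := by
      exact_mod_cast h1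
    rw [div_le_iff₀ (by positivity)]
    refine h2.trans (le_of_eq ?_)
    rw [mul_pow, pow_add x]
    field_simp

end Vale.Agent.P162
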