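import Vale.Agent.P162.Main1

/-! The operator norm on the high degree part. -/

namespace Vale.Agent.P162
open Finset Equiv Matrix
open scoped BigOperators

lemma lawLay_left {Y : Type} [Fintype Y] [DecidableEq Y] (w : Perm (Y × Bool) → ℝ) (a : Y → Bool)
    (g : Perm (Y × Bool)) :
    conv (star (lawLay Y)) w (lay a * g) = conv (star (lawLay Y)) w g := by
  have h : ∀ g, conv (star (lawLay Y)) w g = 𝔼 a' : Y → Bool, w (lay a' * g) := fun g => by
    have := ev_star (lawLay Y) fun h => w (h⁻¹ * g)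
    refine Eq.trans this ?_
    rw [lawLay, ev_law]
    simp only [inv_inv]
  rw [h, h]
  let e : (Y → Bool) ≃ (Y → Bool) := Function.Involutive.toPerm
    (fun a' u => xor (a' u) (a u)) (fun a' => by ext u; simp)
  refine Fintype.expect_equiv e _ _ fun a' => ?_
  rw [← mul_assoc, lay_mul]; rfl

variable {s : ℕ}

/-- the inner law -/
noncomputable def kin (s t : ℕ) : Perm (Q s) → ℝ := cpow (conv (nu s) (star (nu s))) t

lemma kin_Pr (s t : ℕ) : Pr (kin s t) := ((nu_Pr s).conv (nu_Pr s).star).cpow t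

lemma star_kin (s t : ℕ) : star (kin s t) = kin s t :=
  star_cpow (by rw [star_conv, star_star]) t

lemma ben_kin (s t j : ℕ) : ben (kin s t) j = conv (star (outL s j))
    (conv (cpow (Bl (conv (star (nu s)) (nu s)) j) (t + 1)) (outL s j)) := by
  rw [← Bl_cpow, ← cpow_shift, Bl_conv, Bl_conv, ben, nu_split, star_conv, ← Bl_star, kin]
  simp only [conv_assoc]

lemma ben_kin_zero (s t : ℕ) : ben (kin s t) 0 = cpow (conv (star (nu s)) (nu s)) (t + 1) :=
  cpow_shift _ _ _

lemma trace_high (s t j : ℕ) (hs : 48 ≤ s)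
    (ht : ∀ g, cpow (conv (star (nu s)) (nu s)) (t + 1) g ≤ 2 / (2 ^ s).factorial) :
    trace (mat (Perm (Q (s + j))) (ben (kin s t) j) ^ 128) ≤
      Real.exp (2 ^ (s + j) * (4097 * (1/2) ^ (s / 16))) := by
  have hf : (0:ℝ) < (2 ^ s).factorial := by exact_mod_cast Nat.factorial_pos _
  refine (trace_ben (kin_Pr s t) (star_kin s t) True
    (c₀ := 2 * ((2 ^ s) ^ 2 ^ s / (2 ^ s).factorial)) (by positivity) one_pos
    (fun A _ x x' hx => ?_) j (fun _ => hs) (Q (s + j)) (Perm (Q (s + j))) (fun y => y)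
    DFunLike.coe_injective (fun y => ⟨y.injective, fun _ => y.surjective⟩)
    (fun _ _ _ => rfl)).trans ?_
  · have hc : Fintype.card A = 2 ^ s := by
      rw [Fintype.card_of_bijective ⟨hx.1, hx.2 trivial⟩, card_Q]; rfl
    rw [hc, one_pow, mul_one, pr_eq, ben_kin_zero, mul_div_assoc', mul_comm (2:ℝ), mul_div_assoc]
    refine mul_le_mul_of_nonneg_left ?_ (by positivity)
    refine (sum_le_sum fun g _ => mul_le_mul_of_nonneg_right (ht g) (ind_nonneg _)).trans ?_
    rw [← mul_sum]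
    refine mul_le_of_le_one_right (by positivity) ?_
    classical
    rw [sum_ind]
    norm_cast
    refine card_le_one.2 fun g hg g' hg' => Equiv.ext fun y => ?_
    obtain ⟨i, rfl⟩ := hx.2 trivial y
    rw [(mem_filter.1 hg).2 i, (mem_filter.1 hg').2 i]
  · rw [Fintype.card_perm, card_Q, one_pow, mul_one, mul_pow]
    have h1 := fact_ratio s j
    have h2 : (2:ℝ) ^ 2 ^ j ≤ Real.exp (2 ^ (s + j) * (1/2) ^ (s / 16)) := by
      have a1 : (2:ℝ) ^ j ≤ 2 ^ (s + j) * (1/2) ^ (s / 16) := by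
        rw [one_div, inv_pow, ← div_eq_mul_inv, le_div_iff₀ (by positivity), ← pow_add]
        exact pow_le_pow_right₀ (by norm_num) (by omega)
      refine le_trans ?_ (Real.exp_le_exp.2 a1)
      have : Real.exp (2 ^ j) = Real.exp 1 ^ 2 ^ j := by
        rw [← Real.exp_nat_mul]; simp
      rw [this]
      exact pow_le_pow_left₀ (by norm_num) (by linarith [Real.add_one_le_exp 1]) _
    have h3 : ((2 ^ (s + j)).factorial : ℝ) / (2 ^ (s + j)) ^ 2 ^ (s + j) *
        ((2 ^ s) ^ 2 ^ s / (2 ^ s).factorial) ^ 2 ^ j ≤ 1 := by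
      refine (mul_le_mul_of_nonneg_right h1 (by positivity)).trans (le_of_eq ?_)
      rw [← mul_pow, div_mul_div_cancel₀ (by positivity), div_self hf.ne', one_pow]
    have h4 := mul_le_mul h3 h2 (by positivity) (by norm_num)
    have e : (2:ℝ) ^ (s + j) * (4097 * (1/2) ^ (s / 16)) = 2 ^ (s + j) * (1/2) ^ (s / 16) +
        (((2 ^ (s + j) : ℕ) : ℝ) * (32 * (1/2) ^ (s / 16)) +
          127 * (2 ^ (s + j) * (32 * (1/2) ^ (s / 16)))) := by push_cast; ring
    rw [e, Real.exp_add, Real.exp_add]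
    refine le_trans (le_of_eq ?_) (mul_le_mul_of_nonneg_right (h4.trans (one_mul _).le)
      (by positivity))
    ring

theorem high_bound (s : ℕ) (hs : 60 ≤ s) (hs2 : (4097:ℝ) * (1/2) ^ (s / 16) ≤ (1/2) ^ 60) :
    ∃ c : ℝ, 0 < c ∧ ∀ j, ∀ v ∈ perp (UU (Q (s + (j + 1))) (2 ^ (s + (j + 1) - 56))),
      cv (nu (s + (j + 1))) v ⬝ᵥ cv (nu (s + (j + 1))) v ≤
        Real.exp (-(c * 2 ^ (s + (j + 1)))) * (v ⬝ᵥ v) := by
  obtain ⟨a, ha⟩ := doeblin_Q s ((nu_Pr s).star.conv (nu_Pr s)) (ben_pos s)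
    (ε := 1 / (2 ^ s).factorial) (by positivity)
  obtain ⟨t, ht⟩ : ∃ t, 2 ^ a = t + 1 := Nat.exists_eq_succ_of_ne_zero (by positivity)
  have hb : ∀ g, cpow (conv (star (nu s)) (nu s)) (t + 1) g ≤ 2 / (2 ^ s).factorial := by
    intro g
    have := (abs_le.1 (ha (t + 1) (ht ▸ Nat.lt_two_pow_self.le) g)).2
    rw [Fintype.card_perm, card_Q] at this
    linarith [show (2:ℝ) / (2 ^ s).factorial = 1 / (2 ^ s).factorial + 1 / (2 ^ s).factorial by ring]
  refine ⟨(1/2) ^ 67 / 2 ^ a, by positivity, fun j => ?_⟩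
  set d := s + (j + 1) with hd
  have hsb := star_ben (star_kin s t) (j + 1)
  have h1 := eig_bound (cv (ben (kin s t) (j + 1))) (fun v w => by rw [cv_dot, hsb])
    (perp (UU (Q d) (2 ^ (d - 56)))) (cv_perp _) (Real.exp (-((1/2) ^ 67 * 2 ^ d))) (by
      intro μ v hv hv0 hμ
      by_cases hμ0 : μ ≤ 0
      · exact hμ0.trans (Real.exp_pos _).le
      have hμ0 : 0 < μ := not_le.1 hμ0
      let W := perp (UU (Q d) (2 ^ (d - 56))) ⊓ Module.End.eigenspace (cv (ben (kin s t) (j + 1))) μ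
      have hW : ∀ w, w ∈ W ↔ w ∈ perp (UU (Q d) (2 ^ (d - 56))) ∧
          cv (ben (kin s t) (j + 1)) w = μ • w := fun w =>
        and_congr_right fun _ => Module.End.mem_eigenspace_iff
      obtain ⟨e, he⟩ : ∃ e, s + j = e + 59 := ⟨s + j - 59, by omega⟩
      have e1 : 2 ^ (d - 56) = 16 * 2 ^ e := by
        rw [show d - 56 = 4 + e by omega, pow_add]; norm_num
      have e2 : Fintype.card (Q (s + j)) = 2 ^ 59 * 2 ^ e := by rw [card_Q, he]; ring
      have e3 : 0 < 2 ^ e := by positivity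
      have h2 := high_mult (Y := Q (s + j)) W
        (fun h w hw => (hW _).2 ⟨Rt_perp h w ((hW _).1 hw).1, by
          rw [cv_Rt, ((hW _).1 hw).2, map_smul]⟩)
        (2 ^ (d - 56)) (4 * 2 ^ e) (by omega) (fun w hw => ((hW _).1 hw).1)
        (fun w hw u g => by
          have b1 := ((hW _).1 hw).2
          have b2 : ben (kin s t) (j + 1) = conv (G := Perm (Q (s + j) × Bool))
              (star (lawLay (Q (s + j)))) (conv (star (bs (nu (s + j))))
                (conv (Bl (kin s t) (j + 1)) (nu (s + j + 1)))) := by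
            rw [← conv_assoc, ← star_conv, ← nu_succ]; rfl
          rw [cv_apply, b2] at b1
          have b3 := (conv_assoc _ _ w).symm.trans b1
          have b4 := lawLay_left (conv (conv (star (bs (nu (s + j))))
                (conv (Bl (kin s t) (j + 1)) (nu (s + j + 1)))) w) (sw u) g
          rw [b3] at b4
          exact mul_left_cancel₀ hμ0.ne' b4)
        ⟨v, (hW _).2 ⟨hv, hμ⟩, hv0⟩ (by omega) (by omega) (by omega)
        (mat _ (ben (kin s t) (j + 1)) ^ 64) (μ ^ 64) (fun w hw => by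
          have b1 : mat _ (ben (kin s t) (j + 1)) *ᵥ w = μ • w := ((hW _).1 hw).2
          generalize 64 = n
          induction n with
          | zero => simp
          | succ n ih => rw [pow_succ, ← mulVec_mulVec, b1, mulVec_smul, ih, smul_smul, pow_succ'])
      have h3 := trace_high s t (j + 1) (by omega) hb
      erw [transpose_pow, mat_star, hsb, ← pow_add] at h2
      have h4 := h2.trans h3
      have h5 : Real.exp ((1/2) ^ 59 * 2 ^ d) ≤ 2 ^ (4 * 2 ^ e) := by
        have : ((1/2) ^ 59 * 2 ^ d : ℝ) = ((4 * 2 ^ e : ℕ) : ℝ) * (1 / 2) := by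
          rw [show d = e + 60 by omega]; push_cast; ring
        rw [this, Real.exp_nat_mul]
        refine pow_le_pow_left₀ (by positivity) ?_ _
        have h : Real.exp (1 / 2) ^ 2 = Real.exp 1 := by rw [← Real.exp_nat_mul]; norm_num
        have := Real.exp_one_lt_d9
        by_contra hc
        nlinarith
      have h6 : μ ^ 128 ≤ Real.exp (-((1/2) ^ 67 * 2 ^ d)) ^ 128 := by
        rw [← Real.exp_nat_mul]
        refine le_of_mul_le_mul_right ?_ (Real.exp_pos ((1/2) ^ 59 * 2 ^ d))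
        rw [← Real.exp_add]
        refine (mul_le_mul_of_nonneg_left h5 (by positivity)).trans ?_
        rw [← pow_mul] at h4
        refine h4.trans (Real.exp_le_exp.2 ?_)
        have := mul_le_mul_of_nonneg_left hs2 (show (0:ℝ) ≤ 2 ^ d by positivity)
        push_cast
        linarith
      exact (pow_le_pow_iff_left₀ hμ0.le (Real.exp_pos _).le (by norm_num)).1 h6)
  intro v hv
  have h2 := h1 v hv
  set w := cv (outL s (j + 1)) v with hw
  set β := conv (star (nu s)) (nu s) with hβ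
  have h3 : cv (nu d) v ⬝ᵥ cv (nu d) v = w ⬝ᵥ (mat _ (Bl β (j + 1)) *ᵥ w) := by
    have := nu_split (s := s) (j + 1)
    rw [show nu d = _ from this, ← cv_cv, ← hw, cv_dot, dotProduct_comm, hβ, Bl_conv, Bl_star,
      cv_cv, dotProduct_comm]; rfl
  have h4 := jensen_pow (mat _ (Bl β (j + 1))) (by
    rw [mat_star, ← Bl_star, hβ, star_conv, star_star]) w (h3 ▸ dot_self_nonneg _) a
  have h5 : w ⬝ᵥ ((mat _ (Bl β (j + 1)) ^ 2 ^ a) *ᵥ w) = v ⬝ᵥ cv (ben (kin s t) (j + 1)) v := by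
    rw [ben_kin, ← cv_cv, ← cv_cv, ← cv_dot, ← mat_cpow, ht]; rfl
  have h6 : w ⬝ᵥ w ≤ v ⬝ᵥ v := by rw [hw, cv_apply]; exact conv_contr (outL_Pr _) v
  rw [← h3, h5] at h4
  have hv0 := dot_self_nonneg v
  have h7 : (cv (nu d) v ⬝ᵥ cv (nu d) v) ^ 2 ^ a ≤
      (Real.exp (-((1/2) ^ 67 / 2 ^ a * 2 ^ d)) * (v ⬝ᵥ v)) ^ 2 ^ a := by
    refine h4.trans ((mul_le_mul_of_nonneg_left h2 (pow_nonneg (dot_self_nonneg _) _)).trans
      ((mul_le_mul_of_nonneg_right (pow_le_pow_left₀ (dot_self_nonneg _) h6 _)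
        (by positivity)).trans (le_of_eq ?_)))
    rw [mul_pow, ← Real.exp_nat_mul]
    have : ((2 ^ a : ℕ) : ℝ) * -((1/2) ^ 67 / 2 ^ a * 2 ^ d) = -((1/2) ^ 67 * 2 ^ d) := by
      push_cast; field_simp
    rw [this, ht, Nat.add_sub_cancel, pow_succ]
    ring
  exact (pow_le_pow_iff_left₀ (dot_self_nonneg _) (mul_nonneg (Real.exp_pos _).le hv0)
    (by positivity)).1 h7

end Vale.Agent.P162
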