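import Vale.Agent.P162.Main2
import Vale.Agent.P162.Low4
import Vale.Agent.P162.Link

/-! Assembly. -/

namespace Vale.Agent.P162
open Finset Equiv Matrix
open scoped BigOperators

lemma tv_of_l2 {G : Type} [Fintype G] (u : G → ℝ)
    (h : (Fintype.card G : ℝ) * ∑ g, (u g - 1 / Fintype.card G) ^ 2 ≤ 1 / 4) : tvUnif u ≤ 1 / 4 := by
  have h1 := sum_mul_sq_le_sq_mul_sq univ (fun _ : G => (1:ℝ))
    (fun g => |u g - 1 / Fintype.card G|)
  simp only [one_mul, one_pow, sum_const, card_univ, nsmul_eq_mul, mul_one, sq_abs] at h1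
  have h2 : ∑ g, |u g - 1 / Fintype.card G| ≤ 1 / 2 := by
    by_contra hc
    nlinarith
  rw [tvUnif]; linarith

lemma C0_pos : 0 < C0 := by unfold C0; positivity

lemma choose_le_exp (n k : ℕ) (hk : 0 < k) :
    (n.choose k : ℝ) ≤ (n / k * Real.exp 1) ^ k := by
  have h1 : (n.choose k : ℝ) ≤ n ^ k / k.factorial := by
    simpa using Nat.choose_le_pow_div (α := ℝ) k n
  have h2 := Real.pow_div_factorial_le_exp (k:ℝ) (Nat.cast_nonneg k) k
  have hk0 : (0:ℝ) < k := by exact_mod_cast hk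
  refine h1.trans ?_
  rw [mul_pow, ← Real.exp_nat_mul, mul_one]
  refine le_trans (le_of_eq ?_) (mul_le_mul_of_nonneg_left h2 (by positivity))
  rw [div_pow]; field_simp

lemma low_term (d k R : ℕ) (hk : 0 < k) (hkd : 2 ^ 56 * k ≤ 2 ^ d)
    (hR : Real.exp 1 * C0 * (1/2) ^ R ≤ 1 / 9) :
    rr d k ^ (16 * (R + 17)) * ((2 ^ d).choose k * ((2 ^ d / k) ^ 16 * C0) ^ k) ≤ (1 / 9) ^ k := by
  have hk0 : (0:ℝ) < k := by exact_mod_cast hk
  set x : ℝ := 2 ^ d / k with hx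
  have hx1 : (2:ℝ) ^ 56 ≤ x := by
    rw [hx, le_div_iff₀ hk0]; exact_mod_cast hkd
  have hx0 : 0 < x := by positivity
  have h1 : rr d k ≤ tt d k ^ k := by
    have := pow_nonneg (tt_nonneg d k) k
    unfold rr
    rw [if_neg hk.ne']
    split_ifs <;> linarith
  have h2 : tt d k ^ 16 ≤ 1 / x := by
    rw [show 16 = 8 * 2 by norm_num, pow_mul, tt_pow8, mul_div_assoc,
      show (k:ℝ) / 2 ^ d = 1 / x by rw [hx]; field_simp, mul_pow, le_div_iff₀ hx0]
    field_simp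
    linarith
  have h3 : rr d k ^ (16 * (R + 17)) ≤ ((1 / x) ^ (R + 17)) ^ k := by
    refine (pow_le_pow_left₀ (rr_nonneg _ _) h1 _).trans ?_
    rw [← pow_mul, mul_comm k, pow_mul, pow_mul]
    exact pow_le_pow_left₀ (pow_nonneg (pow_nonneg (tt_nonneg _ _) _) _)
      (pow_le_pow_left₀ (pow_nonneg (tt_nonneg _ _) _) h2 _) _
  have h4 := choose_le_exp (2 ^ d) k hk
  push_cast at h4
  rw [← hx] at h4
  have hC := C0_pos
  refine (mul_le_mul h3 (mul_le_mul_of_nonneg_right h4 (by positivity)) (by positivity)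
    (by positivity)).trans ?_
  rw [← mul_pow, ← mul_pow]
  refine pow_le_pow_left₀ (by positivity) (le_trans ?_ hR) _
  have h5 : (1 / x) ^ R ≤ (1 / 2) ^ R :=
    pow_le_pow_left₀ (by positivity) (one_div_le_one_div_of_le (by norm_num) (by linarith)) _
  calc (1 / x) ^ (R + 17) * (x * Real.exp 1 * (x ^ 16 * C0)) = Real.exp 1 * C0 * (1 / x) ^ R := by
        rw [pow_add]; field_simp
    _ ≤ _ := mul_le_mul_of_nonneg_left h5 (by positivity)

theorem mix_large : ∃ d₀ R : ℕ, ∀ d, d₀ ≤ d → tvUnif (cpow (nu d) R) ≤ 1 / 4 := by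
  obtain ⟨s, hs, hs2⟩ : ∃ s : ℕ, 60 ≤ s ∧ (4097:ℝ) * (1/2) ^ (s / 16) ≤ (1/2) ^ 60 :=
    ⟨16 * 73, by norm_num, by norm_num⟩
  obtain ⟨c, hc, hb⟩ := high_bound s hs hs2
  have hC := C0_pos
  obtain ⟨R₁, hR₁⟩ := exists_pow_lt_of_lt_one (show 0 < 1 / 9 / (Real.exp 1 * C0) by positivity)
    (show (1/2 : ℝ) < 1 by norm_num)
  obtain ⟨R₂, hR₂⟩ := exists_pow_lt_of_lt_one (show 0 < 1 / 9 / C0 by positivity)
    (show Real.exp (-c) < 1 by simpa using hc)
  refine ⟨s + 1, 16 * (R₁ + R₂ + 17) + 128, fun d hd => ?_⟩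
  have hb : ∀ v ∈ perp (UU (Q d) (2 ^ (d - 56))),
      cv (nu d) v ⬝ᵥ cv (nu d) v ≤ Real.exp (-(c * 2 ^ d)) * (v ⬝ᵥ v) := by
    obtain ⟨j, rfl⟩ : ∃ j, d = s + (j + 1) := ⟨d - (s + 1), by omega⟩
    exact hb j
  refine tv_of_l2 _ ?_
  have hK : 2 ^ 56 * 2 ^ (d - 56) = 2 ^ d := by rw [← pow_add]; congr 1; omega
  have h1 := l2_decomp (nu d) (nu_Pr d) (2 ^ (d - 56)) (by rw [card_Q]; omega) (rr d)
    (rr_nonneg d) (Real.exp_pos _).le (fun k _ S hS v hv hv' =>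
      low_link d k S hS v hv hv' fun φ h1 h2 => by
        have := low d φ h1 h2
        rwa [Fintype.card_coe, hS] at this) hb (16 * (R₁ + R₂ + 17)) 128
    (fun k => if 0 < k ∧ k ≤ 2 ^ d then ((2 ^ d / k) ^ 16 * C0) ^ k else
      trace ((mat (Fin k ↪ Q d) (nu d) ^ 128)ᵀ * mat (Fin k ↪ Q d) (nu d) ^ 128))
    (fun k => by
      split_ifs with h
      · exact HS_nu d k h.1 h.2
      · rfl)
  refine h1.trans ?_
  rw [card_Q]
  have h2 : ∑ k ∈ range (2 ^ (d - 56)), (1 / 9 : ℝ) ^ (k + 1) ≤ 1 / 8 := by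
    have : ∀ n, ∑ k ∈ range n, (1 / 9 : ℝ) ^ (k + 1) = 1 / 8 - 1 / 8 * (1 / 9) ^ n := by
      intro n
      induction n with
      | zero => simp
      | succ n ih => rw [sum_range_succ, ih]; ring
    rw [this]
    exact sub_le_self _ (by positivity)
  have h3 : Real.exp 1 * C0 * (1/2) ^ (R₁ + R₂) ≤ 1 / 9 := by
    have : (1/2 : ℝ) ^ (R₁ + R₂) ≤ (1/2) ^ R₁ :=
      pow_le_pow_of_le_one (by norm_num) (by norm_num) (by omega)
    rw [lt_div_iff₀ (by positivity)] at hR₁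
    have := mul_le_mul_of_nonneg_left this (show 0 ≤ Real.exp 1 * C0 by positivity)
    linarith
  have h4 : Real.exp (-(c * 2 ^ d)) ^ (16 * (R₁ + R₂ + 17)) *
      (((2:ℝ) ^ d / (2 ^ d : ℕ)) ^ 16 * C0) ^ 2 ^ d ≤ 1 / 9 := by
    have e : Real.exp (-(c * 2 ^ d)) = Real.exp (-c) ^ 2 ^ d := by
      rw [← Real.exp_nat_mul]; congr 1; push_cast; ring
    push_cast
    rw [div_self (by positivity), one_pow, one_mul, e, ← pow_mul, mul_comm (2 ^ d), pow_mul,
      ← mul_pow]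
    have a1 : Real.exp (-c) ^ (16 * (R₁ + R₂ + 17)) ≤ Real.exp (-c) ^ R₂ :=
      pow_le_pow_of_le_one (by positivity) (by simpa using hc.le) (by omega)
    rw [lt_div_iff₀ hC] at hR₂
    have a2 : Real.exp (-c) ^ (16 * (R₁ + R₂ + 17)) * C0 ≤ 1 / 9 :=
      (mul_le_mul_of_nonneg_right a1 hC.le).trans hR₂.le
    exact (pow_le_of_le_one (by positivity) (by linarith) (by positivity)).trans a2
  rw [if_pos ⟨by positivity, le_rfl⟩]
  refine (add_le_add (le_trans (sum_le_sum fun k hk => ?_) h2) h4).trans (by norm_num)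
  have := mem_range.1 hk
  rw [if_pos ⟨Nat.succ_pos _, by omega⟩]
  exact low_term d (k + 1) _ (Nat.succ_pos _) (by omega) h3

lemma mix_each (d : ℕ) : ∃ R : ℕ, tvUnif (cpow (nu d) R) ≤ 1 / 4 := by
  have hN : (0:ℝ) < Fintype.card (Perm (Q d)) := by exact_mod_cast Fintype.card_pos
  obtain ⟨R, hR⟩ := doeblin_Q d (nu_Pr d) (nu_pos d)
    (ε := 1 / (2 * Fintype.card (Perm (Q d)))) (by positivity)
  refine ⟨R, ?_⟩
  have := sum_le_sum fun g (_ : g ∈ univ) => hR R le_rfl g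
  rw [sum_const, card_univ, nsmul_eq_mul] at this
  have e : (Fintype.card (Perm (Q d)) : ℝ) * (1 / (2 * Fintype.card (Perm (Q d)))) = 1 / 2 := by
    field_simp
  rw [tvUnif]; linarith

theorem mix_all : ∃ C : ℕ, ∀ d, ∃ R ≤ C, tvUnif (cpow (thorp (2 ^ d)) (d * R)) ≤ 1 / 4 := by
  obtain ⟨d₀, R₀, h⟩ := mix_large
  choose f hf using mix_each
  refine ⟨R₀ + (range d₀).sup f, fun d => ?_⟩
  simp only [tv_link]
  by_cases hd : d₀ ≤ d
  · exact ⟨R₀, by omega, h d hd⟩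
  · exact ⟨f d, le_add_left (le_sup (mem_range.2 (not_le.1 hd))), hf d⟩

lemma supp_cpow {G : Type} [Group G] [Fintype G] [DecidableEq G] (μ : G → ℝ) : ∀ t,
    (univ.filter fun g => cpow μ t g ≠ 0).card ≤ (univ.filter fun g => μ g ≠ 0).card ^ t
  | 0 => by
    rw [pow_zero]
    refine card_le_one.2 fun a ha b hb => ?_
    simp only [cpow, mem_filter, mem_univ, true_and, ne_eq, ite_eq_right_iff, one_ne_zero,
      imp_false, not_not] at ha hb
    rw [ha, hb]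
  | t+1 => by
    rw [pow_succ]
    refine le_trans ?_ (Nat.mul_le_mul_right _ (supp_cpow μ t))
    rw [← card_product]
    refine le_trans (card_le_card (t := image (fun p : G × G => p.1 * p.2) _) fun g hg => ?_)
      card_image_le
    obtain ⟨h, _, hh⟩ := exists_ne_zero_of_sum_ne_zero (mem_filter.1 hg).2
    refine mem_image.2 ⟨(h, h⁻¹ * g), ?_, by simp⟩
    simp [left_ne_zero_of_mul hh, right_ne_zero_of_mul hh]

lemma tv_ge {G : Type} [Fintype G] [Nonempty G] {μ : G → ℝ} (h : Pr μ) :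
    1 - (univ.filter fun g => μ g ≠ 0).card / Fintype.card G ≤ tvUnif μ := by
  have hN : (0:ℝ) < Fintype.card G := by exact_mod_cast Fintype.card_pos
  have h1 : ∀ g, (μ g - 1 / Fintype.card G) + 2 * (1 / Fintype.card G) -
      2 * (1 / Fintype.card G) * ind (μ g ≠ 0) ≤ |μ g - 1 / Fintype.card G| := by
    intro g
    by_cases hg : μ g ≠ 0
    · rw [ind_of hg]; linarith [le_abs_self (μ g - 1 / Fintype.card G)]
    · rw [ind_of_not hg, not_not.1 hg]
      linarith [neg_le_abs (0 - 1 / Fintype.card G : ℝ)]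
  have h2 := sum_le_sum fun g (_ : g ∈ univ) => h1 g
  simp only [sum_sub_distrib, sum_add_distrib, ← mul_sum, sum_ind, h.2, sum_const, card_univ,
    nsmul_eq_mul, mul_one_div_cancel hN.ne'] at h2
  rw [tvUnif, div_eq_mul_one_div]
  linarith

theorem lower (d t : ℕ) (h : tvUnif (cpow (thorp (2 ^ (d + 1))) t) ≤ 1 / 4) : d + 1 ≤ 2 * t := by
  have hP := thorp_Pr d
  have e2 : 2 ^ (d + 1) / 2 = 2 ^ d := by rw [pow_succ]; omega
  have h1 : (univ.filter fun g => thorp (2 ^ (d + 1)) g ≠ 0).card ≤ 2 ^ 2 ^ d := by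
    have := hP.2
    rw [← sum_filter_ne_zero, sum_congr rfl (g := fun _ => (1/2) ^ 2 ^ d) fun g hg => by
      have := (mem_filter.1 hg).2
      unfold thorp at this ⊢
      rw [if_pos (by by_contra hc; exact this (if_neg hc)), e2], sum_const, nsmul_eq_mul,
      one_div, inv_pow, ← div_eq_mul_inv, div_eq_one_iff_eq (by positivity)] at this
    exact_mod_cast this.le
  have h2 := (supp_cpow (thorp (2 ^ (d + 1))) t).trans (Nat.pow_le_pow_left h1 t)
  have h3 := (tv_ge (hP.cpow t)).trans h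
  rw [Fintype.card_perm, Fintype.card_fin] at h3
  have hf : (0:ℝ) < (2 ^ (d + 1)).factorial := by exact_mod_cast Nat.factorial_pos _
  have h4 : 3 * (2 ^ (d + 1)).factorial ≤ 4 * (2 ^ 2 ^ d) ^ t := by
    have a1 : (3 / 4 : ℝ) ≤ (univ.filter fun g => cpow (thorp (2 ^ (d + 1))) t g ≠ 0).card /
        (2 ^ (d + 1)).factorial := by linarith
    rw [le_div_iff₀ hf] at a1
    have a2 : (3:ℝ) * (2 ^ (d + 1)).factorial ≤
        4 * (univ.filter fun g => cpow (thorp (2 ^ (d + 1))) t g ≠ 0).card := by linarith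
    have a3 : 3 * (2 ^ (d + 1)).factorial ≤
        4 * (univ.filter fun g => cpow (thorp (2 ^ (d + 1))) t g ≠ 0).card := by exact_mod_cast a2
    omega
  have h5 : (2 ^ d + 1) ^ 2 ^ d ≤ (2 ^ (d + 1)).factorial := by
    have := Nat.factorial_mul_pow_le_factorial (m := 2 ^ d) (n := 2 ^ d)
    rw [show 2 ^ (d + 1) = 2 ^ d + 2 ^ d by rw [pow_succ]; omega]
    exact le_trans (Nat.le_mul_of_pos_left _ (Nat.factorial_pos _)) this
  have hpos : 0 < 2 ^ d := by positivity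
  have h6 : d ≤ t := by
    by_contra hc
    have a1 : (2 ^ 2 ^ d) ^ t * 2 ^ 2 ^ d ≤ (2 ^ d) ^ 2 ^ d := by
      rw [← pow_succ, ← pow_mul, ← pow_mul, mul_comm d]
      exact Nat.pow_le_pow_right (by norm_num) (Nat.mul_le_mul_left _ (by omega))
    have a2 : (2 ^ d) ^ 2 ^ d ≤ (2 ^ d + 1) ^ 2 ^ d := Nat.pow_le_pow_left (by omega) _
    have a3 : 2 ^ 1 ≤ 2 ^ 2 ^ d := Nat.pow_le_pow_right (by norm_num) hpos
    have a4 : 0 < (2 ^ 2 ^ d) ^ t := by positivity
    nlinarith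
  have h7 : t ≠ 0 := by
    rintro rfl
    have : 2 ^ 1 ≤ (2 ^ d + 1) ^ 2 ^ d :=
      (Nat.pow_le_pow_left (by omega) _).trans (Nat.pow_le_pow_right (by omega) hpos)
    rw [pow_zero] at h4
    omega
  omega

end Vale.Agent.P162
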