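import Vale.Agent.P162.Cyc

/-! Exponential moment of the total number of short cycles over all nodes. -/

namespace Vale.Agent.P162
open Finset Equiv
open scoped BigOperators

/-- trees of block permutations -/
@[reducible] def Xi (s : ℕ) : ℕ → Type
  | 0 => Perm (Q s)
  | j+1 => Bool → Xi s j

instance instFintypeXi (s : ℕ) : ∀ j, Fintype (Xi s j)
  | 0 => inferInstanceAs (Fintype (Perm (Q s)))
  | j+1 => @Pi.instFintype _ _ _ _ (fun _ => instFintypeXi s j)

/-- the block permutation -/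
def blk (s : ℕ) : ∀ j, Xi s j → Perm (Q (s + j))
  | 0, ξ => ξ
  | j+1, ξ => (bsum (fun b => blk s j (ξ b)) : Perm (Q (s + j) × Bool))

/-- the two-sided network -/
def gg (s j : ℕ) (ω ω' : Sw (s + j) → Bool) (ξ : Xi s j) : Perm (Q (s + j)) :=
  (bf _ ω')⁻¹ * blk s j ξ * bf _ ω

lemma gg_succ_apply (s j : ℕ) (ω ω' : Sw (s + j + 1) → Bool) (ξ : Bool → Xi s j)
    (p : Q (s + j) × Bool) :
    gg s (j+1) ω ω' ξ p =
      lay (top ω') (bsum (fun b => gg s j (sub ω b) (sub ω' b) (ξ b)) (lay (top ω) p)) := rfl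

/-- weighted number of short cycles over all nodes -/
noncomputable def tot (c : ℕ → ℝ) (s : ℕ) : ∀ j, (Sw (s + j) → Bool) → (Sw (s + j) → Bool) →
    Xi s j → ℝ
  | 0, _, _, _ => 0
  | j+1, ω, ω', ξ => c (s + j + 1) * short ((s + j + 1) / 16)
      ((gg s j (sub (l := s + j) ω false) (sub (l := s + j) ω' false) (ξ false))⁻¹ *
        gg s j (sub (l := s + j) ω true) (sub (l := s + j) ω' true) (ξ true)) +
      tot c s j (sub (l := s + j) ω false) (sub (l := s + j) ω' false) (ξ false) +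
      tot c s j (sub (l := s + j) ω true) (sub (l := s + j) ω' true) (ξ true)

lemma tot_succ (c : ℕ → ℝ) (s j : ℕ) (ω ω' : Sw (s + j + 1) → Bool) (ξ : Bool → Xi s j) :
    tot c s (j+1) ω ω' ξ = c (s + j + 1) * short ((s + j + 1) / 16)
      ((gg s j (sub ω false) (sub ω' false) (ξ false))⁻¹ *
        gg s j (sub ω true) (sub ω' true) (ξ true)) +
      tot c s j (sub ω false) (sub ω' false) (ξ false) +
      tot c s j (sub ω true) (sub ω' true) (ξ true) := rfl

lemma graft_of_le {l t : ℕ} (h : l ≤ t) (ω ω' : Sw l → Bool) : graft t ω ω' = ω := by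
  funext z
  exact if_neg (not_lt.2 ((lev_le l z).trans h))

lemma sub_graft {l t : ℕ} (ω ω' : Sw (l+1) → Bool) (b : Bool) :
    sub (graft t ω ω') b = graft t (sub ω b) (sub ω' b) := rfl

lemma tot_graft (c : ℕ → ℝ) (s t : ℕ) : ∀ j, (∀ L, t < L → L ≤ s + j → c L = 0) →
    ∀ ω ω₂ ω' ξ, tot c s j (graft t ω ω₂) ω' ξ = tot c s j ω ω' ξ
  | 0, _, _, _, _, _ => rfl
  | j+1, h, ω, ω₂, ω', ξ => by
    by_cases ht : s + j + 1 ≤ t
    · rw [graft_of_le (l := s + (j + 1)) ht]
    · have ih := tot_graft c s t j fun L h1 h2 => h L h1 (by omega)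
      rw [tot_succ, tot_succ, h (s + j + 1) (by omega) (by omega), zero_mul, zero_mul]
      erw [sub_graft, sub_graft]
      rw [ih, ih]

lemma tot_avg {ι : Type*} (T : Finset ι) (c : ℕ → ℝ) (c' : ι → ℕ → ℝ) (s : ℕ) : ∀ j,
    (∀ L, s < L → L ≤ s + j → c L ≤ 𝔼 i ∈ T, c' i L) →
    ∀ ω ω' ξ, tot c s j ω ω' ξ ≤ 𝔼 i ∈ T, tot (c' i) s j ω ω' ξ
  | 0, _, _, _, _ => by simp [tot]
  | j+1, h, ω, ω', ξ => by
    have ih := tot_avg T c c' s j fun L h1 h2 => h L h1 (by omega)
    simp only [tot_succ]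
    rw [expect_add_distrib, expect_add_distrib, ← expect_mul]
    refine add_le_add (add_le_add ?_ (ih _ _ _)) (ih _ _ _)
    exact mul_le_mul_of_nonneg_right (h _ (by omega) (by omega)) (Nat.cast_nonneg _)

/-- accumulated error -/
noncomputable def sig (s j : ℕ) : ℝ := ∑ i ∈ range j, (1/2) ^ ((s + i + 1) / 16)

lemma sig_le (s j : ℕ) : sig s j ≤ 32 * (1/2) ^ (s / 16) := by
  have key : ∀ j, sig s j + ((32:ℝ) - ((s + j) % 16 : ℕ)) * (1/2) ^ ((s + j) / 16) ≤
      ((32:ℝ) - (s % 16 : ℕ)) * (1/2) ^ (s / 16) := by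
    intro j
    induction j with
    | zero => simp [sig]
    | succ j ih =>
      refine le_trans ?_ ih
      rw [sig, sum_range_succ, ← sig, add_assoc, ← add_assoc s j 1]
      refine add_le_add_right ?_ _
      have hp : (0:ℝ) < (1/2) ^ ((s + j) / 16) := by positivity
      by_cases h : (s + j) % 16 = 15
      · have e1 : (s + j + 1) / 16 = (s + j) / 16 + 1 := by omega
        have e2 : (s + j + 1) % 16 = 0 := by omega
        rw [e1, e2, h, pow_succ]
        push_cast
        linarith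
      · have e1 : (s + j + 1) / 16 = (s + j) / 16 := by omega
        have e2 : (s + j + 1) % 16 = (s + j) % 16 + 1 := by omega
        rw [e1, e2]
        push_cast
        linarith
  have h1 := key j
  have h2 : (((s + j) % 16 : ℕ) : ℝ) ≤ 16 := by exact_mod_cast (Nat.mod_lt _ (by norm_num)).le
  have h3 : (0:ℝ) ≤ ((32:ℝ) - ((s + j) % 16 : ℕ)) * (1/2) ^ ((s + j) / 16) :=
    mul_nonneg (by linarith) (by positivity)
  have h4 : (0:ℝ) ≤ ((s % 16 : ℕ) : ℝ) * (1/2) ^ (s / 16) := by positivity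
  linarith

lemma node_bound {l : ℕ} (hl : 48 ≤ l) (ρ : Perm (Q l)) (ω : Sw l → Bool) (y : ℝ) (hy : 0 ≤ y)
    (hy' : y ≤ 2 ^ ((l + 1) / 16 + 1)) :
    𝔼 ω', y ^ short ((l + 1) / 16) (ρ * bf l (graft ((l + 1) / 2) ω ω')) ≤
      Real.exp (2 ^ (l + 1) * (1/2) ^ ((l + 1) / 16)) := by
  set a := (l + 1) / 16 with ha
  refine (enc ρ ((l + 1) / 2) a (3 * a + 1) (by omega) ω y hy).trans ?_
  have h1 : (2:ℝ) ^ a * (y * (1/2) ^ (3 * a + 1)) ≤ (1/2) ^ a := by
    calc (2:ℝ) ^ a * (y * (1/2) ^ (3 * a + 1)) ≤ 2 ^ a * (2 ^ (a + 1) * (1/2) ^ (3 * a + 1)) := by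
          gcongr
      _ = (2 * (1/2)) ^ a * (2 * (1/2)) ^ (a + 1) * (1/2) ^ a := by
          rw [mul_pow, mul_pow]; ring
      _ = (1/2) ^ a := by norm_num
  have h2 : (1 + 2 ^ a * (y * (1/2) ^ (3 * a + 1))) ^ (2 ^ l) ≤
      Real.exp (2 ^ l * (1/2) ^ a) := by
    have : ((2:ℝ) ^ l * (1/2) ^ a) = ((2 ^ l : ℕ) : ℝ) * (1/2) ^ a := by push_cast; rfl
    rw [this, Real.exp_nat_mul]
    refine pow_le_pow_left₀ (by positivity) ?_ _
    linarith [Real.add_one_le_exp ((1/2 : ℝ) ^ a)]
  have h3 : (1:ℝ) ≤ 2 ^ l * (1/2) ^ a := by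
    rw [one_div, inv_pow, ← div_eq_mul_inv, one_le_div (by positivity)]
    exact pow_le_pow_right₀ (by norm_num) (by omega)
  have h4 : (2:ℝ) ≤ Real.exp (2 ^ l * (1/2) ^ a) := by
    linarith [Real.add_one_le_exp ((2:ℝ) ^ l * (1/2) ^ a)]
  have : (2:ℝ) ^ (l + 1) * (1/2) ^ a = 2 ^ l * (1/2) ^ a + 2 ^ l * (1/2) ^ a := by ring
  rw [this, Real.exp_add]
  exact mul_le_mul h4 h2 (by positivity) (by positivity)

lemma chain_moment (c : ℕ → ℝ) (hsp : ∀ L L', c L ≠ 0 → c L' ≠ 0 → L' < L → L' ≤ L / 2)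
    (hc : ∀ L, Real.exp (c L) ≤ 2 ^ (L / 16 + 1)) (s : ℕ) : ∀ j, (j ≠ 0 → 48 ≤ s) →
    ∀ ω' ξ, 𝔼 ω, Real.exp (tot c s j ω ω' ξ) ≤ Real.exp (2 ^ (s + j) * sig s j)
  | 0, _, _, _ => by simp [tot, sig]
  | j+1, hs, ω', ξ => by
    have hs' : 48 ≤ s := hs (by omega)
    have ih := chain_moment c hsp hc s j fun _ => hs'
    set K := Real.exp (2 ^ (s + j + 1) * (1/2) ^ ((s + j + 1) / 16)) with hK
    have hK1 : 1 ≤ K := Real.one_le_exp (by positivity)
    have step : ∀ ρ : Perm (Q (s + j)), 𝔼 w : Sw (s + j) → Bool,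
        Real.exp (c (s + j + 1)) ^ short ((s + j + 1) / 16) (ρ * bf _ w) *
          Real.exp (tot c s j w (sub (l := s + j) ω' true) (ξ true)) ≤
          K * Real.exp (2 ^ (s + j) * sig s j) := by
      intro ρ
      by_cases h0 : c (s + j + 1) = 0
      · simp only [h0, Real.exp_zero, one_pow, one_mul]
        exact (ih _ _).trans (le_mul_of_one_le_left (by positivity) hK1)
      · rw [E_graft ((s + j + 1) / 2)]
        have hg := tot_graft c s ((s + j + 1) / 2) j fun L h1 h2 => by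
          by_contra hL
          have := hsp _ _ h0 hL (by omega)
          omega
        simp only [hg]
        refine le_trans (expect_le_expect fun w _ => ?_)
          ((mul_expect _ _ K).symm.le.trans (mul_le_mul_of_nonneg_left (ih (sub (l := s + j) ω' true) (ξ true))
            (by positivity)))
        rw [← expect_mul]
        exact mul_le_mul_of_nonneg_right
          (node_bound (by omega) ρ w _ (by positivity) (hc _)) (by positivity)
    have e1 := E_split (l := s + j) (fun ω => Real.exp (tot c s (j+1) ω ω' ξ))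
    refine e1.le.trans (expect_le univ_nonempty fun a _ => ?_)
    rw [E_bool2]
    have e2 : (2:ℝ) ^ (s + (j + 1)) * sig s (j + 1) = 2 ^ (s + j) * sig s j +
        (2 ^ (s + j + 1) * (1/2) ^ ((s + j + 1) / 16) + 2 ^ (s + j) * sig s j) := by
      rw [sig, sum_range_succ, ← sig]; ring
    rw [e2, Real.exp_add, Real.exp_add, ← hK]
    refine le_trans (expect_le_expect fun x _ => ?_) ((expect_mul _ _ _).symm.le.trans
      (mul_le_mul_of_nonneg_right (ih (sub (l := s + j) ω' false) (ξ false)) (by positivity)))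
    refine le_trans (le_of_eq ?_) (mul_le_mul_of_nonneg_left (step
      ((gg s j x (sub (l := s + j) ω' false) (ξ false))⁻¹ *
        ((bf _ (sub (l := s + j) ω' true))⁻¹ * blk s j (ξ true)))) (by positivity))
    rw [mul_expect]
    refine expect_congr rfl fun y _ => ?_
    rw [tot_succ, Real.exp_add, Real.exp_add, mul_comm (c _), Real.exp_nat_mul]
    simp only [sub_join, cond_true, cond_false]
    rw [mul_assoc (gg s j x _ _)⁻¹]
    simp only [gg]
    ring

theorem moment (s j : ℕ) (hs : j ≠ 0 → 48 ≤ s) (ω' : Sw (s + j) → Bool) (ξ : Xi s j) :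
    𝔼 ω, Real.exp (tot (fun _ => Real.log 2 / 127) s j ω ω' ξ) ≤
      Real.exp (2 ^ (s + j) * (32 * (1/2) ^ (s / 16))) := by
  set J := Nat.log 2 (s + j) with hJ
  have hl2 : 0 < Real.log 2 := Real.log_pos (by norm_num)
  let c' : ℕ → ℕ → ℝ := fun a L =>
    if a / 2 ^ (J - Nat.log 2 L) = L then 2 * L * (Real.log 2 / 127) else 0
  let T := range (2 ^ (J + 1))
  have hT : T.Nonempty := nonempty_range_iff.2 (by positivity)
  have h1 : ∀ L, s < L → L ≤ s + j → Real.log 2 / 127 ≤ 𝔼 a ∈ T, c' a L := by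
    intro L h1 h2
    have hL : Nat.log 2 L ≤ J := Nat.log_mono_right h2
    have hL2 : L < 2 ^ (Nat.log 2 L + 1) := Nat.lt_pow_succ_log_self (by norm_num) _
    have hL3 : 2 ^ Nat.log 2 L ≤ L := Nat.pow_log_le_self _ (by omega)
    set e := J - Nat.log 2 L with he
    have hsub : Ico (L * 2 ^ e) ((L + 1) * 2 ^ e) ⊆ T.filter fun a => a / 2 ^ e = L := by
      intro a ha
      rw [mem_Ico] at ha
      refine mem_filter.2 ⟨mem_range.2 (ha.2.trans_le ?_), ?_⟩
      · have : J + 1 = Nat.log 2 L + 1 + e := by omega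
        rw [this, pow_add]
        exact Nat.mul_le_mul_right _ hL2
      · exact Nat.div_eq_of_lt_le ha.1 ha.2
    have hcard : 2 ^ e ≤ (T.filter fun a => a / 2 ^ e = L).card := by
      have := card_le_card hsub
      rw [Nat.card_Ico, add_mul, one_mul, Nat.add_sub_cancel_left] at this
      exact this
    rw [expect_eq_sum_div_card, le_div_iff₀ (by exact_mod_cast hT.card_pos)]
    simp only [c']
    rw [← sum_filter, sum_const, nsmul_eq_mul, card_range, ← he]
    have h3 : ((2 ^ (J + 1) : ℕ) : ℝ) ≤ (T.filter fun a => a / 2 ^ e = L).card * (2 * L) := by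
      have : 2 ^ (J + 1) ≤ (T.filter fun a => a / 2 ^ e = L).card * (2 * L) := by
        have e3 : J + 1 = e + (Nat.log 2 L + 1) := by omega
        rw [e3, pow_add, pow_succ]
        exact Nat.mul_le_mul hcard (by omega)
      exact_mod_cast this
    have h4 : 0 ≤ Real.log 2 / 127 := by positivity
    calc Real.log 2 / 127 * ((2 ^ (J + 1) : ℕ) : ℝ) ≤
        Real.log 2 / 127 * ((T.filter fun a => a / 2 ^ e = L).card * (2 * L)) :=
          mul_le_mul_of_nonneg_left h3 h4
      _ = _ := by ring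
  have h2 : ∀ a ∈ T, 𝔼 ω, Real.exp (tot (c' a) s j ω ω' ξ) ≤
      Real.exp (2 ^ (s + j) * (32 * (1/2) ^ (s / 16))) := by
    intro a ha
    refine (chain_moment (c' a) ?_ ?_ s j hs ω' ξ).trans
      (Real.exp_le_exp.2 (mul_le_mul_of_nonneg_left (sig_le s j) (by positivity)))
    · intro L L' hL hL' hlt
      have hL : a / 2 ^ (J - Nat.log 2 L) = L := by
        by_contra h; exact hL (if_neg h)
      have hL' : a / 2 ^ (J - Nat.log 2 L') = L' := by
        by_contra h; exact hL' (if_neg h)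
      have a1 : Nat.log 2 L ≤ J := by
        by_contra h
        have b1 : 2 ^ (J + 1) ≤ 2 ^ Nat.log 2 L := Nat.pow_le_pow_right (by norm_num) (by omega)
        have b2 : 2 ^ Nat.log 2 L ≤ L := Nat.pow_log_le_self _ (by omega)
        have b3 : L ≤ a := hL ▸ Nat.div_le_self _ _
        have := mem_range.1 ha
        omega
      have a2 : Nat.log 2 L' ≤ Nat.log 2 L := Nat.log_mono_right hlt.le
      have a3 : Nat.log 2 L' ≠ Nat.log 2 L := by
        intro h
        rw [h, hL] at hL'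
        omega
      rw [← hL', ← hL, Nat.div_div_eq_div_mul, ← pow_succ]
      exact Nat.div_le_div_left (Nat.pow_le_pow_right (by norm_num) (by omega)) (by positivity)
    · intro L
      simp only [c']
      split_ifs
      · have : (2:ℝ) ^ (L / 16 + 1) = Real.exp (((L / 16 + 1 : ℕ) : ℝ) * Real.log 2) := by
          rw [Real.exp_nat_mul, Real.exp_log (by norm_num)]
        rw [this]
        refine Real.exp_le_exp.2 ?_
        have h5 : (L:ℝ) ≤ 16 * ((L / 16 + 1 : ℕ) : ℝ) := by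
          exact_mod_cast (by omega : L ≤ 16 * (L / 16 + 1))
        have h6 : (0:ℝ) ≤ L := Nat.cast_nonneg _
        nlinarith
      · rw [Real.exp_zero]; exact one_le_pow₀ (by norm_num)
  have h3 : ∀ ω, Real.exp (tot (fun _ => Real.log 2 / 127) s j ω ω' ξ) ≤
      𝔼 a ∈ T, Real.exp (tot (c' a) s j ω ω' ξ) := by
    intro ω
    refine (Real.exp_le_exp.2 (tot_avg T _ c' s j h1 ω ω' ξ)).trans ?_
    set m := 𝔼 a ∈ T, tot (c' a) s j ω ω' ξ with hm
    have : ∀ a ∈ T, Real.exp m * (tot (c' a) s j ω ω' ξ - m + 1) ≤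
        Real.exp (tot (c' a) s j ω ω' ξ) := by
      intro a _
      have := Real.add_one_le_exp (tot (c' a) s j ω ω' ξ - m)
      calc _ ≤ Real.exp m * Real.exp (tot (c' a) s j ω ω' ξ - m) :=
            mul_le_mul_of_nonneg_left this (by positivity)
        _ = _ := by rw [← Real.exp_add]; ring_nf
    refine le_trans (le_of_eq ?_) (expect_le_expect this)
    rw [← mul_expect, expect_add_distrib, expect_sub_distrib, ← hm, expect_const hT,
      expect_const hT]
    ring
  refine (expect_le_expect fun ω _ => h3 ω).trans ?_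
  rw [expect_comm]
  exact expect_le hT h2

end Vale.Agent.P162
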