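import Mathlib

/-! Butterfly switching networks on the cube. -/

namespace Vale.Agent.P162
open Finset
open scoped BigOperators

open Classical in
/-- real indicator -/
noncomputable def ind (p : Prop) : ℝ := if p then 1 else 0

lemma ind_of {p : Prop} (h : p) : ind p = 1 := if_pos h
lemma ind_of_not {p : Prop} (h : ¬ p) : ind p = 0 := if_neg h
lemma ind_true : ind True = 1 := ind_of trivial
lemma ind_false : ind False = 0 := ind_of_not id
lemma ind_congr {p q : Prop} (h : p ↔ q) : ind p = ind q := by rw [propext h]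
lemma ind_nonneg (p : Prop) : 0 ≤ ind p := by unfold ind; split_ifs <;> norm_num
lemma ind_le_one (p : Prop) : ind p ≤ 1 := by unfold ind; split_ifs <;> norm_num
lemma ind_and (p q : Prop) : ind (p ∧ q) = ind p * ind q := by
  by_cases hp : p <;> by_cases hq : q <;> simp [ind, hp, hq]
lemma ind_mono {p q : Prop} (h : p → q) : ind p ≤ ind q := by
  by_cases hp : p
  · rw [ind_of hp, ind_of (h hp)]
  · rw [ind_of_not hp]; exact ind_nonneg _
lemma ind_eq_ite (p : Prop) [Decidable p] : ind p = if p then 1 else 0 := by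
  unfold ind; congr
lemma ind_mul_self (p : Prop) : ind p * ind p = ind p := by rw [← ind_and, and_self]
lemma sum_ind_eq {α : Type*} [Fintype α] (a : α) (f : α → ℝ) :
    ∑ x, ind (a = x) * f x = f a := by
  classical
  simp [ind_eq_ite]
lemma sum_ind_eq' {α : Type*} [Fintype α] (a : α) (f : α → ℝ) :
    ∑ x, ind (x = a) * f x = f a := by
  classical
  simp [ind_eq_ite]
lemma ind_forall {α : Type*} [Fintype α] (p : α → Prop) : ind (∀ i, p i) = ∏ i, ind (p i) := by
  by_cases h : ∀ i, p i
  · rw [ind_of h]; exact (Finset.prod_eq_one fun i _ => ind_of (h i)).symm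
  · rw [ind_of_not h]
    obtain ⟨i, hi⟩ := not_forall.1 h
    exact (Finset.prod_eq_zero (Finset.mem_univ i) (ind_of_not hi)).symm
lemma sum_ind {α : Type*} [Fintype α] (p : α → Prop) [DecidablePred p] :
    ∑ x, ind (p x) = ((univ.filter p).card : ℝ) := by
  simp [ind_eq_ite]

/-- positions at level `l` -/
@[reducible] def Q : ℕ → Type
  | 0 => Unit
  | l+1 => Q l × Bool

instance instFintypeQ : ∀ l, Fintype (Q l)
  | 0 => inferInstanceAs (Fintype Unit)
  | l+1 => @instFintypeProd _ _ (instFintypeQ l) _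

instance instDecEqQ : ∀ l, DecidableEq (Q l)
  | 0 => inferInstanceAs (DecidableEq Unit)
  | l+1 => @instDecidableEqProd _ _ (instDecEqQ l) _

instance instInhabitedQ : ∀ l, Inhabited (Q l)
  | 0 => ⟨()⟩
  | l+1 => ⟨((instInhabitedQ l).default, false)⟩

/-- switches at level `l` -/
@[reducible] def Sw : ℕ → Type
  | 0 => Empty
  | l+1 => Q l ⊕ (Bool × Sw l)

instance instFintypeSw : ∀ l, Fintype (Sw l)
  | 0 => inferInstanceAs (Fintype Empty)
  | l+1 => @instFintypeSum _ _ (instFintypeQ l) (@instFintypeProd _ _ _ (instFintypeSw l))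

instance instDecEqSw : ∀ l, DecidableEq (Sw l)
  | 0 => inferInstanceAs (DecidableEq Empty)
  | l+1 => @instDecidableEqSum _ _ (instDecEqQ l) (@instDecidableEqProd _ _ _ (instDecEqSw l))

lemma card_Q : ∀ l, Fintype.card (Q l) = 2 ^ l
  | 0 => rfl
  | l+1 => by
    have : Fintype.card (Q (l+1)) = Fintype.card (Q l × Bool) := rfl
    rw [this, Fintype.card_prod, card_Q l, Fintype.card_bool, pow_succ]

section generic
variable {Y : Type*}

/-- a layer of switches -/
def lay (a : Y → Bool) : Equiv.Perm (Y × Bool) where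
  toFun p := (p.1, xor p.2 (a p.1))
  invFun p := (p.1, xor p.2 (a p.1))
  left_inv p := by rcases p with ⟨u, b⟩; cases b <;> cases h : a u <;> simp [h]
  right_inv p := by rcases p with ⟨u, b⟩; cases b <;> cases h : a u <;> simp [h]

/-- a block sum -/
def bsum (f : Bool → Equiv.Perm Y) : Equiv.Perm (Y × Bool) where
  toFun p := (f p.2 p.1, p.2)
  invFun p := ((f p.2).symm p.1, p.2)
  left_inv p := by simp
  right_inv p := by simp

@[simp] lemma lay_apply (a : Y → Bool) (p : Y × Bool) : lay a p = (p.1, xor p.2 (a p.1)) := rfl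
@[simp] lemma bsum_apply (f : Bool → Equiv.Perm Y) (p : Y × Bool) :
    bsum f p = (f p.2 p.1, p.2) := rfl
lemma lay_inv (a : Y → Bool) : (lay a)⁻¹ = lay a := rfl
lemma lay_lay (a : Y → Bool) (p : Y × Bool) : lay a (lay a p) = p := (lay a).left_inv p
lemma bsum_inv (f : Bool → Equiv.Perm Y) : (bsum f)⁻¹ = bsum (fun b => (f b)⁻¹) := rfl
lemma bsum_mul (f g : Bool → Equiv.Perm Y) : bsum f * bsum g = bsum (fun b => f b * g b) := rfl
lemma bsum_one : bsum (fun _ => (1 : Equiv.Perm Y)) = 1 := rfl
end generic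

/-- top layer of a configuration -/
def top {l : ℕ} (ω : Sw (l+1) → Bool) : Q l → Bool := fun u => ω (Sum.inl u)
/-- sub-configurations -/
def sub {l : ℕ} (ω : Sw (l+1) → Bool) (b : Bool) : Sw l → Bool := fun z => ω (Sum.inr (b, z))
/-- joining -/
def join {l : ℕ} (a : Q l → Bool) (w : Bool → Sw l → Bool) : Sw (l+1) → Bool :=
  fun z => Sum.elim a (fun p => w p.1 p.2) z

@[simp] lemma top_join {l} (a : Q l → Bool) (w : Bool → Sw l → Bool) : top (join a w) = a := rfl
@[simp] lemma sub_join {l} (a : Q l → Bool) (w : Bool → Sw l → Bool) (b) :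
    sub (join a w) b = w b := rfl

/-- the butterfly permutation -/
def bf : ∀ l, (Sw l → Bool) → Equiv.Perm (Q l)
  | 0, _ => 1
  | l+1, ω => (bsum (fun b => bf l (sub ω b)) * lay (top ω) : Equiv.Perm (Q l × Bool))

lemma bf_succ_apply {l} (ω : Sw (l+1) → Bool) (u : Q l) (b : Bool) :
    bf (l+1) ω (u, b) = (bf l (sub ω (xor b (top ω u))) u, xor b (top ω u)) := rfl

/-- splitting equivalence -/
def splitE (l : ℕ) : (Q l → Bool) × (Bool → Sw l → Bool) ≃ (Sw (l+1) → Bool) where
  toFun p := join p.1 p.2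
  invFun ω := (top ω, sub ω)
  left_inv _ := rfl
  right_inv ω := by
    funext z
    rcases z with u | ⟨b, z⟩ <;> rfl

lemma E_prod {α β : Type*} [Fintype α] [Fintype β] (F : α × β → ℝ) :
    𝔼 p, F p = 𝔼 a, 𝔼 b, F (a, b) := by
  rw [← Finset.univ_product_univ, Finset.expect_product]

lemma E_split {l} (F : (Sw (l+1) → Bool) → ℝ) :
    𝔼 ω, F ω = 𝔼 a : Q l → Bool, 𝔼 w : Bool → Sw l → Bool, F (join a w) := by
  rw [← Fintype.expect_equiv (splitE l) (fun p => F (join p.1 p.2)) F (fun _ => rfl), E_prod]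

lemma E_bool2 {Ω : Type*} [Fintype Ω] (F : (Bool → Ω) → ℝ) :
    𝔼 w, F w = 𝔼 x : Ω, 𝔼 y : Ω, F (fun b => cond b y x) := by
  classical
  rw [← E_prod (fun p : Ω × Ω => F (fun b => cond b p.2 p.1))]
  refine Fintype.expect_equiv (Equiv.boolArrowEquivProd Ω) _ _ (fun w => ?_)
  congr 1
  funext b
  cases b <;> rfl

lemma E_bool_mul {Ω : Type*} [Fintype Ω] (f g : Ω → ℝ) :
    𝔼 w : Bool → Ω, f (w false) * g (w true) = (𝔼 x, f x) * 𝔼 y, g y := by
  rw [E_bool2, Finset.expect_mul_expect]
  rfl

lemma E_pi_prod {ι Ω : Type*} [Fintype ι] [DecidableEq ι] [Fintype Ω] (f : ι → Ω → ℝ) :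
    𝔼 w : ι → Ω, ∏ i, f i (w i) = ∏ i, 𝔼 x, f i x := by
  simp only [Fintype.expect_eq_sum_div_card]
  rw [Finset.prod_div_distrib, Finset.prod_univ_sum]
  simp

/-- the path predicate -/
def on : ∀ l, (Sw l → Bool) → Q l → Sw l → Prop
  | 0, _, _, _ => False
  | _+1, _, x, Sum.inl v => x.1 = v
  | l+1, ω, x, Sum.inr (c, z) => c = xor x.2 (top ω x.1) ∧ on l (sub ω c) x.1 z

/-- the level of a switch -/
def lev : ∀ l, Sw l → ℕ
  | 0, _ => 0
  | l+1, Sum.inl _ => l + 1
  | l+1, Sum.inr (_, z) => lev l z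

lemma lev_le : ∀ l (z : Sw l), lev l z ≤ l
  | 0, _ => le_rfl
  | _+1, Sum.inl _ => le_rfl
  | l+1, Sum.inr (_, z) => (lev_le l z).trans (Nat.le_succ _)

lemma path_agree : ∀ l (ω₁ ω₂ : Sw l → Bool) (x : Q l),
    (∀ z, on l ω₁ x z → on l ω₂ x z → ω₁ z = ω₂ z) →
    bf l ω₁ x = bf l ω₂ x ∧ ∀ z, on l ω₁ x z ↔ on l ω₂ x z
  | 0, _, _, _, _ => ⟨rfl, fun _ => Iff.rfl⟩
  | l+1, ω₁, ω₂, (u, b), h => by
    have ht : top ω₁ u = top ω₂ u := h (Sum.inl u) rfl rfl
    have ih := path_agree l (sub ω₁ (xor b (top ω₂ u))) (sub ω₂ (xor b (top ω₂ u))) u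
      (fun z h1 h2 => h (Sum.inr (_, z)) ⟨by rw [ht], h1⟩ ⟨rfl, h2⟩)
    refine ⟨by rw [bf_succ_apply, bf_succ_apply, ht, ih.1], ?_⟩
    rintro (v | ⟨c, z⟩)
    · exact Iff.rfl
    · show (c = xor b (top ω₁ u) ∧ on l (sub ω₁ c) u z) ↔ (c = xor b (top ω₂ u) ∧ on l (sub ω₂ c) u z)
      rw [ht]
      constructor
      · rintro ⟨rfl, h2⟩; exact ⟨rfl, (ih.2 z).1 h2⟩
      · rintro ⟨rfl, h2⟩; exact ⟨rfl, (ih.2 z).2 h2⟩

lemma path_of_out : ∀ l (ω₁ ω₂ : Sw l → Bool) (x : Q l), bf l ω₁ x = bf l ω₂ x →
    (∀ z, on l ω₁ x z ↔ on l ω₂ x z) ∧ ∀ z, on l ω₁ x z → ω₁ z = ω₂ z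
  | 0, _, _, _, _ => ⟨fun _ => Iff.rfl, fun _ h => h.elim⟩
  | l+1, ω₁, ω₂, (u, b), h => by
    rw [bf_succ_apply, bf_succ_apply] at h
    have h2 : xor b (top ω₁ u) = xor b (top ω₂ u) := congrArg Prod.snd h
    have ht : top ω₁ u = top ω₂ u := by
      cases b <;> simpa using h2
    have h1 : bf l (sub ω₁ (xor b (top ω₂ u))) u = bf l (sub ω₂ (xor b (top ω₂ u))) u := by
      have := congrArg Prod.fst h
      rw [ht] at this
      exact this
    have ih := path_of_out l _ _ u h1
    constructor
    · rintro (v | ⟨c, z⟩)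
      · exact Iff.rfl
      · show (c = xor b (top ω₁ u) ∧ on l (sub ω₁ c) u z) ↔
          (c = xor b (top ω₂ u) ∧ on l (sub ω₂ c) u z)
        rw [ht]
        constructor
        · rintro ⟨rfl, h2⟩; exact ⟨rfl, (ih.1 z).1 h2⟩
        · rintro ⟨rfl, h2⟩; exact ⟨rfl, (ih.1 z).2 h2⟩
    · rintro (v | ⟨c, z⟩) hz
      · have : u = v := hz
        subst this
        exact ht
      · obtain ⟨hc, hz⟩ : c = xor b (top ω₁ u) ∧ on l (sub ω₁ c) u z := hz
        rw [ht] at hc
        subst hc
        exact ih.2 z hz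

lemma two_paths : ∀ l (ω : Sw l → Bool) (x y w : Q l) (z : Sw l),
    on l ω x z → on l ω y z → on l ω w z → x = y ∨ x = w ∨ y = w
  | 0, _, _, _, _, _, h, _, _ => h.elim
  | l+1, ω, (x, a), (y, b), (w, c), Sum.inl v, h1, h2, h3 => by
    have h1 : x = v := h1
    have h2 : y = v := h2
    have h3 : w = v := h3
    subst h1; subst h2; subst h3
    cases a <;> cases b <;> cases c <;> simp
  | l+1, ω, (x, a), (y, b), (w, c), Sum.inr (e, z), h1, h2, h3 => by
    obtain ⟨h1, h1'⟩ : e = xor a (top ω x) ∧ on l (sub ω e) x z := h1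
    obtain ⟨h2, h2'⟩ : e = xor b (top ω y) ∧ on l (sub ω e) y z := h2
    obtain ⟨h3, h3'⟩ : e = xor c (top ω w) ∧ on l (sub ω e) w z := h3
    have key : ∀ (x : Q l) (a b : Bool), e = xor a (top ω x) → e = xor b (top ω x) → a = b := by
      intro x a b h h'
      rw [h] at h'
      cases a <;> cases b <;> simp_all
    rcases two_paths l _ x y w z h1' h2' h3' with h | h | h
    · subst h; left; rw [key x a b h1 h2]
    · subst h; right; left; rw [key x a c h1 h3]
    · subst h; right; right; rw [key y b c h2 h3]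

lemma card_filter_Sw {l : ℕ} (p : Sw (l+1) → Prop) [DecidablePred p] :
    (univ.filter p).card = (univ.filter fun u : Q l => p (Sum.inl u)).card +
      ((univ.filter fun z : Sw l => p (Sum.inr (false, z))).card +
       (univ.filter fun z : Sw l => p (Sum.inr (true, z))).card) := by
  simp only [Finset.card_filter]
  have : ∑ i : Sw (l+1), (if p i then 1 else 0 : ℕ) =
      ∑ i : Q l ⊕ (Bool × Sw l), (if p i then 1 else 0 : ℕ) := rfl
  rw [this, Fintype.sum_sum_type, Fintype.sum_prod_type, Fintype.sum_bool]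
  ring

open Classical in
lemma card_path : ∀ l (ω : Sw l → Bool) (x : Q l) (t : ℕ),
    (univ.filter fun z => on l ω x z ∧ t < lev l z).card = l - t
  | 0, _, _, _ => by
    rw [Nat.zero_sub, Finset.card_eq_zero, Finset.filter_eq_empty_iff]
    intro z; exact z.elim
  | l+1, ω, (u, b), t => by
    rw [card_filter_Sw]
    have e1 : (univ.filter fun v : Q l => on (l+1) ω (u, b) (Sum.inl v) ∧
        t < lev (l+1) (Sum.inl v)).card = if t < l + 1 then 1 else 0 := by
      split_ifs with h
      · rw [Finset.card_eq_one]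
        refine ⟨u, ?_⟩
        ext v
        simp only [mem_filter, mem_univ, true_and, mem_singleton]
        exact ⟨fun h => (show u = v from h.1).symm, fun h' => ⟨h'.symm, h⟩⟩
      · rw [Finset.card_eq_zero, Finset.filter_eq_empty_iff]
        intro v _ h'
        exact h h'.2
    have e2 : ∀ c, (univ.filter fun z : Sw l => on (l+1) ω (u, b) (Sum.inr (c, z)) ∧
        t < lev (l+1) (Sum.inr (c, z))).card = if c = xor b (top ω u) then l - t else 0 := by
      intro c
      split_ifs with h
      · rw [← card_path l (sub ω c) u t]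
        congr 1
        ext z
        simp only [mem_filter, mem_univ, true_and]
        exact ⟨fun h' => ⟨h'.1.2, h'.2⟩, fun h' => ⟨⟨h, h'.1⟩, h'.2⟩⟩
      · rw [Finset.card_eq_zero, Finset.filter_eq_empty_iff]
        intro v _ h'
        exact h h'.1.1
    rw [e1, e2, e2]
    cases xor b (top ω u) <;> simp <;> split_ifs <;> omega

open Classical in
lemma exists_few_shared : ∀ l (ω : Sw l → Bool) (a : ℕ) (W : Finset (Q l)), W.Nonempty →
    W.card ≤ 2 ^ a → ∃ x ∈ W,
      (univ.filter fun z => on l ω x z ∧ ∃ y ∈ W, y ≠ x ∧ on l ω y z).card ≤ a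
  | 0, _, _, _, ⟨x, hx⟩, _ => ⟨x, hx, by
      have : (univ : Finset (Sw 0)) = ∅ := by ext z; exact z.elim
      rw [this]; simp⟩
  | l+1, ω, a, W, hW, hcard => by
    let Wc : Bool → Finset (Q l) := fun c => univ.filter fun u => (u, xor c (top ω u)) ∈ W
    have hsum : (Wc false).card + (Wc true).card = W.card := by
      have : W.card = ∑ p : Q l × Bool, if lay (top ω) p ∈ W then 1 else 0 := by
        rw [Equiv.sum_comp (lay (top ω)) (fun p => if p ∈ W then 1 else 0)]
        have : ∑ p : Q l × Bool, (if p ∈ W then 1 else 0 : ℕ) =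
          ∑ p : Q (l+1), (if p ∈ W then 1 else 0 : ℕ) := rfl
        rw [this, ← Finset.card_filter]
        simp
      rw [this, Fintype.sum_prod_type_right, Fintype.sum_bool]
      simp only [Wc, Finset.card_filter, lay_apply]
      exact add_comm _ _
    -- main step
    have step : ∀ c a', (Wc c).Nonempty → (Wc c).card ≤ 2 ^ a' →
        ∃ x ∈ W, (univ.filter fun z => on (l+1) ω x z ∧ ∃ y ∈ W, y ≠ x ∧ on (l+1) ω y z).card ≤
          a' + if (Wc (!c)).Nonempty then 1 else 0 := by
      intro c a' hne hc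
      obtain ⟨u, hu, hb⟩ := exists_few_shared l (sub ω c) a' (Wc c) hne hc
      have huW : ((u, xor c (top ω u)) : Q l × Bool) ∈ W := by simpa [Wc] using hu
      refine ⟨(u, xor c (top ω u)), huW, ?_⟩
      rw [card_filter_Sw]
      have e1 : (univ.filter fun v : Q l => on (l+1) ω (u, xor c (top ω u)) (Sum.inl v) ∧
          ∃ y ∈ W, y ≠ (u, xor c (top ω u)) ∧ on (l+1) ω y (Sum.inl v)).card ≤
          if (Wc (!c)).Nonempty then 1 else 0 := by
        split_ifs with h
        · rw [Finset.card_le_one]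
          intro v hv w hw
          simp only [mem_filter, mem_univ, true_and] at hv hw
          exact (show u = v from hv.1).symm.trans hw.1
        · rw [Nat.le_zero, Finset.card_eq_zero, Finset.filter_eq_empty_iff]
          rintro v _ ⟨h1, ⟨y, e⟩, hy, hne, h2⟩
          have h1 : u = v := h1
          have h2 : y = v := h2
          subst h1; subst h2
          apply h
          refine ⟨y, ?_⟩
          have : e = xor (!c) (top ω y) := by
            have : e ≠ xor c (top ω y) := fun h => hne (by rw [h])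
            cases e <;> cases c <;> cases h : top ω y <;> simp_all
          simp only [Wc, mem_filter, mem_univ, true_and]
          rw [← this]; exact hy
      have e2 : ∀ e, (univ.filter fun z : Sw l =>
          on (l+1) ω (u, xor c (top ω u)) (Sum.inr (e, z)) ∧
          ∃ y ∈ W, y ≠ (u, xor c (top ω u)) ∧ on (l+1) ω y (Sum.inr (e, z))).card ≤
          if e = c then a' else 0 := by
        intro e
        split_ifs with h
        · subst h
          refine le_trans (Finset.card_le_card ?_) hb
          intro z hz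
          simp only [mem_filter, mem_univ, true_and] at hz ⊢
          obtain ⟨h1, ⟨y, f⟩, hy, hne, h2⟩ := hz
          obtain ⟨h2, h2'⟩ : e = xor f (top ω y) ∧ on l (sub ω e) y z := h2
          have hf : f = xor e (top ω y) := by
            rw [h2]; cases f <;> cases top ω y <;> rfl
          refine ⟨h1.2, y, ?_, ?_, h2'⟩
          · simp only [Wc, mem_filter, mem_univ, true_and]
            rw [← hf]; exact hy
          · rintro rfl
            exact hne (by rw [hf])
        · rw [Nat.le_zero, Finset.card_eq_zero, Finset.filter_eq_empty_iff]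
          rintro z _ ⟨h1, _⟩
          obtain ⟨h1, _⟩ : e = xor (xor c (top ω u)) (top ω u) ∧ _ := h1
          apply h
          rw [h1]; cases c <;> cases top ω u <;> rfl
      have f1 := e2 false
      have f2 := e2 true
      have f3 : (if false = c then a' else 0) + (if true = c then a' else 0) = a' := by
        cases c <;> simp
      omega
    have hpos : 0 < W.card := hW.card_pos
    by_cases h0 : (Wc false).Nonempty
    · by_cases h1 : (Wc true).Nonempty
      · have p0 := h0.card_pos
        have p1 := h1.card_pos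
        obtain ⟨a', rfl⟩ : ∃ a', a = a' + 1 := by
          cases a with
          | zero => simp at hcard; omega
          | succ a' => exact ⟨a', rfl⟩
        rw [pow_succ] at hcard
        by_cases hle : (Wc false).card ≤ 2 ^ a'
        · obtain ⟨x, hx, hb⟩ := step false a' h0 hle
          exact ⟨x, hx, hb.trans (by split_ifs <;> omega)⟩
        · obtain ⟨x, hx, hb⟩ := step true a' h1 (by omega)
          exact ⟨x, hx, hb.trans (by split_ifs <;> omega)⟩
      · obtain ⟨x, hx, hb⟩ := step false a h0 (by omega)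
        exact ⟨x, hx, by simpa [h1] using hb⟩
    · have h1 : (Wc true).Nonempty := by
        rw [Finset.not_nonempty_iff_eq_empty] at h0
        rw [← Finset.card_pos]
        rw [h0] at hsum
        simp at hsum
        omega
      obtain ⟨x, hx, hb⟩ := step true a h1 (by omega)
      exact ⟨x, hx, by simpa [h0] using hb⟩

/-- take `ω'` on levels above `t` -/
def graft {l : ℕ} (t : ℕ) (ω ω' : Sw l → Bool) : Sw l → Bool :=
  fun z => if t < lev l z then ω' z else ω z

lemma E_graft {l : ℕ} (t : ℕ) (F : (Sw l → Bool) → ℝ) :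
    𝔼 ω, F ω = 𝔼 ω, 𝔼 ω', F (graft t ω ω') := by
  let e : (Sw l → Bool) × (Sw l → Bool) ≃ (Sw l → Bool) × (Sw l → Bool) :=
    Function.Involutive.toPerm (fun p => (graft t p.1 p.2, graft t p.2 p.1)) (by
      rintro ⟨x, y⟩
      ext z <;> simp only [graft] <;> split_ifs <;> rfl)
  rw [← E_prod (fun p => F (graft t p.1 p.2)),
    Fintype.expect_equiv e (fun p => F (graft t p.1 p.2)) (fun p => F p.1) (fun _ => rfl), E_prod]
  simp

lemma E_flip {Y : Type*} [Fintype Y] [DecidableEq Y] (u : Y) (c : Bool) :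
    𝔼 a : Y → Bool, ind (a u = c) = 1 / 2 := by
  let e : (Y → Bool) ≃ (Y → Bool) :=
    Function.Involutive.toPerm (fun a => Function.update a u (!(a u))) (by
      intro a; ext x
      by_cases h : x = u
      · subst h; simp
      · simp [Function.update_of_ne h])
  have h1 := Fintype.expect_equiv e (fun a => 1 - ind (a u = c))
    (fun a => ind (a u = c)) (fun a => by
      show _ = ind (Function.update a u (!(a u)) u = c)
      rw [Function.update_self]
      cases a u <;> cases c <;> simp [ind_true, ind_false])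
  rw [Finset.expect_sub_distrib, Fintype.expect_const] at h1
  linarith

lemma marginal : ∀ l (x y : Q l),
    𝔼 ω : Sw l → Bool, ind (bf l ω x = y) = (1/2) ^ l
  | 0, x, y => by
    have : ∀ ω : Sw 0 → Bool, ind (bf 0 ω x = y) = 1 := fun _ => ind_of rfl
    rw [Finset.expect_congr rfl (fun ω _ => this ω), pow_zero, Fintype.expect_const]
  | l+1, (u, b), (v, c) => by
    rw [E_split]
    have : ∀ a : Q l → Bool, 𝔼 w : Bool → Sw l → Bool,
        ind (bf (l+1) (join a w) (u, b) = (v, c)) = ind (a u = xor b c) * (1/2) ^ l := by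
      intro a
      have h1 : ∀ w : Bool → Sw l → Bool,
          ind (bf (l+1) (join a w) (u, b) = (v, c)) =
          ind (a u = xor b c) * ind (bf l (w c) u = v) := by
        intro w
        rw [bf_succ_apply, top_join, sub_join, ← ind_and]
        refine ind_congr ⟨fun h => ?_, fun ⟨h, h2⟩ => ?_⟩
        · have h' : xor b (a u) = c := congrArg Prod.snd h
          subst h'
          exact ⟨by cases b <;> cases a u <;> rfl, congrArg Prod.fst h⟩
        · have h' : xor b (a u) = c := by rw [h]; cases b <;> cases c <;> rfl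
          rw [h', h2]
      simp only [h1]
      rw [← Finset.mul_expect, ← marginal l u v, E_bool2]
      cases c <;> simp
    simp only [this]
    rw [← Finset.expect_mul, pow_succ', E_flip]

end Vale.Agent.P162
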